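import Crest.Agent.R177.DefsCx
import Crest.Prelude.Def_ClassifyingComplex
import Crest.Agent.R177.CWQuot.Abstract

set_option autoImplicit false

namespace Crest.Agent.R177

namespace CWQuotAux

open Metric Set unitInterval

/-- the affine map `[-1,1] → [0,1]` -/
noncomputable def aff (x : ℝ) : I := projIcc 0 1 zero_le_one ((x + 1) / 2)

theorem continuous_aff : Continuous aff :=
  continuous_projIcc.comp (by fun_prop)

theorem aff_val {x : ℝ} (h : |x| ≤ 1) : (aff x : ℝ) = (x + 1) / 2 := by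
  rw [abs_le] at h
  unfold aff
  rw [projIcc_of_mem zero_le_one (x := (x + 1) / 2) ⟨by linarith, by linarith⟩]

theorem aff_mem {x : ℝ} (h : |x| < 1) : aff x ∈ Ioo (0 : I) 1 := by
  have hv := aff_val h.le
  rw [abs_lt] at h
  constructor
  · rw [← Subtype.coe_lt_coe, hv]; simp only [Set.Icc.coe_zero]; linarith
  · rw [← Subtype.coe_lt_coe, hv]; simp only [Set.Icc.coe_one]; linarith

theorem aff_inj {x y : ℝ} (hx : |x| < 1) (hy : |y| < 1) (h : aff x = aff y) : x = y := by
  have h1 := aff_val hx.le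
  have h2 := aff_val hy.le
  rw [h] at h1
  linarith

theorem aff_bdry {x : ℝ} (h : |x| = 1) : aff x = 0 ∨ aff x = 1 := by
  have hv := aff_val h.le
  rcases (abs_eq zero_le_one).mp h with h1 | h1
  · right; apply Subtype.ext; rw [hv, h1]; simp
  · left; apply Subtype.ext; rw [hv, h1]; simp

theorem exists_aff {s : I} (h : s ∈ Ioo (0 : I) 1) : ∃ x : ℝ, |x| < 1 ∧ aff x = s := by
  obtain ⟨h0, h1⟩ := h
  rw [← Subtype.coe_lt_coe] at h0 h1
  simp only [Set.Icc.coe_zero, Set.Icc.coe_one] at h0 h1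
  have hx : |2 * (s : ℝ) - 1| < 1 := by rw [abs_lt]; constructor <;> linarith
  refine ⟨2 * (s : ℝ) - 1, hx, Subtype.ext ?_⟩
  rw [aff_val hx.le]; ring

theorem mem_ball_iff {n : ℕ} {x : Fin n → ℝ} :
    x ∈ ball (0 : Fin n → ℝ) 1 ↔ ∀ i, |x i| < 1 := by
  rw [mem_ball_zero_iff, pi_norm_lt_iff one_pos]
  simp [Real.norm_eq_abs]

theorem of_mem_sphere {n : ℕ} {x : Fin n → ℝ} (h : x ∈ sphere (0 : Fin n → ℝ) 1) :
    ∃ i, |x i| = 1 := by
  rw [mem_sphere_zero_iff_norm] at h
  by_contra hne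
  push Not at hne
  have : x ∈ ball (0 : Fin n → ℝ) 1 := by
    rw [mem_ball_iff]
    intro i
    have h1 : ‖x i‖ ≤ ‖x‖ := norm_le_pi_norm x i
    rw [h, Real.norm_eq_abs] at h1
    exact lt_of_le_of_ne h1 (hne i)
  rw [mem_ball_zero_iff] at this
  linarith

theorem unit_cases (s : I) : s = 0 ∨ s = 1 ∨ s ∈ Ioo (0 : I) 1 := by
  by_cases h0 : s = 0
  · exact Or.inl h0
  by_cases h1 : s = 1
  · exact Or.inr (Or.inl h1)
  exact Or.inr (Or.inr ⟨lt_of_le_of_ne bot_le (Ne.symm h0), lt_of_le_of_ne le_top h1⟩)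

variable (G : Type) [Group G]

/-- orbit space -/
abbrev Orb (X : Type) [MulAction G X] : Type := MulAction.orbitRel.Quotient G X

/-- the projection to the orbit space -/
abbrev pr {X : Type} [MulAction G X] (x : X) : Orb G X := Quotient.mk (MulAction.orbitRel G X) x

variable {G}

theorem pr_eq_iff {X : Type} [MulAction G X] {x y : X} :
    pr G x = pr G y ↔ ∃ g : G, g • y = x := by
  unfold pr
  rw [Quotient.eq]
  exact MulAction.orbitRel_apply

theorem pr_smul {X : Type} [MulAction G X] (g : G) (x : X) : pr G (g • x) = pr G x :=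
  pr_eq_iff.mpr ⟨g, rfl⟩

theorem out_pr {X : Type} [MulAction G X] (x : X) : ∃ g : G, g • x = (pr G x).out :=
  pr_eq_iff.mp (Quotient.out_eq (pr G x))

theorem eq_of_out {X : Type} [MulAction G X] {a b : Orb G X} {g : G} (h : g • b.out = a.out) :
    a = b := by
  rw [← Quotient.out_eq a, ← Quotient.out_eq b]
  exact pr_eq_iff.mpr ⟨g, h⟩

variable (G)

/-- the cells -/
def cell (X0 X1 X2 : Type) [MulAction G X0] [MulAction G X1] [MulAction G X2] : ℕ → Type
  | 0 => Orb G X0
  | 1 => Orb G X1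
  | 2 => Orb G X2
  | _ + 3 => Empty

variable {X0 X1 X2 : Type} [MulAction G X0] [MulAction G X1] [MulAction G X2]
  {K : Cx X0 X1 X2} {Y : Type} [TopologicalSpace Y] [MulAction G Y] (R : Realz K Y)

/-- the characteristic maps -/
noncomputable def chr : ∀ n, cell G X0 X1 X2 n → (Fin n → ℝ) → Orb G Y
  | 0, o, _ => pr G (R.pt (Quotient.out (s := MulAction.orbitRel G X0) o))
  | 1, o, x => pr G (R.ed (Quotient.out (s := MulAction.orbitRel G X1) o) (aff (x 0)))
  | 2, o, x => pr G (R.tr (Quotient.out (s := MulAction.orbitRel G X2) o) (aff (x 0), aff (x 1)))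
  | _ + 3, o, _ => Empty.elim o

/-- the parameter of a point of an open cell -/
noncomputable def par : ∀ n, cell G X0 X1 X2 n → ∀ x ∈ ball (0 : Fin n → ℝ) 1, OCell X0 X1 X2
  | 0, o, _, _ => Sum.inl (Quotient.out (s := MulAction.orbitRel G X0) o)
  | 1, o, x, hx => Sum.inr (Sum.inl (Quotient.out (s := MulAction.orbitRel G X1) o,
      ⟨aff (x 0), aff_mem (mem_ball_iff.mp hx 0)⟩))
  | 2, o, x, hx => Sum.inr (Sum.inr (Quotient.out (s := MulAction.orbitRel G X2) o,
      ⟨aff (x 0), aff_mem (mem_ball_iff.mp hx 0)⟩, ⟨aff (x 1), aff_mem (mem_ball_iff.mp hx 1)⟩))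
  | _ + 3, o, _, _ => Empty.elim o

theorem chr_eq_par (n : ℕ) (o : cell G X0 X1 X2 n) (x : Fin n → ℝ)
    (hx : x ∈ ball (0 : Fin n → ℝ) 1) :
    chr G R n o x = pr G (cellMap R.pt R.ed R.tr (par G n o x hx)) := by
  match n, o, x, hx with
  | 0, _, _, _ => rfl
  | 1, _, _, _ => rfl
  | 2, _, _, _ => rfl
  | _ + 3, o, _, _ => exact Empty.elim o

variable {G}

/-- the action on parameters -/
def act (g : G) : OCell X0 X1 X2 → OCell X0 X1 X2
  | Sum.inl x => Sum.inl (g • x)
  | Sum.inr (Sum.inl p) => Sum.inr (Sum.inl (g • p.1, p.2))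
  | Sum.inr (Sum.inr p) => Sum.inr (Sum.inr (g • p.1, p.2))

variable {R}

theorem cellMap_act (hR : R.Act G) (g : G) (c : OCell X0 X1 X2) :
    cellMap R.pt R.ed R.tr (act g c) = g • cellMap R.pt R.ed R.tr c := by
  match c with
  | Sum.inl x => exact hR.pt_smul g x
  | Sum.inr (Sum.inl p) => exact hR.ed_smul g p.1 _
  | Sum.inr (Sum.inr p) => exact hR.tr_smul g p.1 _

theorem act_of_chr_eq (hR : R.Act G) {n m : ℕ} {i : cell G X0 X1 X2 n} {j : cell G X0 X1 X2 m}
    {x : Fin n → ℝ} (hx : x ∈ ball (0 : Fin n → ℝ) 1) {y : Fin m → ℝ}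
    (hy : y ∈ ball (0 : Fin m → ℝ) 1) (h : chr G R n i x = chr G R m j y) :
    ∃ g : G, act g (par G m j y hy) = par G n i x hx := by
  rw [chr_eq_par G R n i x hx, chr_eq_par G R m j y hy, pr_eq_iff] at h
  obtain ⟨g, hg⟩ := h
  rw [← cellMap_act hR] at hg
  exact ⟨g, R.bij.1 hg⟩

theorem chr_disj (hR : R.Act G) (n : ℕ) (i : cell G X0 X1 X2 n) (m : ℕ) (j : cell G X0 X1 X2 m)
    (x : Fin n → ℝ) (hx : x ∈ ball (0 : Fin n → ℝ) 1) (y : Fin m → ℝ)
    (hy : y ∈ ball (0 : Fin m → ℝ) 1) (h : chr G R n i x = chr G R m j y) :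
    (⟨n, i⟩ : Σ n, cell G X0 X1 X2 n) = ⟨m, j⟩ := by
  obtain ⟨g, hg⟩ := act_of_chr_eq hR hx hy h
  match n, i, x, hx, m, j, y, hy, hg with
  | _ + 3, o, _, _, _, _, _, _, _ => exact Empty.elim o
  | _, _, _, _, _ + 3, o, _, _, _ => exact Empty.elim o
  | 0, i, _, _, 0, j, _, _, hg =>
    simp only [par, act, Sum.inl.injEq] at hg
    have : i = j := eq_of_out (X := X0) hg
    rw [this]
  | 1, i, _, _, 1, j, _, _, hg =>
    simp only [par, act, Sum.inr.injEq, Sum.inl.injEq, Prod.mk.injEq] at hg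
    have : i = j := eq_of_out (X := X1) hg.1
    rw [this]
  | 2, i, _, _, 2, j, _, _, hg =>
    simp only [par, act, Sum.inr.injEq, Prod.mk.injEq] at hg
    have : i = j := eq_of_out (X := X2) hg.1
    rw [this]
  | 0, _, _, _, 1, _, _, _, hg => simp [par, act] at hg
  | 0, _, _, _, 2, _, _, _, hg => simp [par, act] at hg
  | 1, _, _, _, 0, _, _, _, hg => simp [par, act] at hg
  | 1, _, _, _, 2, _, _, _, hg => simp [par, act] at hg
  | 2, _, _, _, 0, _, _, _, hg => simp [par, act] at hg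
  | 2, _, _, _, 1, _, _, _, hg => simp [par, act] at hg

theorem chr_inj (hR : R.Act G) (n : ℕ) (i : cell G X0 X1 X2 n) :
    InjOn (chr G R n i) (ball 0 1) := by
  intro x hx y hy h
  obtain ⟨g, hg⟩ := act_of_chr_eq hR hx hy h
  match n, i, x, hx, y, hy, hg with
  | _ + 3, o, _, _, _, _, _ => exact Empty.elim o
  | 0, _, _, _, _, _, _ => exact Subsingleton.elim _ _
  | 1, i, x, hx, y, hy, hg =>
    simp only [par, act, Sum.inr.injEq, Sum.inl.injEq, Prod.mk.injEq, Subtype.mk.injEq] at hg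
    funext k
    have hk : k = 0 := Subsingleton.elim _ _
    subst hk
    exact aff_inj (mem_ball_iff.mp hx 0) (mem_ball_iff.mp hy 0) hg.2.symm
  | 2, i, x, hx, y, hy, hg =>
    simp only [par, act, Sum.inr.injEq, Prod.mk.injEq, Subtype.mk.injEq] at hg
    funext k
    fin_cases k
    · exact aff_inj (mem_ball_iff.mp hx 0) (mem_ball_iff.mp hy 0) hg.2.1.symm
    · exact aff_inj (mem_ball_iff.mp hx 1) (mem_ball_iff.mp hy 1) hg.2.2.symm

theorem chr_cont (n : ℕ) (i : cell G X0 X1 X2 n) : Continuous (chr G R n i) := by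
  match n, i with
  | _ + 3, o => exact Empty.elim o
  | 0, _ => exact continuous_const
  | 1, i =>
    exact continuous_quotient_mk'.comp ((R.ed _).continuous.comp
      (continuous_aff.comp (continuous_apply 0)))
  | 2, i =>
    exact continuous_quotient_mk'.comp ((R.tr _).continuous.comp
      ((continuous_aff.comp (continuous_apply 0)).prodMk
        (continuous_aff.comp (continuous_apply 1))))

/-- `z` lies in an open cell of dimension `< n` -/
def Low (R : Realz K Y) (n : ℕ) (z : Orb G Y) : Prop :=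
  ∃ m, m < n ∧ ∃ j, ∃ y ∈ ball (0 : Fin m → ℝ) 1, chr G R m j y = z

theorem Low.mono {n n' : ℕ} {z : Orb G Y} (h : Low R n z) (hn : n ≤ n') : Low R n' z := by
  obtain ⟨m, hm, h⟩ := h
  exact ⟨m, by omega, h⟩

theorem low_pt (hR : R.Act G) (x : X0) : Low R 1 (pr G (R.pt x)) := by
  refine ⟨0, one_pos, pr G x, 0, by simp, ?_⟩
  obtain ⟨g, hg⟩ := out_pr (G := G) x
  change pr G (R.pt (pr G x).out) = _
  rw [← hg, hR.pt_smul, pr_smul]

theorem low_ed (hR : R.Act G) (e : X1) (s : I) : Low R 2 (pr G (R.ed e s)) := by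
  rcases unit_cases s with rfl | rfl | hs
  · rw [R.ed_zero]; exact (low_pt hR _).mono (by omega)
  · rw [R.ed_one]; exact (low_pt hR _).mono (by omega)
  · obtain ⟨x, hx, rfl⟩ := exists_aff hs
    refine ⟨1, by omega, pr G e, fun _ => x, mem_ball_iff.mpr (fun _ => hx), ?_⟩
    obtain ⟨g, hg⟩ := out_pr (G := G) e
    change pr G (R.ed (pr G e).out (aff x)) = _
    rw [← hg, hR.ed_smul, pr_smul]

theorem low_tr (hR : R.Act G) (f : X2) {s t : I} (hs : s ∈ Ioo (0 : I) 1)
    (ht : t ∈ Ioo (0 : I) 1) : Low R 3 (pr G (R.tr f (s, t))) := by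
  obtain ⟨x, hx, rfl⟩ := exists_aff hs
  obtain ⟨y, hy, rfl⟩ := exists_aff ht
  refine ⟨2, by omega, pr G f, ![x, y], mem_ball_iff.mpr ?_, ?_⟩
  · intro i; fin_cases i
    · exact hx
    · exact hy
  obtain ⟨g, hg⟩ := out_pr (G := G) f
  change pr G (R.tr (pr G f).out (aff x, aff y)) = _
  rw [← hg, hR.tr_smul, pr_smul]

theorem chr_bdry (hR : R.Act G) (n : ℕ) (i : cell G X0 X1 X2 n) (x : Fin n → ℝ)
    (hx : x ∈ sphere (0 : Fin n → ℝ) 1) : Low R n (chr G R n i x) := by
  obtain ⟨k, hk⟩ := of_mem_sphere hx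
  have hb := aff_bdry hk
  match n, i, x, k, hb with
  | _ + 3, o, _, _, _ => exact Empty.elim o
  | 0, _, _, k, _ => exact k.elim0
  | 1, i, x, k, hb =>
    have hk : k = 0 := Subsingleton.elim _ _
    subst hk
    change Low R 1 (pr G (R.ed _ (aff (x 0))))
    rcases hb with hb | hb
    · rw [hb, R.ed_zero]; exact low_pt hR _
    · rw [hb, R.ed_one]; exact low_pt hR _
  | 2, i, x, k, hb =>
    change Low R 2 (pr G (R.tr _ (aff (x 0), aff (x 1))))
    fin_cases k
    · change aff (x 0) = 0 ∨ aff (x 0) = 1 at hb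
      rcases hb with hb | hb
      · rw [hb, R.tr_0t]; exact (low_pt hR _).mono (by omega)
      · rw [hb, R.tr_1t]; exact low_ed hR _ _
    · change aff (x 1) = 0 ∨ aff (x 1) = 1 at hb
      rcases hb with hb | hb
      · rw [hb, R.tr_s0]; exact low_ed hR _ _
      · rw [hb, R.tr_s1]; exact low_ed hR _ _

theorem chr_surj (hR : R.Act G) (z : Orb G Y) : Low R 3 z := by
  obtain ⟨y, rfl⟩ := Quotient.exists_rep z
  obtain ⟨c, rfl⟩ := R.bij.2 y
  match c with
  | Sum.inl x => exact (low_pt hR x).mono (by omega)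
  | Sum.inr (Sum.inl p) => exact (low_ed hR p.1 p.2.1).mono (by omega)
  | Sum.inr (Sum.inr p) => exact low_tr hR p.1 p.2.1.2 p.2.2.2

end CWQuotAux

/-- TASK CWQuot.  `X = orbitRel.Quotient G Y` is Hausdorff.  Cells of dimension `0,1,2` are the orbits
of `X0, X1, X2` (`PEmpty`/`Empty` above), characteristic maps `mk ∘ pt`, `mk ∘ ed (out o) ∘ affine`,
`mk ∘ tr (out o) ∘ affine` where the affine maps `x ↦ projIcc ((x i + 1) / 2)` identify the closed unit
ball of `Fin n → ℝ` (sup norm) with the cube.  They are injective on the open ball with disjoint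
images (bijectivity of `cellMap`, equivariance, freeness of the action on cells, which follows from
`ha.free`).  Continuity of the inverse on the open cell: a continuous map `Φ` from the compact closed
ball to a Hausdorff space, injective on the open ball with `Φ (ball) ∩ Φ (sphere) = ∅`, restricts to
a homeomorphism onto `Φ (ball)`.  Use `Topology.CWComplex.mkFinite`, `hR.cov.isCoveringMap`,
`IsQuotientCoveringMap.fundamentalGroupEquiv` (to `Gᵐᵒᵖ`, compose with `MulEquiv.inv'`) and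
`SimplyConnectedSpace.ofContractible`. -/
theorem classifying_of_contractible {G X0 X1 X2 : Type} [Group G] [MulAction G X0]
    [MulAction G X1] [MulAction G X2] (K : Cx X0 X1 X2) (ha : K.Act G) {Y : Type}
    [TopologicalSpace Y] [MulAction G Y] (R : Realz K Y) (hR : R.Act G) [ContractibleSpace Y] :
    Crest.Topology.HasFiniteClassifyingComplex G 2 := by
  have := hR.t2
  obtain ⟨cw, hfin, hemp⟩ := CWQuotAux.exists_cw (X := CWQuotAux.Orb G Y)
    (CWQuotAux.cell G X0 X1 X2) 2 (CWQuotAux.chr G R)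
    (fun n hn => by
      match n, hn with
      | n + 3, _ => exact inferInstanceAs (IsEmpty Empty))
    (fun n => by
      match n with
      | 0 => exact ha.fin0
      | 1 => exact ha.fin1
      | 2 => exact ha.fin2
      | n + 3 => exact inferInstanceAs (Finite Empty))
    CWQuotAux.chr_cont (CWQuotAux.chr_inj hR) (CWQuotAux.chr_disj hR) (CWQuotAux.chr_bdry hR)
    (fun z => by
      obtain ⟨m, -, h⟩ := CWQuotAux.chr_surj hR z
      exact ⟨m, h⟩)
  obtain ⟨y⟩ : Nonempty Y := inferInstance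
  refine ⟨CWQuotAux.Orb G Y, inferInstance, cw, hR.t2, hfin, hemp,
    ⟨Y, inferInstance, _, inferInstance, hR.cov.isCoveringMap, Quotient.mk_surjective⟩,
    CWQuotAux.pr G y, ⟨?_⟩⟩
  exact (hR.cov.fundamentalGroupEquiv (x := CWQuotAux.pr G y) ⟨y, rfl⟩).trans
    (MulEquiv.inv' G).symm

end Crest.Agent.R177
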