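import Crest.Agent.R177.DefsPat
import Crest.Agent.R177.Coincide.FW

set_option autoImplicit false

namespace Crest.Agent.R177

open Equiv

/-- TASK Coincide: two short stretches of non-backtracking walks meet in one interval.
First: two `NB` walks from `x` to `y` of total length `≤ g` are equal when `GirthGt g` (strip the common
last darts, then `l ++ revWalk l'` is a closed `NB` walk); in particular short stretches are injective
on vertices.  Let `i0 ≤ i1` be the least and largest `i` that coincide with some `i0'`, `i1'`; the two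
stretches between them are equal walks (one of them reversed if `i1' < i0'`). -/
theorem coincide {V E T : Type} {Γ : LG V E T} {z : V} {K B L0 M : ℕ}
    (c : Config Γ z K B L0 M) {b : ℕ} (hg : Γ.GirthGt (2 * b)) (p p' : Fin K) (a a' : ℕ) :
    ∃ (i0 i0' n : ℕ) (s : Bool), ∀ i i', (p, i) ∈ verts c.len → (p', i') ∈ verts c.len →
      a ≤ i → i ≤ a + b → a' ≤ i' → i' ≤ a' + b →
      (c.vtx (p, i) = c.vtx (p', i') ↔
        ∃ k < n, i = i0 + k ∧ (if s then i' = i0' + k else i' + k = i0')) := by
  classical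
  let S : Finset ℕ := (Finset.Icc a (a + b)).filter (fun i => i ≤ c.len p ∧
    ∃ i', i' ≤ c.len p' ∧ a' ≤ i' ∧ i' ≤ a' + b ∧ c.vtx (p, i) = c.vtx (p', i'))
  have hS : ∀ i, i ∈ S ↔ (a ≤ i ∧ i ≤ a + b) ∧ i ≤ c.len p ∧
      ∃ i', i' ≤ c.len p' ∧ a' ≤ i' ∧ i' ≤ a' + b ∧ c.vtx (p, i) = c.vtx (p', i') := by
    intro i
    simp only [S, Finset.mem_filter, Finset.mem_Icc]
  rcases S.eq_empty_or_nonempty with h0 | hne
  · refine ⟨0, 0, 0, true, fun i i' hi hi' h1 h2 h3 h4 => ⟨fun e => ?_, ?_⟩⟩
    · have : i ∈ S := (hS i).2 ⟨⟨h1, h2⟩, ((mem_verts _ _).1 hi).2, i', ((mem_verts _ _).1 hi').2,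
        h3, h4, e⟩
      rw [h0] at this
      simp at this
    · rintro ⟨k, hk, -⟩
      omega
  · obtain ⟨⟨l1, l2⟩, l3, i0', l4, l5, l6, l7⟩ := (hS _).1 (S.min'_mem hne)
    obtain ⟨⟨u1, u2⟩, u3, i1', u4, u5, u6, u7⟩ := (hS _).1 (S.max'_mem hne)
    have hle : S.min' hne ≤ S.max' hne := S.min'_le_max' hne
    have hmem : ∀ i i', (p, i) ∈ verts c.len → (p', i') ∈ verts c.len →
        a ≤ i → i ≤ a + b → a' ≤ i' → i' ≤ a' + b → c.vtx (p, i) = c.vtx (p', i') →
        S.min' hne ≤ i ∧ i ≤ S.max' hne := by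
      intro i i' hi hi' h1 h2 h3 h4 e
      have : i ∈ S := (hS i).2 ⟨⟨h1, h2⟩, ((mem_verts _ _).1 hi).2, i',
        ((mem_verts _ _).1 hi').2, h3, h4, e⟩
      exact ⟨S.min'_le i this, S.le_max' i this⟩
    generalize S.min' hne = i0 at *
    generalize S.max' hne = i1 at *
    rcases le_total i0' i1' with h | h
    · obtain ⟨e1, e2⟩ := CoincideAux.par c hg hle h u3 u4 (by omega) (by omega) l7 u7
      refine ⟨i0, i0', i1 - i0 + 1, true, fun i i' hi hi' h1 h2 h3 h4 => ⟨fun e => ?_, ?_⟩⟩
      · obtain ⟨m1, m2⟩ := hmem i i' hi hi' h1 h2 h3 h4 e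
        refine ⟨i - i0, by omega, by omega, ?_⟩
        have e3 := e2 (i - i0) (by omega)
        have a1 : i0 + (i - i0) = i := by omega
        rw [a1, e] at e3
        simp only [if_true]
        exact CoincideAux.inj c hg (a := a') (p := p') ((mem_verts _ _).1 hi').2 (by omega) h3 h4
          (by omega) (by omega) e3
      · rintro ⟨k, hk, rfl, h5⟩
        simp only [if_true] at h5
        rw [h5]
        exact e2 k (by omega)
    · obtain ⟨e1, e2⟩ := CoincideAux.antipar c hg hle h u3 l4 (by omega) (by omega) l7 u7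
      refine ⟨i0, i0', i1 - i0 + 1, false, fun i i' hi hi' h1 h2 h3 h4 => ⟨fun e => ?_, ?_⟩⟩
      · obtain ⟨m1, m2⟩ := hmem i i' hi hi' h1 h2 h3 h4 e
        refine ⟨i - i0, by omega, by omega, ?_⟩
        have e3 := e2 (i - i0) (by omega)
        have a1 : i0 + (i - i0) = i := by omega
        rw [a1, e] at e3
        have := CoincideAux.inj c hg (a := a') (p := p') ((mem_verts _ _).1 hi').2 (by omega) h3 h4
          (by omega) (by omega) e3
        simp only [Bool.false_eq_true, if_false]
        omega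
      · rintro ⟨k, hk, rfl, h5⟩
        simp only [Bool.false_eq_true, if_false] at h5
        have : i' = i0' - k := by omega
        rw [this]
        exact e2 k (by omega)

end Crest.Agent.R177
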