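import Crest.Agent.R177.Defs

set_option autoImplicit false

namespace Crest.Agent.R177

open Equiv

/-! TASK RelBasic: elementary facts on walks, `Γ.Grp`, potentials and `Rel`. -/

variable {V E T : Type} (Γ : LG V E T)

/-- the reverse walk -/
def revWalk {X : Type} (l : List (X × Bool)) : List (X × Bool) := (l.map flp).reverse

theorem RelBasicAux.revWalk_nil {X : Type} : revWalk ([] : List (X × Bool)) = [] := rfl

theorem RelBasicAux.revWalk_cons {X : Type} (d : X × Bool) (l : List (X × Bool)) :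
    revWalk (d :: l) = revWalk l ++ [flp d] := by
  simp [revWalk]

theorem LG.isWalk_append {x y z : V} {l l' : List (E × Bool)} (h : Γ.IsWalk x l y)
    (h' : Γ.IsWalk y l' z) : Γ.IsWalk x (l ++ l') z := by
  induction l generalizing x with
  | nil =>
    have hxy : x = y := h
    subst hxy
    exact h'
  | cons d l ih => exact ⟨h.1, ih h.2⟩

theorem LG.isWalk_rev {x y : V} {l : List (E × Bool)} (h : Γ.IsWalk x l y) :
    Γ.IsWalk y (revWalk l) x := by
  induction l generalizing x with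
  | nil =>
    have hxy : x = y := h
    exact hxy.symm
  | cons d l ih =>
    rw [RelBasicAux.revWalk_cons]
    refine Γ.isWalk_append (ih h.2) ⟨Γ.st_flp d, ?_⟩
    change Γ.en (flp d) = x
    rw [Γ.en_flp]
    exact h.1

theorem RelBasicAux.word_nil : Γ.word [] = 1 := rfl

theorem LG.word_append (l l' : List (E × Bool)) : Γ.word (l ++ l') = Γ.word l * Γ.word l' := by
  simp [LG.word, FreeGroup.mul_mk]

theorem RelBasicAux.word_cons (d : E × Bool) (l : List (E × Bool)) :
    Γ.word (d :: l) = Γ.word [d] * Γ.word l := Γ.word_append [d] l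

theorem RelBasicAux.word_single_true (e : E) : Γ.word [(e, true)] = FreeGroup.of (Γ.lab e) := rfl

theorem RelBasicAux.word_single_false (e : E) : Γ.word [(e, false)] = (FreeGroup.of (Γ.lab e))⁻¹ := rfl

theorem RelBasicAux.word_single_flp (d : E × Bool) : Γ.word [flp d] = (Γ.word [d])⁻¹ := by
  rcases d with ⟨e, b⟩
  cases b
  · change Γ.word [(e, true)] = _
    rw [RelBasicAux.word_single_true Γ, RelBasicAux.word_single_false Γ, inv_inv]
  · change Γ.word [(e, false)] = _
    rw [RelBasicAux.word_single_true Γ, RelBasicAux.word_single_false Γ]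

theorem LG.word_rev (l : List (E × Bool)) : Γ.word (revWalk l) = (Γ.word l)⁻¹ := by
  induction l with
  | nil => simp [RelBasicAux.revWalk_nil, RelBasicAux.word_nil]
  | cons d l ih =>
    rw [RelBasicAux.revWalk_cons, Γ.word_append, ih, RelBasicAux.word_single_flp Γ, RelBasicAux.word_cons Γ d l, mul_inv_rev]

theorem RelBasicAux.chain_nil (g : Γ.Grp) : Γ.chain g [] = 0 := rfl

theorem LG.chain_append (g : Γ.Grp) (l l' : List (E × Bool)) :
    Γ.chain g (l ++ l') = Γ.chain g l + Γ.chain g l' := by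
  simp [LG.chain]

theorem RelBasicAux.chain_single_flp (g : Γ.Grp) (d : E × Bool) :
    Γ.chain g [flp d] = - Γ.chain g [d] := by
  rcases d with ⟨e, b⟩
  cases b <;> simp [LG.chain, flp]

theorem LG.chain_rev (g : Γ.Grp) (l : List (E × Bool)) :
    Γ.chain g (revWalk l) = - Γ.chain g l := by
  induction l with
  | nil => simp [RelBasicAux.revWalk_nil, RelBasicAux.chain_nil]
  | cons d l ih =>
    have h2 : Γ.chain g (d :: l) = Γ.chain g [d] + Γ.chain g l := Γ.chain_append g [d] l
    rw [RelBasicAux.revWalk_cons, Γ.chain_append, ih, RelBasicAux.chain_single_flp Γ, h2]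
    abel

theorem LG.proj_closed {x : V} {l : List (E × Bool)} (h : Γ.IsWalk x l x) :
    Γ.proj (Γ.word l) = 1 :=
  PresentedGroup.one_of_mem ⟨x, l, h, rfl⟩

/-- a base point in each component and a walk from it to every vertex -/
theorem RelBasicAux.exists_base : ∃ (b : V → V) (p : V → List (E × Bool)),
    (∀ x, Γ.IsWalk (b x) (p x) x) ∧ ∀ x y, Γ.Reach x y → b x = b y := by
  let s : Setoid V :=
    { r := Γ.Reach
      iseqv :=
        ⟨fun x => ⟨[], rfl⟩, fun ⟨l, h⟩ => ⟨revWalk l, Γ.isWalk_rev h⟩,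
          fun ⟨l, h⟩ ⟨l', h'⟩ => ⟨l ++ l', Γ.isWalk_append h h'⟩⟩ }
  have h1 : ∀ x, ∃ l, Γ.IsWalk (Quotient.mk s x).out l x := fun x => Quotient.mk_out (s := s) x
  choose p hp using h1
  refine ⟨fun x => (Quotient.mk s x).out, p, hp, fun x y hxy => ?_⟩
  have : Quotient.mk s x = Quotient.mk s y := Quotient.sound hxy
  simp only [this]

/-- the closed walk through the edge `e` based at the base point of its component -/
theorem RelBasicAux.base_loop {b : V → V} {p : V → List (E × Bool)} (hp : ∀ x, Γ.IsWalk (b x) (p x) x)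
    (hb : ∀ x y, Γ.Reach x y → b x = b y) (e : E) :
    Γ.IsWalk (b (Γ.src e)) (p (Γ.src e) ++ [(e, true)] ++ revWalk (p (Γ.tgt e))) (b (Γ.src e)) := by
  have he : Γ.IsWalk (Γ.src e) [(e, true)] (Γ.tgt e) := ⟨rfl, rfl⟩
  refine Γ.isWalk_append (Γ.isWalk_append (hp _) he) ?_
  rw [hb _ _ ⟨_, he⟩]
  exact Γ.isWalk_rev (hp _)

/-- potentials with values in any quotient of the free group -/
theorem RelBasicAux.hom_walk {H : Type} [Group H] (F : FreeGroup T →* H) {ν : V → H}
    (hν : ∀ e, ν (Γ.tgt e) = ν (Γ.src e) * F (FreeGroup.of (Γ.lab e))) {x y : V}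
    {l : List (E × Bool)} (h : Γ.IsWalk x l y) : ν y = ν x * F (Γ.word l) := by
  induction l generalizing x with
  | nil =>
    have hxy : x = y := h
    simp [hxy, RelBasicAux.word_nil]
  | cons d l ih =>
    obtain ⟨h1, h2⟩ := h
    rw [ih h2, RelBasicAux.word_cons Γ d l, map_mul, ← mul_assoc]
    congr 1
    subst h1
    rcases d with ⟨e, b⟩
    cases b
    · change ν (Γ.src e) = ν (Γ.tgt e) * _
      rw [RelBasicAux.word_single_false Γ, hν e, map_inv, mul_inv_cancel_right]
    · change ν (Γ.tgt e) = ν (Γ.src e) * _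
      rw [RelBasicAux.word_single_true Γ, hν e]

theorem RelBasicAux.pot_of_loop {H : Type} [Group H] (F : FreeGroup T →* H) (p : V → List (E × Bool))
    (e : E) (h : F (Γ.word (p (Γ.src e) ++ [(e, true)] ++ revWalk (p (Γ.tgt e)))) = 1) :
    F (Γ.word (p (Γ.tgt e))) = F (Γ.word (p (Γ.src e))) * F (FreeGroup.of (Γ.lab e)) := by
  rw [Γ.word_append, Γ.word_append, Γ.word_rev, RelBasicAux.word_single_true Γ, map_mul, map_mul, map_inv,
    mul_inv_eq_one] at h
  exact h.symm

/-- choose a base point in each component and a walk from it to every vertex -/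
theorem LG.exists_pot : ∃ ν : V → Γ.Grp, Γ.IsPot ν := by
  obtain ⟨b, p, hp, hb⟩ := RelBasicAux.exists_base Γ
  exact ⟨fun x => Γ.proj (Γ.word (p x)), fun e =>
    RelBasicAux.pot_of_loop Γ Γ.proj p e (Γ.proj_closed (RelBasicAux.base_loop Γ hp hb e))⟩

theorem LG.pot_walk {ν : V → Γ.Grp} (hν : Γ.IsPot ν) {x y : V} {l : List (E × Bool)}
    (h : Γ.IsWalk x l y) : ν y = ν x * Γ.proj (Γ.word l) :=
  RelBasicAux.hom_walk Γ Γ.proj hν h

theorem LG.rel_proj {ν : V → Γ.Grp} {w : FreeGroup T} {c : Γ.Grp × E →₀ ℤ} (h : Γ.Rel ν w c) :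
    Γ.proj w = 1 := by
  induction h with
  | one => exact map_one _
  | step w c u x l hl _ ih => simp [map_mul, ih, Γ.proj_closed hl]

theorem LG.rel_mul {ν : V → Γ.Grp} {w w' : FreeGroup T} {c c' : Γ.Grp × E →₀ ℤ}
    (h : Γ.Rel ν w c) (h' : Γ.Rel ν w' c') : Γ.Rel ν (w * w') (c + c') := by
  induction h' with
  | one => simpa using h
  | step w' c' u x l hl _ ih =>
    rw [← mul_assoc, ← add_assoc]
    exact LG.Rel.step _ _ u x l hl ih

theorem RelBasicAux.rel_single (ν : V → Γ.Grp) (u : FreeGroup T) {x : V} {l : List (E × Bool)}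
    (hl : Γ.IsWalk x l x) :
    Γ.Rel ν (u * Γ.word l * u⁻¹) (Γ.chain (Γ.proj u * (ν x)⁻¹) l) := by
  simpa using LG.Rel.step (Γ := Γ) (ν := ν) 1 0 u x l hl LG.Rel.one

theorem LG.rel_inv {ν : V → Γ.Grp} {w : FreeGroup T} {c : Γ.Grp × E →₀ ℤ}
    (h : Γ.Rel ν w c) : Γ.Rel ν w⁻¹ (-c) := by
  induction h with
  | one => simpa using LG.Rel.one (Γ := Γ) (ν := ν)
  | step w c u x l hl _ ih =>
    have h1 := Γ.rel_mul (RelBasicAux.rel_single Γ ν u (Γ.isWalk_rev hl)) ih
    rw [Γ.word_rev, Γ.chain_rev] at h1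
    convert h1 using 1
    · group
    · abel

theorem LG.rel_exists (ν : V → Γ.Grp) {w : FreeGroup T} (h : Γ.proj w = 1) :
    ∃ c, Γ.Rel ν w c := by
  have hw : w ∈ Subgroup.normalClosure Γ.rels := PresentedGroup.mk_eq_one_iff.1 h
  clear h
  unfold Subgroup.normalClosure at hw
  induction hw using Subgroup.closure_induction with
  | mem g hg =>
    obtain ⟨a, ⟨x, l, hl, rfl⟩, hc⟩ := Group.mem_conjugatesOfSet_iff.1 hg
    obtain ⟨u, rfl⟩ := isConj_iff.1 hc
    exact ⟨_, RelBasicAux.rel_single Γ ν u hl⟩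
  | one => exact ⟨0, LG.Rel.one⟩
  | mul a b _ _ ha hb =>
    obtain ⟨c, hc⟩ := ha
    obtain ⟨c', hc'⟩ := hb
    exact ⟨_, Γ.rel_mul hc hc'⟩
  | inv a _ ha =>
    obtain ⟨c, hc⟩ := ha
    exact ⟨_, Γ.rel_inv hc⟩

theorem LG.proj_eq_lift : Γ.proj = FreeGroup.lift Γ.gen := by
  ext t
  simp [LG.gen]

theorem LG.closure_gen : Subgroup.closure (Set.range Γ.gen) = ⊤ :=
  PresentedGroup.closure_range_of Γ.rels

/-- the normal closure of `Γ.rels` is that of the finitely many words
`word (p (src e) ++ [(e,true)] ++ revWalk (p (tgt e)))`, `p x` a chosen walk from the base point -/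
theorem LG.finitelyPresented [Finite V] [Finite E] [Finite T] :
    Group.IsFinitelyPresented Γ.Grp := by
  obtain ⟨b, p, hp, hb⟩ := RelBasicAux.exists_base Γ
  let S : Set (FreeGroup T) :=
    Set.range (fun e => Γ.word (p (Γ.src e) ++ [(e, true)] ++ revWalk (p (Γ.tgt e))))
  refine Group.IsFinitelyPresented.of_surjective Γ.proj (PresentedGroup.mk_surjective _)
    ⟨S, Set.finite_range _, ?_⟩
  apply le_antisymm
  · apply Subgroup.normalClosure_le_normal
    rintro _ ⟨e, rfl⟩
    exact Γ.proj_closed (RelBasicAux.base_loop Γ hp hb e)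
  · intro w hw
    have hw' : w ∈ Subgroup.normalClosure Γ.rels := PresentedGroup.mk_eq_one_iff.1 hw
    refine Subgroup.normalClosure_le_normal (N := Subgroup.normalClosure S) ?_ hw'
    rintro _ ⟨x, l, hl, rfl⟩
    let F : FreeGroup T →* PresentedGroup S := PresentedGroup.mk S
    have h1 := RelBasicAux.hom_walk Γ F (ν := fun x => F (Γ.word (p x)))
      (fun e => RelBasicAux.pot_of_loop Γ F p e (PresentedGroup.one_of_mem ⟨e, rfl⟩)) hl
    have h2 : F (Γ.word l) = 1 := by simpa using h1.symm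
    exact PresentedGroup.mk_eq_one_iff.1 h2

end Crest.Agent.R177
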