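import Crest.Agent.R177.DefsCx
import Crest.Agent.R177.RelBasic
import Crest.Agent.R177.Complex.Cone

set_option autoImplicit false

namespace Crest.Agent.R177

/-- TASK Complex: the coned-off Cayley complex.  `G = Γ.Grp`, `Comp` = quotient of `V` by `Reach`
(an equivalence relation), `X0 = G ⊕ G × Comp`, `X1 = G × T ⊕ G × V`, `X2 = G × E` (use wrapper
types or the product/sum `MulAction` instances with trivial action on the finite factors; left
multiplication on `G`).  Edge `inl (g,t) : inl g → inl (g * gen t)`; edge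
`inr (g,x) : inr (g, comp x) → inl (g * ν x)`; triangle `(g,e)`: `d2 = inr (g, src e)`,
`d0 = inl (g * ν (src e), lab e)`, `d1 = inr (g, tgt e)`.
`sc`: given a flat `f`, the free group acts on `G × H` on the right by
`(g,h) · t = (g * gen t, h * f (inl (g,t)))` (e.g. `FreeGroup.lift` into `(Perm (G × H))ᵐᵒᵖ`, or use
inverses); along a walk from `x` to `y` read from `g * ν x` the product of the `f`'s telescopes to
`(f (inr (g,x)))⁻¹ * f (inr (g,y))`, so labels of closed walks act trivially and the action factors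
through `G`; `h (inl g)` is the second coordinate of `(1,1) · g`, and
`h (inr (g,k)) = h (inl (g * ν x)) * (f (inr (g,x)))⁻¹` for a chosen `x` in `k`.
`h2`: by `uniq`, `rel_mul`, `rel_inv`, `rel_exists` there is an additive `θ` on the kernel of `proj`
with `Rel ν w (θ w)`.  Fix a section `s : G → FreeGroup T` of `proj`,
`Θ g w = θ (s g * w * (s (g * proj w))⁻¹)`, `Θ g (w w') = Θ g w + Θ (g * proj w) w'`.  With `p x` a
walk from the base point `b x` of the component of `x` to `x` put `a₀ (inl (g,t)) = Θ g (of t)`,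
`a₀ (inr (g,x)) = Θ (g * ν (b x)) (word (p x)) - chain g (p x)`.  Then
`a₀ d2 + a₀ d0 - a₀ d1 = single (g,e) 1` (use `Rel.step` for the closed walk
`p (src e) ++ [(e,true)] ++ revWalk (p (tgt e))`), and `a = (Finsupp lift of o) ∘ a₀`. -/
theorem exists_complex {V E T : Type} [Finite V] [Finite E] [Finite T] (Γ : LG V E T)
    {ν : V → Γ.Grp} (hν : Γ.IsPot ν) (uniq : ∀ c, Γ.Rel ν 1 c → c = 0)
    (hgen : ∀ t, Γ.gen t ≠ 1) :
    ∃ (X0 X1 X2 : Type) (_ : MulAction Γ.Grp X0) (_ : MulAction Γ.Grp X1)
      (_ : MulAction Γ.Grp X2) (K : Cx X0 X1 X2), K.Simplicial ∧ K.Act Γ.Grp ∧ K.Acyclic :=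
  ⟨_, _, _, inferInstance, inferInstance, inferInstance, ComplexAux.cx Γ ν,
    ComplexAux.simplicial hν hgen, ComplexAux.act ν, ComplexAux.acyclic hν uniq⟩

end Crest.Agent.R177
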