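import Mathlib

set_option autoImplicit false

namespace Crest.Agent.R177

open unitInterval

namespace LoopJAux

variable {X : Type} [TopologicalSpace X]

/-- The two ways around a square are homotopic. -/
lemma square (F : C(I × I, X)) {x00 x10 x01 x11 : X} (bot : Path x00 x10) (rgt : Path x10 x11)
    (lft : Path x00 x01) (top : Path x01 x11) (h1 : ∀ s, F (s, 0) = bot s)
    (h2 : ∀ t, F (1, t) = rgt t) (h3 : ∀ t, F (0, t) = lft t) (h4 : ∀ s, F (s, 1) = top s) :
    (bot.trans rgt).Homotopic (lft.trans top) := by
  have : ContractibleSpace I := (convex_Icc (0 : ℝ) 1).contractibleSpace ⟨0, by simp⟩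
  have e00 : x00 = F (0, 0) := by rw [h1, bot.source]
  have e10 : x10 = F (1, 0) := by rw [h1, bot.target]
  have e01 : x01 = F (0, 1) := by rw [h4, top.source]
  have e11 : x11 = F (1, 1) := by rw [h4, top.target]
  subst e00 e10 e01 e11
  let b : Path ((0, 0) : I × I) (1, 0) := ⟨⟨fun s => (s, 0), by fun_prop⟩, rfl, rfl⟩
  let r : Path ((1, 0) : I × I) (1, 1) := ⟨⟨fun s => (1, s), by fun_prop⟩, rfl, rfl⟩
  let l : Path ((0, 0) : I × I) (0, 1) := ⟨⟨fun s => (0, s), by fun_prop⟩, rfl, rfl⟩
  let t : Path ((0, 1) : I × I) (1, 1) := ⟨⟨fun s => (s, 1), by fun_prop⟩, rfl, rfl⟩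
  have hb : bot = b.map F.continuous := by ext s; exact (h1 s).symm
  have hr : rgt = r.map F.continuous := by ext s; exact (h2 s).symm
  have hl : lft = l.map F.continuous := by ext s; exact (h3 s).symm
  have ht : top = t.map F.continuous := by ext s; exact (h4 s).symm
  rw [hb, hr, hl, ht, ← Path.map_trans, ← Path.map_trans]
  exact (SimplyConnectedSpace.paths_homotopic (b.trans r) (l.trans t)).map F

/-- A homotopy rel base point from a self-map to the identity moves loops to homotopic loops. -/
lemma homotopic_of_rel {e : X} {f : C(X, X)} (H : f.HomotopyRel (ContinuousMap.id X) {e})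
    (a a' : Path e e) (h : ∀ s, a' s = f (a s)) : a'.Homotopic a := by
  refine ⟨⟨⟨⟨fun z => H (z.1, a z.2), by fun_prop⟩, fun s => ?_, fun s => ?_⟩, ?_⟩⟩
  · simp [h]
  · simp
  · intro t s hs
    have h0 : a s = e := by
      rcases hs with rfl | rfl
      · exact a.source
      · exact a.target
    change H (t, a s) = a' s
    rw [h s, h0]
    exact H.eq_fst t (Set.mem_singleton e)

/-- The fundamental group of an H-space is commutative. -/
lemma trans_comm [HSpace X] (a b : Path (HSpace.e : X) HSpace.e) :
    (a.trans b).Homotopic (b.trans a) := by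
  let a' : Path (HSpace.e : X) HSpace.e :=
    ⟨⟨fun s => HSpace.hmul (a s, HSpace.e), by fun_prop⟩,
      by simp [HSpace.hmul_e_e], by simp [HSpace.hmul_e_e]⟩
  let b' : Path (HSpace.e : X) HSpace.e :=
    ⟨⟨fun s => HSpace.hmul (HSpace.e, b s), by fun_prop⟩,
      by simp [HSpace.hmul_e_e], by simp [HSpace.hmul_e_e]⟩
  have ha : a'.Homotopic a := homotopic_of_rel HSpace.hmulE a a' fun s => rfl
  have hb : b'.Homotopic b := homotopic_of_rel HSpace.eHmul b b' fun s => rfl
  have h := square (⟨fun z => HSpace.hmul (a z.1, b z.2), by fun_prop⟩ : C(I × I, X)) a' b' b' a'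
    (fun s => by simp [a']) (fun s => by simp [b']) (fun s => by simp [b']) (fun s => by simp [a'])
  exact ((ha.hcomp hb).symm.trans h).trans (hb.hcomp ha)

/-- Homotopy classes of loops, written additively. -/
def Q (e : X) : Type := Path.Homotopic.Quotient e e

noncomputable instance (e : X) : Add (Q e) := ⟨fun a b => Path.Homotopic.Quotient.trans a b⟩
noncomputable instance (e : X) : Zero (Q e) := ⟨Path.Homotopic.Quotient.refl e⟩
noncomputable instance (e : X) : Neg (Q e) := ⟨fun a => Path.Homotopic.Quotient.symm a⟩

/-- The additive group of homotopy classes of loops. -/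
@[reducible] noncomputable def addGroupQ (e : X) : AddGroup (Q e) :=
  AddGroup.ofLeftAxioms (fun a b c => Path.Homotopic.Quotient.trans_assoc a b c)
    (fun a => Path.Homotopic.Quotient.refl_trans a)
    (fun a => Path.Homotopic.Quotient.symm_trans a)

/-- The additive commutative group of homotopy classes of loops, when loops commute. -/
@[reducible] noncomputable def addCommGroupQ (e : X)
    (h : ∀ a b : Path e e, (a.trans b).Homotopic (b.trans a)) : AddCommGroup (Q e) :=
  { addGroupQ e with
    add_comm := fun a b => by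
      obtain ⟨a, rfl⟩ := Path.Homotopic.Quotient.mk_surjective a
      obtain ⟨b, rfl⟩ := Path.Homotopic.Quotient.mk_surjective b
      exact Path.Homotopic.Quotient.eq.2 (h a b) }

open Classical in
/-- The invariant. -/
noncomputable def J (e : X) (x y : X) (p : Path x y) : Q e :=
  if h : Joined e x then
    (Path.Homotopic.Quotient.mk h.somePath).trans ((Path.Homotopic.Quotient.mk p).trans
      (Path.Homotopic.Quotient.mk (h.trans ⟨p⟩ : Joined e y).somePath).symm)
  else 0

open Path.Homotopic.Quotient in
lemma J_trans (e x y z : X) (p : Path x y) (q : Path y z) :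
    J e x z (p.trans q) = J e x y p + J e y z q := by
  by_cases h : Joined e x
  · have h' : Joined e y := h.trans ⟨p⟩
    unfold J
    rw [dif_pos h, dif_pos h, dif_pos h']
    change _ = Path.Homotopic.Quotient.trans _ _
    rw [mk_trans]
    simp only [trans_assoc]
    rw [← trans_assoc (symm _), symm_trans, refl_trans]
  · have h' : ¬ Joined e y := fun h' => h (h'.trans ⟨p.symm⟩)
    unfold J
    rw [dif_neg h, dif_neg h, dif_neg h']
    exact (Path.Homotopic.Quotient.refl_trans _).symm

lemma J_congr (e x y : X) (p q : Path x y) (h : p.Homotopic q) : J e x y p = J e x y q := by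
  unfold J
  rw [Path.Homotopic.Quotient.eq.2 h]

open Path.Homotopic.Quotient in
lemma homotopic_of_J (e x : X) (p : Path x x) (hx : Joined e x) (h : J e x x p = 0) :
    p.Homotopic (Path.refl x) := by
  unfold J at h
  rw [dif_pos hx] at h
  set c := Path.Homotopic.Quotient.mk hx.somePath with hc
  change c.trans ((Path.Homotopic.Quotient.mk p).trans c.symm) =
    Path.Homotopic.Quotient.refl e at h
  have h2 := congrArg (fun w => c.symm.trans (Path.Homotopic.Quotient.trans w c)) h
  simp only [trans_assoc, refl_trans, symm_trans, trans_refl] at h2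
  rw [← trans_assoc, symm_trans, refl_trans] at h2
  exact Path.Homotopic.Quotient.eq.1 h2

open Path.Homotopic.Quotient in
lemma J_surj (e : X) (a : Q e) : ∃ p : Path e e, J e e e p = a := by
  have he : Joined e e := Joined.refl e
  obtain ⟨p, hp⟩ := Path.Homotopic.Quotient.mk_surjective
    ((Path.Homotopic.Quotient.mk he.somePath).symm.trans
      (Path.Homotopic.Quotient.trans a (Path.Homotopic.Quotient.mk he.somePath)))
  refine ⟨p, ?_⟩
  unfold J
  rw [dif_pos he, hp]
  simp only [trans_assoc, trans_symm, trans_refl]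
  rw [← trans_assoc, trans_symm, refl_trans]

end LoopJAux

open LoopJAux in
/-- TASK LoopJ: an abelian invariant of paths in the loop space `Ω = Path o o`.
`A = Additive (π₁(Ω, refl))`, which is commutative by Eckmann-Hilton: for loops `a, b` in `Ω` based at
`refl` the map `(s,t) ↦ (a s).trans (b t)` shows that `a * refl` and `refl * b` commute in
`π₁(Ω, refl.trans refl)`, and `ω ↦ ω.trans refl`, `ω ↦ refl.trans ω` are homotopic to the identity of
`Ω` (continuous families of reparametrisations), so these classes exhaust that group.  For `ω` joined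
to `refl` choose a path `c ω` from `refl` to `ω` and let `J p = [c ω · p · (c ω')⁻¹]`; `J p = 0` for
paths outside the path component of `refl`.  Free homotopy invariance: the two loops are conjugate. -/
theorem exists_loopJ (Y : Type) [TopologicalSpace Y] (o : Y) :
    ∃ (A : Type) (_ : AddCommGroup A) (J : ∀ ω ω' : Path o o, Path ω ω' → A),
      (∀ ω ω' ω'' (p : Path ω ω') (q : Path ω' ω''),
        J ω ω'' (p.trans q) = J ω ω' p + J ω' ω'' q) ∧
      (∀ ω ω' (p q : Path ω ω'), p.Homotopic q → J ω ω' p = J ω ω' q) ∧
      (∀ ω ω' (p : Path ω ω) (q : Path ω' ω') (H : C(I × I, Path o o)),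
        (∀ t, H (0, t) = p t) → (∀ t, H (1, t) = q t) → (∀ s, H (s, 0) = H (s, 1)) →
        J ω ω p = J ω' ω' q) ∧
      (∀ ω (p : Path ω ω), Joined (Path.refl o) ω → J ω ω p = 0 →
        p.Homotopic (Path.refl ω)) ∧
      (∀ a : A, ∃ p : Path (Path.refl o) (Path.refl o), J _ _ p = a) := by
  let this := addCommGroupQ (Path.refl o) (fun a b => trans_comm (X := Path o o) a b)
  refine ⟨Q (Path.refl o), this, J (Path.refl o), J_trans _, J_congr _, ?_, homotopic_of_J _,
    J_surj _⟩
  intro ω ω' p q H h0 h1 h2
  let r : Path ω ω' := ⟨⟨fun s => H (s, 0), by fun_prop⟩,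
    by change H (0, 0) = ω; rw [h0, p.source], by change H (1, 0) = ω'; rw [h1, q.source]⟩
  have h := J_congr (Path.refl o) _ _ _ _
    (square H r q p r (fun _ => rfl) h1 h0 (fun s => (h2 s).symm))
  rw [J_trans, J_trans, add_comm] at h
  exact (add_right_cancel h).symm

end Crest.Agent.R177
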