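import Mathlib

set_option autoImplicit false

namespace Crest.Agent.R177

open unitInterval

namespace StraightenAux

/-- move from `y` towards `x` at speed two, for time `t` -/
noncomputable def mv (x y t : I) : I :=
  Set.projIcc (0 : ℝ) 1 zero_le_one (max ((y : ℝ) - 2 * t) (min (x : ℝ) (y + 2 * t)))

lemma mv_zero (x y : I) : mv x y 0 = y := by
  unfold mv
  have : max ((y : ℝ) - 2 * ((0 : I) : ℝ)) (min (x : ℝ) (y + 2 * ((0 : I) : ℝ))) = y := by
    simp
  rw [this, Set.projIcc_val]

lemma mv_of_le (x y t : I) (h : dist x y ≤ 2 * t) : mv x y t = x := by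
  unfold mv
  rw [Subtype.dist_eq, Real.dist_eq, abs_le] at h
  rw [min_eq_left (by linarith [h.2]), max_eq_right (by linarith [h.1]), Set.projIcc_val]

lemma continuous_mv {Z : Type} [TopologicalSpace Z] {x y t : Z → I} (hx : Continuous x)
    (hy : Continuous y) (ht : Continuous t) : Continuous fun z => mv (x z) (y z) (t z) := by
  unfold mv
  refine continuous_projIcc.comp ?_
  fun_prop

lemma dist_le_one (p q : I × I) : dist p q ≤ 1 := by
  have h : ∀ x y : I, dist x y ≤ 1 := fun x y => by
    rw [Subtype.dist_eq, Real.dist_eq, abs_le]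
    constructor <;> linarith [x.2.1, x.2.2, y.2.1, y.2.2]
  rw [Prod.dist_eq]
  exact max_le (h _ _) (h _ _)

end StraightenAux

open StraightenAux in
/-- TASK Straighten: path lifting for the path fibration pulled back to the square, stationary
where nothing moves.  With `τ a = dist (β a) (η a) / 2 ≤ 1/2` let `γ' a t` be
`F (β a + max 0 (1 - t / τ a) • (η a - β a))` for `t ≤ τ a` and `γ a ((t - τ a) / (1 - τ a))` for
`t ≥ τ a`.  (Continuity where `τ a = 0`: the coefficient is bounded and the vector tends to `0`.)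
Build it as a continuous map `A × I → Y` and curry. -/
theorem straighten {Y A : Type} [TopologicalSpace Y] [TopologicalSpace A] (F : C(I × I, Y))
    (β η : C(A, I × I)) (γ : C(A, C(I, Y))) (hγ : ∀ a, γ a 0 = F (β a)) :
    ∃ γ' : C(A, C(I, Y)), (∀ a, γ' a 0 = F (η a)) ∧ (∀ a, γ' a 1 = γ a 1) ∧
      ∀ a, η a = β a → γ' a = γ a := by
  classical
  let τ : A → ℝ := fun a => dist (β a) (η a) / 2
  have hτc : Continuous τ := by fun_prop
  have hτ0 : ∀ a, 0 ≤ τ a := fun a => div_nonneg dist_nonneg (by norm_num)
  have hτ1 : ∀ a, τ a ≤ 1 / 2 := fun a => by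
    have := dist_le_one (β a) (η a)
    simp only [τ]; linarith
  let f : A × I → Y := fun z => F (mv (β z.1).1 (η z.1).1 z.2, mv (β z.1).2 (η z.1).2 z.2)
  let r : A × I → I := fun z =>
    Set.projIcc (0 : ℝ) 1 zero_le_one (((z.2 : ℝ) - τ z.1) / (1 - τ z.1))
  let g : A × I → Y := fun z => γ z.1 (r z)
  have hf : Continuous f :=
    F.continuous.comp ((continuous_mv (by fun_prop) (by fun_prop) continuous_snd).prodMk
      (continuous_mv (by fun_prop) (by fun_prop) continuous_snd))
  have hr : Continuous r := by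
    refine continuous_projIcc.comp (Continuous.div (by fun_prop) (by fun_prop) fun z => ?_)
    have := hτ1 z.1
    linarith
  have hg : Continuous g :=
    continuous_eval.comp ((γ.continuous.comp continuous_fst).prodMk hr)
  have hfg : ∀ z : A × I, (z.2 : ℝ) = τ z.1 → f z = g z := by
    intro z hz
    have h1 : r z = 0 := by
      simp only [r, hz, sub_self, zero_div]
      exact Set.projIcc_left _
    have h2 : dist (β z.1) (η z.1) ≤ 2 * (z.2 : ℝ) := by
      rw [hz]; simp only [τ]; linarith
    rw [Prod.dist_eq, max_le_iff] at h2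
    simp only [f, g, h1, hγ, mv_of_le _ _ _ h2.1, mv_of_le _ _ _ h2.2]
  let H : C(A × I, Y) := ⟨fun z => if (z.2 : ℝ) ≤ τ z.1 then f z else g z,
    Continuous.if_le hf hg (by fun_prop) (by fun_prop) hfg⟩
  refine ⟨H.curry, fun a => ?_, fun a => ?_, fun a ha => ?_⟩
  · change (if ((0 : I) : ℝ) ≤ τ a then f (a, 0) else g (a, 0)) = _
    rw [if_pos (by simpa using hτ0 a)]
    simp only [f, mv_zero]
  · change (if ((1 : I) : ℝ) ≤ τ a then f (a, 1) else g (a, 1)) = _
    have h1 := hτ1 a
    rw [if_neg (by simp only [Set.Icc.coe_one]; linarith)]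
    have h2 : r (a, 1) = 1 := by
      simp only [r, Set.Icc.coe_one]
      rw [div_self (by linarith)]
      exact Set.projIcc_right _
    simp only [g, h2]
  · ext t
    change (if (t : ℝ) ≤ τ a then f (a, t) else g (a, t)) = _
    have h0 : τ a = 0 := by simp [τ, ha]
    have h2 : g (a, t) = γ a t := by
      simp only [g, r, h0, sub_zero, div_one, Set.projIcc_val]
    split_ifs with h
    · rw [hfg (a, t) (le_antisymm h (by rw [h0]; exact t.2.1)), h2]
    · exact h2

end Crest.Agent.R177
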