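import Crest.Agent.R177.DefsCx
import Crest.Agent.R177.LoopJ
import Crest.Agent.R177.Straighten
import Crest.Agent.R177.Contract.Cells

set_option autoImplicit false

namespace Crest.Agent.R177

open unitInterval

/-- TASK Contract: obstruction theory, no Hurewicz theorem needed.
A contraction is a continuous `S : Y → C(I, Y)` with `S y 0 = y`, `S y 1 = o` (`o = pt x0`): continuity
is checked cell by cell (`R.closed`, `S` defined through the inverse of `cellMap`), then uncurry.
(0) Vertices are joined to `o` (`conn`); by `sc` applied to `H = FundamentalGroup Y o` (or its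
opposite) get paths `γ v : Path (pt v) o` with `ed e · γ (t e) ≃ γ (s e)`; flatness on a triangle
holds because the square is convex/contractible.
(1) Edges: each such homotopy gives, after `straighten` (treat an edge as the square map
`F (s,t) = ed e s`), a continuous `S_e : I → C(I,Y)` over `ed e` from `γ (s e)` to `γ (t e)`.
(2) For a triangle `f` let `E_f = {(x, γ) | γ 0 = tr f x, γ 1 = o}`, `μ x = (γ v0)⁻¹ · tr f (segment
from (0,0) to x)` and `Φ (x, γ) = μ x · γ ∈ Ω`.  The boundary values form a loop `λ_f` in `E_f`;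
`ob f = J (Φ λ_f)` (`exists_loopJ`).  Precomposing `S_e` with a loop `a_e` in the fibre
`P_v = Path (pt v) o`, `v = s e` (and straightening again) changes `ob f` by
`J_v (a_{d2}) + J_v (a_{d0}) - J_v (a_{d1})`, where `J_v a = J ((γ v)⁻¹ · a)` does not depend on the
homotopy class representative of `(γ v)⁻¹`, and `J_v` is onto.  By `h2` choose the `a_e` so that all
`ob f = 0`.  Then `λ_f` is null-homotopic in `E_f` (straighten it into the fibre over `(0,0)`, and use
that `ω ↦ (μ 0)⁻¹ · ω` inverts `Φ` there up to homotopy), so it extends to a map of the square to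
`E_f`, which `straighten` turns into a section. -/
theorem contractible_realz {X0 X1 X2 : Type} (K : Cx X0 X1 X2) (hs : K.Simplicial)
    (hc : K.Acyclic) {Y : Type} [TopologicalSpace Y] (R : Realz K Y) : ContractibleSpace Y := by
  obtain ⟨x0⟩ := hc.ne
  obtain ⟨A, _, J, j1, j2, j3, j4, j5⟩ := exists_loopJ Y (R.pt x0)
  have hJ : ContractAux.JData J := ⟨j1, j2, j3, j4, j5⟩
  obtain ⟨γ, hγ⟩ := ContractAux.exists_gamma hs hc R x0
  obtain ⟨S, k0, k1, s0, s1, hob⟩ := ContractAux.exists_edge hJ hs hc R γ hγ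
  choose T t0 t1 t2 t3 t4 t5 using fun f =>
    ContractAux.exists_tri hJ hs R γ S k0 k1 s0 s1 f (hob f)
  obtain ⟨G, g0, g1, g2⟩ := ContractAux.exists_glue R (fun v => (γ v).toContinuousMap) S T s0 s1
    t2 t5 t3 t4
  have hG : ∀ y, G y 0 = y ∧ G y 1 = R.pt x0 := fun y => by
    obtain ⟨w, rfl⟩ := R.bij.2 y
    rcases w with v | ⟨e, s⟩ | ⟨f, s, t⟩
    · exact ⟨(DFunLike.congr_fun (g0 v) 0).trans (γ v).source,
        (DFunLike.congr_fun (g0 v) 1).trans (γ v).target⟩
    · exact ⟨(DFunLike.congr_fun (g1 e s) 0).trans (k0 e s),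
        (DFunLike.congr_fun (g1 e s) 1).trans (k1 e s)⟩
    · exact ⟨(DFunLike.congr_fun (g2 f (s, t)) 0).trans (t0 f _),
        (DFunLike.congr_fun (g2 f (s, t)) 1).trans (t1 f _)⟩
  rw [contractible_iff_id_nullhomotopic]
  exact ⟨R.pt x0, ⟨⟨⟨fun w => G w.2 w.1, by fun_prop⟩, fun y => (hG y).1, fun y => (hG y).2⟩⟩⟩

end Crest.Agent.R177
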