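import Mathlib

/-!
# Row 177 project (also rows 184, 199): basic definitions

Labelled graphs, walks, the graphical presentation `Γ.Grp`, two-chains, planar diagrams,
pieces, local configurations (`LIP`).  See `R177/Main.lean` for how everything is composed.
-/

set_option autoImplicit false

namespace Crest.Agent.R177

open Equiv

/-- formal inverse of an oriented letter / oriented edge -/
def flp {X : Type} (d : X × Bool) : X × Bool := (d.1, !d.2)

@[simp] theorem flp_flp {X : Type} (d : X × Bool) : flp (flp d) = d := by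
  simp [flp]

theorem flp_ne {X : Type} (d : X × Bool) : flp d ≠ d := by
  rcases d with ⟨a, b⟩; cases b <;> simp [flp]

/-- no letter is followed by its formal inverse -/
def NB {X : Type} (l : List (X × Bool)) : Prop := l.IsChain (fun d d' => d' ≠ flp d)

/-- the l¹ norm of an integral chain -/
noncomputable def norm1 {X : Type} (c : X →₀ ℤ) : ℕ := c.sum (fun _ n => n.natAbs)

/-- a directed multigraph whose edges carry labels in `T` -/
structure LG (V E T : Type) where
  src : E → V
  tgt : E → V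
  lab : E → T

namespace LG

variable {V E T : Type} (Γ : LG V E T)

/-- start of an oriented edge (`true` = forward) -/
def st (d : E × Bool) : V := cond d.2 (Γ.src d.1) (Γ.tgt d.1)

/-- end of an oriented edge -/
def en (d : E × Bool) : V := cond d.2 (Γ.tgt d.1) (Γ.src d.1)

/-- label of an oriented edge -/
def lb (d : E × Bool) : T × Bool := (Γ.lab d.1, d.2)

@[simp] theorem st_flp (d : E × Bool) : Γ.st (flp d) = Γ.en d := by
  rcases d with ⟨a, b⟩; cases b <;> rfl

@[simp] theorem en_flp (d : E × Bool) : Γ.en (flp d) = Γ.st d := by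
  rcases d with ⟨a, b⟩; cases b <;> rfl

@[simp] theorem lb_flp (d : E × Bool) : Γ.lb (flp d) = flp (Γ.lb d) := rfl

/-- `l` is a walk from `x` to `y` -/
def IsWalk : V → List (E × Bool) → V → Prop
  | x, [], y => x = y
  | x, d :: l, y => Γ.st d = x ∧ IsWalk (Γ.en d) l y

/-- every nonempty non-backtracking closed walk is longer than `g` -/
def GirthGt (g : ℕ) : Prop := ∀ x l, Γ.IsWalk x l x → NB l → l ≠ [] → g < l.length

/-- the labelling is an immersion into the rose on `T` -/
def Immersed : Prop := ∀ d d', Γ.st d = Γ.st d' → Γ.lb d = Γ.lb d' → d = d'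

/-- `y` can be reached from `x` -/
def Reach (x y : V) : Prop := ∃ l, Γ.IsWalk x l y

/-- the label of a walk in the free group -/
def word (l : List (E × Bool)) : FreeGroup T := FreeGroup.mk (l.map Γ.lb)

/-- labels of closed walks -/
def rels : Set (FreeGroup T) := {w | ∃ x l, Γ.IsWalk x l x ∧ w = Γ.word l}

/-- the group of the graphical presentation -/
abbrev Grp : Type := PresentedGroup Γ.rels

/-- the projection from the free group -/
def proj : FreeGroup T →* Γ.Grp := PresentedGroup.mk Γ.rels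

/-- the generators -/
def gen (t : T) : Γ.Grp := Γ.proj (FreeGroup.of t)

/-- `ν` is a label preserving map of `Γ` to the Cayley graph -/
def IsPot (ν : V → Γ.Grp) : Prop := ∀ e, ν (Γ.tgt e) = ν (Γ.src e) * Γ.gen (Γ.lab e)

/-- the two-chain (cone at `g` over the edges of the walk `l`) -/
noncomputable def chain (g : Γ.Grp) (l : List (E × Bool)) : Γ.Grp × E →₀ ℤ :=
  (l.map (fun d => Finsupp.single (g, d.1) (cond d.2 (1 : ℤ) (-1)))).sum

/-- `Rel ν w c`: `w` is a product of conjugates of labels of closed walks, and `c` is the sum of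
the corresponding two-chains. -/
inductive Rel (ν : V → Γ.Grp) : FreeGroup T → (Γ.Grp × E →₀ ℤ) → Prop
  | one : Rel ν 1 0
  | step (w : FreeGroup T) (c : Γ.Grp × E →₀ ℤ) (u : FreeGroup T) (x : V) (l : List (E × Bool))
      (hl : Γ.IsWalk x l x) (h : Rel ν w c) :
      Rel ν (w * (u * Γ.word l * u⁻¹)) (c + Γ.chain (Γ.proj u * (ν x)⁻¹) l)

end LG

/-! ## Cayley chains -/

/-- the one-chain in the Cayley graph (edge `(g,t)` goes from `g` to `g * ι t`) traced by the
word `w` read from `g` -/
noncomputable def cay {G T : Type} [Group G] (ι : T → G) : G → List (T × Bool) → (G × T →₀ ℤ)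
  | _, [] => 0
  | g, (t, true) :: w => Finsupp.single (g, t) 1 + cay ι (g * ι t) w
  | g, (t, false) :: w => Finsupp.single (g * (ι t)⁻¹, t) (-1) + cay ι (g * (ι t)⁻¹) w

/-- the one-chain `z` of the Cayley graph is a cycle -/
def IsCyc {G T : Type} [Group G] (ι : T → G) (z : G × T →₀ ℤ) : Prop :=
  ∀ f : G → ℤ, z.sum (fun p n => n * (f (p.1 * ι p.2) - f p.1)) = 0

/-! ## Planar maps -/

/-- Planarity of the map with face permutation `φ` and edge involution `α`, as the vanishing of
mod 2 first homology.  A dart `d` starts at a vertex and ends at the start of `φ d`, which is also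
the start of `α d`.  An `α`-invariant edge function `z d = ψ (φ d) + ψ d` that has a potential `ψ`
on every face is the coboundary of a vertex colouring `χ` (`χ d` = colour of the start of `d`). -/
def Planar {D : Type} (φ α : Perm D) : Prop :=
  ∀ ψ : D → ZMod 2, (∀ d, ψ (φ (α d)) + ψ (α d) = ψ (φ d) + ψ d) →
    ∃ χ : D → ZMod 2, (∀ d, χ (φ d) + χ d = ψ (φ d) + ψ d) ∧ (∀ d, χ (α d) = χ (φ d))

/-- A partition of the darts into intervals of `φ`-cycles. -/
structure Pieces {D : Type} (φ : Perm D) (P : Type) where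
  len : P → ℕ
  dt : P → ℕ → D
  pc : D → P
  idx : D → ℕ
  len_pos : ∀ p, 0 < len p
  dt_succ : ∀ p i, dt p (i + 1) = φ (dt p i)
  pc_dt : ∀ p i, i < len p → pc (dt p i) = p
  idx_dt : ∀ p i, i < len p → idx (dt p i) = i
  idx_lt : ∀ d, idx d < len (pc d)
  dt_pc : ∀ d, dt (pc d) (idx d) = d

/-- two different pieces are adjacent when `α` pairs a dart of one with a dart of the other -/
def Pieces.graph {D P : Type} {φ : Perm D} (Pi : Pieces φ P) (α : Perm D) : SimpleGraph P :=
  SimpleGraph.fromRel (fun p p' => ∃ d, Pi.pc d = p ∧ Pi.pc (α d) = p')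

/-- `H` has a `K_h` minor -/
def HasCliqueMinor {P : Type} (H : SimpleGraph P) (h : ℕ) : Prop :=
  ∃ B : Fin h → Set P, (∀ i, (H.induce (B i)).Connected) ∧
    (∀ i j, i ≠ j → Disjoint (B i) (B j)) ∧
    ∀ i j, i ≠ j → ∃ x ∈ B i, ∃ y ∈ B j, H.Adj x y

/-- A planar diagram over `Γ`; `edge d = none` means that `d` is a boundary dart.  Darts glued by
`α` never come from the same edge of `Γ`. -/
structure Diag {V E T : Type} (Γ : LG V E T) (D : Type) where
  φ : Perm D
  α : Perm D
  lab : D → T × Bool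
  edge : D → Option (E × Bool)
  α_α : ∀ d, α (α d) = d
  α_ne : ∀ d, α d ≠ d
  lab_α : ∀ d, lab (α d) = flp (lab d)
  lab_edge : ∀ d ε, edge d = some ε → lab d = Γ.lb ε
  edge_φ : ∀ d, edge (φ d) = none ↔ edge d = none
  planar : Planar φ α
  red_α : ∀ d ε ε', edge d = some ε → edge (α d) = some ε' → ε' ≠ flp ε

namespace Diag

variable {V E T : Type} {Γ : LG V E T} {D : Type} (Δ : Diag Γ D)

/-- the corner after `d` is a non-backtracking corner of `Γ` (vacuous for boundary darts) -/
def Link (d : D) : Prop :=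
  ∀ ε ε', Δ.edge d = some ε → Δ.edge (Δ.φ d) = some ε' → Γ.en ε = Γ.st ε' ∧ ε' ≠ flp ε

/-- the boundary darts form at most one face, with at most one cancelling corner -/
def OneBdry : Prop :=
  (∀ d d', Δ.edge d = none → Δ.edge d' = none → Δ.φ.SameCycle d d') ∧
  (∀ d d', Δ.edge d = none → Δ.edge d' = none → Δ.lab (Δ.φ d) = flp (Δ.lab d) →
    Δ.lab (Δ.φ d') = flp (Δ.lab d') → d = d')

/-- reduced disc diagram -/
def IsDisc : Prop := (∀ d, Δ.Link d) ∧ Δ.OneBdry

/-- reduced spherical diagram one of whose faces is a walk starting at `z`, broken after `d0` -/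
def IsMarked (z : V) (d0 : D) : Prop :=
  (∀ d, Δ.edge d ≠ none) ∧ (∀ d, d ≠ d0 → Δ.Link d) ∧
    ∀ ε, Δ.edge (Δ.φ d0) = some ε → Γ.st ε = z

open Classical in
/-- number of boundary darts -/
noncomputable def nBdry [Fintype D] : ℕ := (Finset.univ.filter (fun d => Δ.edge d = none)).card

open Classical in
/-- number of inner darts -/
noncomputable def nInner [Fintype D] : ℕ := (Finset.univ.filter (fun d => Δ.edge d ≠ none)).card

end Diag

/-! ## Local configurations -/

/-- the dart positions `(p, i)`, `i < len p` -/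
def darts {K : ℕ} (len : Fin K → ℕ) : Finset (Fin K × ℕ) :=
  Finset.univ.biUnion (fun p => (Finset.range (len p)).image (fun i => (p, i)))

@[simp] theorem mem_darts {K : ℕ} (len : Fin K → ℕ) (x : Fin K × ℕ) :
    x ∈ darts len ↔ x.2 < len x.1 := by
  rcases x with ⟨p, i⟩
  simp [darts]

/-- the pairing `pr` continues affinely (or is undefined) from position `x` to the next one -/
def Smooth {K : ℕ} (pr : Fin K × ℕ → Option (Fin K × ℕ)) (x : Fin K × ℕ) : Prop :=
  (pr x = none ∧ pr (x.1, x.2 + 1) = none) ∨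
    ∃ p' i', pr x = some (p', i' + 1) ∧ pr (x.1, x.2 + 1) = some (p', i')

open Classical in
/-- At most `K` non-backtracking walks in `Γ` (unused ones have length `0`), each closed, long or
starting at `z`, with a partial pairing of darts that has at most `B` break points. -/
structure Config {V E T : Type} (Γ : LG V E T) (z : V) (K B L0 M : ℕ) where
  len : Fin K → ℕ
  ed : Fin K × ℕ → E × Bool
  pr : Fin K × ℕ → Option (Fin K × ℕ)
  len_lo : ∀ p, len p = 0 ∨ L0 ≤ len p
  len_hi : ∀ p, len p ≤ 2 * M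
  walk : ∀ p i, i + 1 < len p → Γ.en (ed (p, i)) = Γ.st (ed (p, i + 1))
  nb : ∀ p i, i + 1 < len p → ed (p, i + 1) ≠ flp (ed (p, i))
  kind : ∀ p, 0 < len p →
    (Γ.en (ed (p, len p - 1)) = Γ.st (ed (p, 0)) ∧ ed (p, 0) ≠ flp (ed (p, len p - 1))) ∨
      M ≤ len p ∨ Γ.st (ed (p, 0)) = z
  pr_dom : ∀ x y, pr x = some y → x.2 < len x.1
  pr_symm : ∀ x y, pr x = some y → pr y = some x
  pr_lab : ∀ x y, pr x = some y → Γ.lb (ed y) = flp (Γ.lb (ed x))
  pr_red : ∀ x y, pr x = some y → ed y ≠ flp (ed x)
  brk : ((darts len).filter (fun x => x.2 + 1 < len x.1 ∧ ¬ Smooth pr x)).card ≤ B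

/-- the local isoperimetric property -/
def LG.LIP {V E T : Type} (Γ : LG V E T) (z : V) (K B L0 M C0 : ℕ) : Prop :=
  ∀ c : Config Γ z K B L0 M,
    ∑ p, c.len p ≤ C0 * ((darts c.len).filter (fun x => c.pr x = none)).card

/-! ## Slot systems (the random graph model) -/

/-- `U`-vertices have a colour and a set of letters; connectors `W` have a set of slots
(letter, colour). -/
structure SlotSys (T C U W : Type) where
  col : U → C
  S : U → Finset T
  slots : W → Finset (T × C)

namespace SlotSys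

variable {T C U W : Type} (Y : SlotSys T C U W)

/-- edges = slots on the `U` side -/
abbrev E : Type := {e : U × T // e.2 ∈ Y.S e.1}

/-- slots on the `W` side -/
abbrev WS : Type := {s : W × (T × C) // s.2 ∈ Y.slots s.1}

/-- the class of an edge -/
def cls (e : Y.E) : T × C := (e.1.2, Y.col e.1.1)

/-- class preserving bijections between the two kinds of slots -/
abbrev Matching : Type := {σ : Y.E ≃ Y.WS // ∀ e, (σ e).1.2 = Y.cls e}

/-- the bipartite labelled graph of a matching -/
def graph (σ : Y.Matching) : LG (U ⊕ W) Y.E T where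
  src e := Sum.inl e.1.1
  tgt e := Sum.inr (σ.1 e).1.1
  lab e := e.1.2

/-- the numerical hypotheses of the random graph model -/
structure Bounds [Fintype T] [DecidableEq T] [Fintype C] [DecidableEq C] [Fintype U]
    [DecidableEq U] [Fintype W] [DecidableEq W]
    (π : Perm T) (τ : T → T → C → C) (q N : ℕ) : Prop where
  slots_inj : ∀ κ, ∀ ξ ∈ Y.slots κ, ∀ ξ' ∈ Y.slots κ, ξ.1 = ξ'.1 → ξ = ξ'
  slots_blk : ∀ κ, ∀ ξ ∈ Y.slots κ, ∀ ξ' ∈ Y.slots κ, ξ ≠ ξ' → ξ'.1 = π ξ.1 ∨ ξ.1 = π ξ'.1
  slots_col : ∀ κ, ∀ ξ ∈ Y.slots κ, ∀ ξ' ∈ Y.slots κ, ξ ≠ ξ' → ξ'.2 = τ ξ.1 ξ'.1 ξ.2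
  card_eq : ∀ ξ : T × C, (Finset.univ.filter (fun e : Y.E => Y.cls e = ξ)).card =
    (Finset.univ.filter (fun s : Y.WS => s.1.2 = ξ)).card
  lower : ∀ e : Y.E, (q + 1) * N ≤ (Finset.univ.filter (fun e' : Y.E => Y.cls e' = Y.cls e)).card
  upper : ∀ ξ : T × C, (Finset.univ.filter (fun e : Y.E => Y.cls e = ξ)).card ≤ (q + 1) * N + 1
  pair : ∀ (c : C) (s t : T), s ≠ t →
    (Finset.univ.filter (fun x : U => Y.col x = c ∧ s ∈ Y.S x ∧ t ∈ Y.S x)).card ≤ N + 1

end SlotSys

/-- ordered pairs of different letters that may occur at one connector -/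
def blkPairs {T : Type} [Fintype T] [DecidableEq T] (π : Perm T) : Finset (T × T) :=
  Finset.univ.filter (fun x => x.1 ≠ x.2 ∧ (x.2 = π x.1 ∨ x.1 = π x.2))

/-- realises the equation lemmas once and for all -/
theorem eqns_realised : True := by
  have := @blkPairs.eq_1
  have := @LG.en.eq_1
  have := @LG.st.eq_1
  have := @LG.lb.eq_1
  have := @LG.IsWalk.eq_1
  have := @LG.IsWalk.eq_2
  have := @LG.IsWalk.eq_def
  have := @NB.eq_1
  have := @SlotSys.cls.eq_1
  trivial

end Crest.Agent.R177
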