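import Mathlib

/-!
# Row 177 project: two-dimensional semi-simplicial `G`-sets and their realisations
-/

set_option autoImplicit false

namespace Crest.Agent.R177

open unitInterval

/-- A two-dimensional semi-simplicial set.  The edge `e` goes from `s e` to `t e`; the triangle
`f` has vertices `v0, v1, v2` and edges `d2 f : v0 → v1`, `d0 f : v1 → v2`, `d1 f : v0 → v2`. -/
structure Cx (X0 X1 X2 : Type) where
  s : X1 → X0
  t : X1 → X0
  d0 : X2 → X1
  d1 : X2 → X1
  d2 : X2 → X1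

namespace Cx

variable {X0 X1 X2 : Type} (K : Cx X0 X1 X2)

/-- simplicial identities, and no edge is a loop -/
structure Simplicial : Prop where
  v0 : ∀ f, K.s (K.d1 f) = K.s (K.d2 f)
  v1 : ∀ f, K.s (K.d0 f) = K.t (K.d2 f)
  v2 : ∀ f, K.t (K.d0 f) = K.t (K.d1 f)
  s_ne_t : ∀ e, K.s e ≠ K.t e

/-- `G` acts freely, simplicially and cocompactly -/
structure Act (G : Type) [Group G] [MulAction G X0] [MulAction G X1] [MulAction G X2] :
    Prop where
  s_smul : ∀ (g : G) e, K.s (g • e) = g • K.s e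
  t_smul : ∀ (g : G) e, K.t (g • e) = g • K.t e
  d0_smul : ∀ (g : G) f, K.d0 (g • f) = g • K.d0 f
  d1_smul : ∀ (g : G) f, K.d1 (g • f) = g • K.d1 f
  d2_smul : ∀ (g : G) f, K.d2 (g • f) = g • K.d2 f
  free : ∀ (g : G) (x : X0), g • x = x → g = 1
  fin0 : Finite (MulAction.orbitRel.Quotient G X0)
  fin1 : Finite (MulAction.orbitRel.Quotient G X1)
  fin2 : Finite (MulAction.orbitRel.Quotient G X2)

/-- nonempty, connected, simply connected (every flat connection is trivial), and every abelian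
two-cochain is a coboundary -/
structure Acyclic : Prop where
  ne : Nonempty X0
  conn : ∀ P : X0 → Prop, (∀ e, P (K.s e) ↔ P (K.t e)) → ∀ x y, P x → P y
  sc : ∀ (H : Type) [Group H] (f : X1 → H), (∀ τ, f (K.d2 τ) * f (K.d0 τ) = f (K.d1 τ)) →
    ∃ h : X0 → H, ∀ e, h (K.s e) * f e = h (K.t e)
  h2 : ∀ (A : Type) [AddCommGroup A] (o : X2 → A),
    ∃ a : X1 → A, ∀ τ, a (K.d2 τ) + a (K.d0 τ) - a (K.d1 τ) = o τ

end Cx

/-- parameters of the points of the open cells -/
abbrev OCell (X0 X1 X2 : Type) : Type :=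
  X0 ⊕ (X1 × Set.Ioo (0 : I) 1) ⊕ (X2 × Set.Ioo (0 : I) 1 × Set.Ioo (0 : I) 1)

/-- the point of an open cell -/
def cellMap {X0 X1 X2 Y : Type} [TopologicalSpace Y] (pt : X0 → Y) (ed : X1 → C(I, Y))
    (tr : X2 → C(I × I, Y)) : OCell X0 X1 X2 → Y
  | Sum.inl x => pt x
  | Sum.inr (Sum.inl p) => ed p.1 p.2.1
  | Sum.inr (Sum.inr p) => tr p.1 (p.2.1.1, p.2.2.1)

/-- A geometric realisation of `K`: triangles are parametrised by the square (barycentric
coordinates `(1 - s, s (1 - t), s t)`), the open cells partition `Y`, and `Y` has the weak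
topology. -/
structure Realz {X0 X1 X2 : Type} (K : Cx X0 X1 X2) (Y : Type) [TopologicalSpace Y] where
  pt : X0 → Y
  ed : X1 → C(I, Y)
  tr : X2 → C(I × I, Y)
  ed_zero : ∀ e, ed e 0 = pt (K.s e)
  ed_one : ∀ e, ed e 1 = pt (K.t e)
  tr_s0 : ∀ f s, tr f (s, 0) = ed (K.d2 f) s
  tr_s1 : ∀ f s, tr f (s, 1) = ed (K.d1 f) s
  tr_1t : ∀ f t, tr f (1, t) = ed (K.d0 f) t
  tr_0t : ∀ f t, tr f (0, t) = pt (K.s (K.d2 f))
  bij : Function.Bijective (cellMap pt ed tr)
  closed : ∀ A : Set Y, (∀ e, IsClosed (ed e ⁻¹' A)) → (∀ f, IsClosed (tr f ⁻¹' A)) → IsClosed A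

/-- the action of `G` on the realisation is the induced one and is a covering space action with
Hausdorff quotient -/
structure Realz.Act {X0 X1 X2 : Type} {K : Cx X0 X1 X2} {Y : Type} [TopologicalSpace Y]
    (R : Realz K Y) (G : Type) [Group G] [MulAction G X0] [MulAction G X1] [MulAction G X2]
    [MulAction G Y] : Prop where
  pt_smul : ∀ (g : G) x, R.pt (g • x) = g • R.pt x
  ed_smul : ∀ (g : G) e s, R.ed (g • e) s = g • R.ed e s
  tr_smul : ∀ (g : G) f p, R.tr (g • f) p = g • R.tr f p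
  cov : IsQuotientCoveringMap
    (Quotient.mk (MulAction.orbitRel G Y) : Y → MulAction.orbitRel.Quotient G Y) G
  t2 : T2Space (MulAction.orbitRel.Quotient G Y)

end Crest.Agent.R177
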