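import Crest.Agent.R177.Defs

/-!
# Row 177 project: patterns of configurations

A pattern records the combinatorial type of a configuration: lengths, orientations, which vertex
positions coincide in `Γ`, the pairing, and which vertex positions are the marked vertex.  All
exponents of the first moment bound are functions of the pattern.
-/

set_option autoImplicit false

namespace Crest.Agent.R177

open Equiv

/-- all edges go from the `U` side to the `W` side -/
def LG.Bip {V E T : Type} (Γ : LG V E T) : Prop := ∀ e e', Γ.src e ≠ Γ.tgt e'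

/-- the vertex positions `(p, i)`, `i ≤ len p`, of the nonempty walks -/
def verts {K : ℕ} (len : Fin K → ℕ) : Finset (Fin K × ℕ) :=
  Finset.univ.biUnion
    (fun p => if len p = 0 then ∅ else (Finset.range (len p + 1)).image (fun i => (p, i)))

@[simp] theorem mem_verts {K : ℕ} (len : Fin K → ℕ) (x : Fin K × ℕ) :
    x ∈ verts len ↔ 0 < len x.1 ∧ x.2 ≤ len x.1 := by
  rcases x with ⟨p, i⟩
  simp only [verts, Finset.mem_biUnion, Finset.mem_univ, true_and]
  constructor
  · rintro ⟨a, ha⟩
    by_cases h : len a = 0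
    · simp [h] at ha
    · simp only [h, if_false, Finset.mem_image, Finset.mem_range, Prod.mk.injEq] at ha
      obtain ⟨j, hj, rfl, rfl⟩ := ha
      exact ⟨Nat.pos_of_ne_zero h, Nat.lt_succ_iff.mp hj⟩
  · rintro ⟨h1, h2⟩
    refine ⟨p, ?_⟩
    simp only [h1.ne', if_false, Finset.mem_image, Finset.mem_range, Prod.mk.injEq]
    exact ⟨i, Nat.lt_succ_iff.mpr h2, trivial, rfl⟩

/-- combinatorial type of a configuration -/
@[ext]
structure Pat (K : ℕ) where
  len : Fin K → ℕ
  ori : Fin K → Bool
  R : Finset ((Fin K × ℕ) × (Fin K × ℕ))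
  pr : Fin K × ℕ → Option (Fin K × ℕ)
  Z : Finset (Fin K × ℕ)

namespace Config

variable {V E T : Type} {Γ : LG V E T} {z : V} {K B L0 M : ℕ} (c : Config Γ z K B L0 M)

/-- the vertex of `Γ` at a vertex position -/
def vtx (x : Fin K × ℕ) : V :=
  if x.2 < c.len x.1 then Γ.st (c.ed x) else Γ.en (c.ed (x.1, c.len x.1 - 1))

open Classical in
/-- the pattern of a configuration -/
noncomputable def pat : Pat K where
  len := c.len
  ori p := if 0 < c.len p then (c.ed (p, 0)).2 else false
  R := (verts c.len ×ˢ verts c.len).filter (fun xy => c.vtx xy.1 = c.vtx xy.2)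
  pr := c.pr
  Z := (verts c.len).filter (fun x => c.vtx x = z)

/-- total length -/
def total : ℕ := ∑ p, c.len p

/-- number of unpaired darts -/
def unp : ℕ := ((darts c.len).filter (fun x => c.pr x = none)).card

theorem vtx_st {x : Fin K × ℕ} (hx : x.2 < c.len x.1) : c.vtx x = Γ.st (c.ed x) := by
  simp [vtx, hx]

theorem vtx_en {x : Fin K × ℕ} (hx : x.2 < c.len x.1) :
    c.vtx (x.1, x.2 + 1) = Γ.en (c.ed x) := by
  rcases x with ⟨p, i⟩
  by_cases h : i + 1 < c.len p
  · simp only [vtx, h, if_true]; exact (c.walk p i h).symm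
  · have : c.len p - 1 = i := by simp only at hx; omega
    simp only [vtx, h, if_false, this]

end Config

namespace Pat

variable {K : ℕ} (π : Pat K)

/-- orientation of the dart at position `x` (orientations alternate in a bipartite graph) -/
def o (x : Fin K × ℕ) : Bool := xor (π.ori x.1) (decide (x.2 % 2 = 1))

/-- vertex position of the `U` end of a dart -/
def uPos (x : Fin K × ℕ) : Fin K × ℕ := cond (π.o x) x (x.1, x.2 + 1)

/-- vertex position of the `W` end of a dart -/
def wPos (x : Fin K × ℕ) : Fin K × ℕ := cond (π.o x) (x.1, x.2 + 1) x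

def sameU (x y : Fin K × ℕ) : Prop := (π.uPos x, π.uPos y) ∈ π.R

def sameW (x y : Fin K × ℕ) : Prop := (π.wPos x, π.wPos y) ∈ π.R

def sameE (x y : Fin K × ℕ) : Prop := π.sameU x y ∧ π.sameW x y

open Classical in
/-- multiplicity of the edge under the dart `x` -/
noncomputable def mult (x : Fin K × ℕ) : ℕ := ((darts π.len).filter (fun y => π.sameE x y)).card

open Classical in
/-- largest multiplicity of an edge at the connector of the dart `x` -/
noncomputable def mW (x : Fin K × ℕ) : ℕ :=
  ((darts π.len).filter (fun y => π.sameW x y)).sup π.mult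

/-- the connector of `y` comes strictly before the connector of `x` -/
def before (y x : Fin K × ℕ) : Prop :=
  π.mW x < π.mW y ∨ (π.mW y = π.mW x ∧ ∃ y' ∈ darts π.len, π.sameW y y' ∧
    ∀ x' ∈ darts π.len, π.sameW x x' → toLex y' < toLex x')

/-- the connector of `x` has a pass that is paired with a pass through an earlier connector -/
def det (x : Fin K × ℕ) : Prop :=
  ∃ p i p' i', i + 1 < π.len p ∧ π.o (p, i) = true ∧ π.sameW x (p, i) ∧
    π.pr (p, i) = some (p', i' + 1) ∧ π.pr (p, i + 1) = some (p', i') ∧ π.before (p', i') x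

/-- `x` is the first dart at its connector -/
def repW (x : Fin K × ℕ) : Prop := ∀ y ∈ darts π.len, π.sameW x y → toLex x ≤ toLex y

/-- `x` is the first dart over its edge -/
def repE (x : Fin K × ℕ) : Prop := ∀ y ∈ darts π.len, π.sameE x y → toLex x ≤ toLex y

open Classical in
/-- darts of multiplicity at least `j` -/
noncomputable def J (j : ℕ) : Finset (Fin K × ℕ) := (darts π.len).filter (fun x => j ≤ π.mult x)

/-- `x` is the first dart of level `j` at its `U` vertex -/
def repU (j : ℕ) (x : Fin K × ℕ) : Prop := ∀ y ∈ π.J j, π.sameU x y → toLex x ≤ toLex y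

open Classical in
/-- number of edges of level `j` -/
noncomputable def nE (j : ℕ) : ℕ := ((π.J j).filter (fun x => π.repE x)).card

open Classical in
/-- number of connectors of level `j` -/
noncomputable def nW (j : ℕ) : ℕ :=
  ((darts π.len).filter (fun x => π.repW x ∧ j ≤ π.mW x)).card

open Classical in
/-- number of free connectors of level `j` -/
noncomputable def nFree (j : ℕ) : ℕ :=
  ((darts π.len).filter (fun x => π.repW x ∧ j ≤ π.mW x ∧ ¬ π.det x)).card

open Classical in
/-- number of unmarked `U` vertices of level `j` -/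
noncomputable def nU (j : ℕ) : ℕ :=
  ((π.J j).filter (fun x => π.repU j x ∧ π.uPos x ∉ π.Z)).card

open Classical in
/-- number of `U` vertices of degree one in level `j` -/
noncomputable def nLeaf (j : ℕ) : ℕ :=
  ((π.J j).filter (fun x => π.repU j x ∧ ∀ y ∈ π.J j, π.sameU x y → π.sameE x y)).card

open Classical in
/-- number of maximal runs of level `j` darts along the walks -/
noncomputable def nRun (j : ℕ) : ℕ :=
  ((π.J j).filter (fun x => x.2 = 0 ∨ (x.1, x.2 - 1) ∉ π.J j)).card

end Pat

/-! ## Dictionary between a configuration and its pattern -/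

namespace Config

variable {V E T : Type} {Γ : LG V E T} {z : V} {K B L0 M : ℕ} (c : Config Γ z K B L0 M)

@[simp] theorem pat_len : c.pat.len = c.len := rfl

@[simp] theorem pat_pr : c.pat.pr = c.pr := rfl

theorem ori_succ (hb : Γ.Bip) (p : Fin K) (i : ℕ) (h : i + 1 < c.len p) :
    (c.ed (p, i + 1)).2 = !(c.ed (p, i)).2 := by
  have hw := c.walk p i h
  rcases h1 : c.ed (p, i) with ⟨e, b⟩
  rcases h2 : c.ed (p, i + 1) with ⟨e', b'⟩
  rw [h1, h2] at hw
  cases b <;> cases b' <;> simp [LG.st, LG.en] at hw ⊢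
  · exact hb _ _ hw
  · exact hb _ _ hw.symm

theorem pat_o (hb : Γ.Bip) {x : Fin K × ℕ} (hx : x.2 < c.len x.1) :
    c.pat.o x = (c.ed x).2 := by
  rcases x with ⟨p, i⟩
  induction i with
  | zero => simp only at hx; simp [Pat.o, pat, hx]
  | succ i ih =>
    simp only at hx
    have ih' := ih (by simp only; omega)
    rw [c.ori_succ hb p i hx, ← ih']
    simp only [Pat.o]
    rcases Nat.mod_two_eq_zero_or_one i with h | h
    · have : (i + 1) % 2 = 1 := by omega
      simp [h, this]
    · have : (i + 1) % 2 = 0 := by omega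
      simp [h, this]

theorem vtx_uPos (hb : Γ.Bip) {x : Fin K × ℕ} (hx : x.2 < c.len x.1) :
    c.vtx (c.pat.uPos x) = Γ.src (c.ed x).1 := by
  unfold Pat.uPos
  rw [c.pat_o hb hx]
  rcases h : (c.ed x).2
  · simp only [cond_false]; rw [c.vtx_en hx]; simp [LG.en, h]
  · simp only [cond_true]; rw [c.vtx_st hx]; simp [LG.st, h]

theorem vtx_wPos (hb : Γ.Bip) {x : Fin K × ℕ} (hx : x.2 < c.len x.1) :
    c.vtx (c.pat.wPos x) = Γ.tgt (c.ed x).1 := by
  unfold Pat.wPos
  rw [c.pat_o hb hx]
  rcases h : (c.ed x).2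
  · simp only [cond_false]; rw [c.vtx_st hx]; simp [LG.st, h]
  · simp only [cond_true]; rw [c.vtx_en hx]; simp [LG.en, h]

theorem uPos_mem {x : Fin K × ℕ} (hx : x.2 < c.len x.1) : c.pat.uPos x ∈ verts c.len := by
  unfold Pat.uPos
  cases c.pat.o x <;> simp <;> omega

theorem wPos_mem {x : Fin K × ℕ} (hx : x.2 < c.len x.1) : c.pat.wPos x ∈ verts c.len := by
  unfold Pat.wPos
  cases c.pat.o x <;> simp <;> omega

theorem mem_pat_R (x y : Fin K × ℕ) :
    (x, y) ∈ c.pat.R ↔ x ∈ verts c.len ∧ y ∈ verts c.len ∧ c.vtx x = c.vtx y := by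
  simp only [pat, Finset.mem_filter, Finset.mem_product, and_assoc]

theorem pat_sameU (hb : Γ.Bip) {x y : Fin K × ℕ} (hx : x.2 < c.len x.1) (hy : y.2 < c.len y.1) :
    c.pat.sameU x y ↔ Γ.src (c.ed x).1 = Γ.src (c.ed y).1 := by
  unfold Pat.sameU
  rw [c.mem_pat_R, c.vtx_uPos hb hx, c.vtx_uPos hb hy]
  simp only [c.uPos_mem hx, c.uPos_mem hy, true_and]

theorem pat_sameW (hb : Γ.Bip) {x y : Fin K × ℕ} (hx : x.2 < c.len x.1) (hy : y.2 < c.len y.1) :
    c.pat.sameW x y ↔ Γ.tgt (c.ed x).1 = Γ.tgt (c.ed y).1 := by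
  unfold Pat.sameW
  rw [c.mem_pat_R, c.vtx_wPos hb hx, c.vtx_wPos hb hy]
  simp only [c.wPos_mem hx, c.wPos_mem hy, true_and]

theorem pat_sameE (hb : Γ.Bip) (hg : Γ.GirthGt 2) {x y : Fin K × ℕ} (hx : x.2 < c.len x.1)
    (hy : y.2 < c.len y.1) : c.pat.sameE x y ↔ (c.ed x).1 = (c.ed y).1 := by
  unfold Pat.sameE
  rw [c.pat_sameU hb hx hy, c.pat_sameW hb hx hy]
  constructor
  · rintro ⟨h1, h2⟩
    by_contra hne
    have := hg (Γ.src (c.ed x).1) [((c.ed x).1, true), ((c.ed y).1, false)]
      (by simp [LG.IsWalk, LG.st, LG.en, h1, h2])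
      (by simp [NB, flp]; exact fun h => hne h.symm) (by simp)
    simp at this
  · intro h; rw [h]; exact ⟨rfl, rfl⟩

theorem pat_uPos_mem_Z (hb : Γ.Bip) {x : Fin K × ℕ} (hx : x.2 < c.len x.1) :
    c.pat.uPos x ∈ c.pat.Z ↔ Γ.src (c.ed x).1 = z := by
  have h1 := c.uPos_mem hx
  have h2 := c.vtx_uPos hb hx
  simp only [pat, Finset.mem_filter] at h1 h2 ⊢
  rw [h2]; simp only [h1, true_and]

end Config

namespace SlotSys

variable {T C U W : Type} (Y : SlotSys T C U W)

theorem graph_bip (σ : Y.Matching) : (Y.graph σ).Bip := by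
  intro e e'; simp [graph]

theorem graph_immersed (σ : Y.Matching)
    (h : ∀ κ, ∀ ξ ∈ Y.slots κ, ∀ ξ' ∈ Y.slots κ, ξ.1 = ξ'.1 → ξ = ξ') :
    (Y.graph σ).Immersed := by
  rintro ⟨e, b⟩ ⟨e', b'⟩ h1 h2
  simp only [LG.lb, graph, Prod.mk.injEq] at h2
  obtain ⟨h2, rfl⟩ := h2
  cases b
  · simp only [LG.st, graph, cond_false, Sum.inr.injEq] at h1
    have e1 := σ.2 e
    have e2 := σ.2 e'
    have m1 := (σ.1 e).2
    have m2 := (σ.1 e').2
    rw [h1] at m1
    have : (σ.1 e).1.2 = (σ.1 e').1.2 := h _ _ m1 _ m2 (by rw [e1, e2]; exact h2)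
    have : σ.1 e = σ.1 e' := Subtype.ext (Prod.ext h1 this)
    rw [σ.1.injective this]
  · simp only [LG.st, graph, cond_true, Sum.inl.injEq] at h1
    have : e = e' := Subtype.ext (Prod.ext h1 h2)
    rw [this]

open Classical in
/-- the matchings whose graph has girth larger than `g` -/
noncomputable def Good [Fintype T] [DecidableEq T] [Fintype C] [DecidableEq C] [Fintype U]
    [DecidableEq U] [Fintype W] [DecidableEq W] (g : ℕ) : Finset Y.Matching :=
  Finset.univ.filter (fun σ => (Y.graph σ).GirthGt g)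

end SlotSys

theorem LG.GirthGt.mono {V E T : Type} {Γ : LG V E T} {g g' : ℕ} (h : Γ.GirthGt g)
    (hle : g' ≤ g) : Γ.GirthGt g' :=
  fun x l hl hn hne => lt_of_le_of_lt hle (h x l hl hn hne)

/-- realises the equation lemmas once and for all -/
theorem eqns_realised_pat : True := by
  have := @Pat.J.eq_1
  trivial

end Crest.Agent.R177
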