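import Mathlib

set_option autoImplicit false

namespace Crest.Agent.R177

open Equiv

namespace PlaneAux

open scoped LinearAlgebra.Projectivization
open Projectivization Finset Matrix

lemma card_nonzero (p : ℕ) [Fact p.Prime] {G : Type*} [AddCommGroup G] [Fintype G]
    [DecidableEq G] (hG : ∀ x : G, p • x = 0) (H : AddSubgroup G) [DecidablePred (· ∈ H)]
    (h : ∃ x ∈ H, x ≠ 0) :
    (((univ.filter (fun x => x ≠ 0 ∧ x ∈ H)).card : ℕ) : ZMod p) = -1 := by
  obtain ⟨x, hx, hx0⟩ := h
  have h1 : addOrderOf x = p := addOrderOf_eq_prime (hG x) hx0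
  have h2 : p ∣ Nat.card H := h1 ▸ H.addOrderOf_dvd_natCard hx
  have h3 : (univ.filter (fun x => x ≠ 0 ∧ x ∈ H)).card + 1 = Nat.card H := by
    rw [Nat.card_eq_fintype_card, Fintype.card_subtype]
    have : univ.filter (fun x => x ∈ H) = insert 0 (univ.filter (fun x => x ≠ 0 ∧ x ∈ H)) := by
      ext y
      by_cases hy : y = 0
      · simp [hy]
      · simp [hy]
    rw [this, card_insert_of_notMem (by simp)]
  have h4 : ((Nat.card H : ℕ) : ZMod p) = 0 := (ZMod.natCast_eq_zero_iff _ _).2 h2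
  rw [← h3] at h4
  push_cast at h4
  exact eq_neg_of_add_eq_zero_left h4

variable {K : Type} [Field K]

lemma mem_submodule_iff {v : Fin 3 → K} (hv : v ≠ 0) (P : ℙ K (Fin 3 → K)) :
    v ∈ P.submodule ↔ mk K v hv = P := by
  induction P with | h w hw =>
  rw [submodule_mk, mk_eq_mk_iff', Submodule.mem_span_singleton]

open Classical in
/-- The points spanned by non-zero vectors in the image of `ψ`. -/
noncomputable def ptSet [Fintype (ℙ K (Fin 3 → K))] {G : Type*} [AddCommGroup G]
    (ψ : G →+ (Fin 3 → K)) : Finset (ℙ K (Fin 3 → K)) :=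
  univ.filter (fun P => ∃ x, x ≠ 0 ∧ ψ x ∈ P.submodule)

open Classical in
lemma ptSet_line (p : ℕ) [Fact p.Prime] [Fintype K] [Fintype (ℙ K (Fin 3 → K))] {G : Type*}
    [AddCommGroup G] [Fintype G] (hG : ∀ x : G, p • x = 0) (ψ : G →+ (Fin 3 → K))
    (hψ : Function.Injective ψ) (hcard : Fintype.card K < Fintype.card G)
    (l : ℙ K (Fin 3 → K)) :
    (((ptSet ψ ∩ univ.filter (fun t => orthogonal t l)).card : ℕ) : ZMod p) = 1 := by
  induction l with | h w hw =>
  have hne : ∀ x : G, x ≠ 0 → ψ x ≠ 0 := fun x hx h => hx (hψ (by rw [h, map_zero]))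
  let φ : G →+ K := AddMonoidHom.mk' (fun x => ψ x ⬝ᵥ w) (by simp [add_dotProduct])
  have hker : ∃ x ∈ φ.ker, x ≠ 0 := by
    obtain ⟨x, y, hxy, h⟩ := Fintype.exists_ne_map_eq_of_card_lt φ hcard
    exact ⟨x - y, by rw [AddMonoidHom.mem_ker, map_sub, h, sub_self], sub_ne_zero.2 hxy⟩
  have h1 := card_nonzero p hG φ.ker hker
  let f : G → ℙ K (Fin 3 → K) := fun x => if h : ψ x ≠ 0 then mk K (ψ x) h else mk K w hw
  have hf : ∀ x (hx : x ≠ 0), f x = mk K (ψ x) (hne x hx) := fun x hx => dif_pos (hne x hx)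
  have h2 := card_eq_sum_card_fiberwise (f := f) (s := univ.filter (fun x => x ≠ 0 ∧ x ∈ φ.ker))
    (t := ptSet ψ ∩ univ.filter (fun t => orthogonal t (mk K w hw))) (by
      intro x hx
      simp only [coe_filter, mem_univ, true_and, Set.mem_ofPred_eq] at hx
      obtain ⟨hx0, hx1⟩ := hx
      simp only [coe_inter, ptSet, coe_filter, mem_univ, true_and, Set.mem_inter_iff,
        Set.mem_ofPred_eq]
      rw [hf x hx0]
      exact ⟨⟨x, hx0, (mem_submodule_iff _ _).2 rfl⟩, (orthogonal_mk _ _).2 hx1⟩)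
  have h3 : ∀ P ∈ ptSet ψ ∩ univ.filter (fun t => orthogonal t (mk K w hw)),
      ((((univ.filter (fun x => x ≠ 0 ∧ x ∈ φ.ker)).filter (fun x => f x = P)).card : ℕ) :
        ZMod p) = -1 := by
    intro P hP
    simp only [mem_inter, ptSet, mem_filter, mem_univ, true_and] at hP
    obtain ⟨⟨x, hx0, hx⟩, hPl⟩ := hP
    have h4 := card_nonzero p hG (P.submodule.toAddSubgroup.comap ψ) ⟨x, hx, hx0⟩
    rw [← h4]
    congr 2
    ext y
    simp only [mem_filter, mem_univ, true_and, AddSubgroup.mem_comap, Submodule.mem_toAddSubgroup]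
    constructor
    · rintro ⟨⟨hy0, -⟩, hy⟩
      rw [hf y hy0] at hy
      exact ⟨hy0, (mem_submodule_iff _ _).2 hy⟩
    · rintro ⟨hy0, hy⟩
      have hy' := (mem_submodule_iff (hne y hy0) P).1 hy
      refine ⟨⟨hy0, ?_⟩, by rw [hf y hy0, hy']⟩
      rw [← hy'] at hPl
      exact (orthogonal_mk _ _).1 hPl
  rw [h2] at h1
  push_cast at h1
  rw [sum_congr rfl h3, sum_const, nsmul_eq_mul, mul_neg, mul_one] at h1
  exact neg_injective h1

open Classical in
lemma ptSet_card_le [Fintype (ℙ K (Fin 3 → K))] {G : Type*} [AddCommGroup G] [Fintype G]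
    (ψ : G →+ (Fin 3 → K)) (hψ : Function.Injective ψ) : (ptSet ψ).card ≤ Fintype.card G := by
  have hne : ∀ x : G, x ≠ 0 → ψ x ≠ 0 := fun x hx h => hx (hψ (by rw [h, map_zero]))
  let f : G → ℙ K (Fin 3 → K) := fun x =>
    if h : ψ x ≠ 0 then mk K (ψ x) h else mk K 1 one_ne_zero
  refine le_trans (card_le_card (t := univ.image f) ?_) (card_image_le.trans (by simp))
  intro P hP
  simp only [ptSet, mem_filter, mem_univ, true_and] at hP
  obtain ⟨x, hx0, hx⟩ := hP
  refine mem_image.2 ⟨x, mem_univ _, ?_⟩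
  rw [← (mem_submodule_iff (hne x hx0) P).1 hx]
  exact dif_pos (hne x hx0)

lemma exists_maps (p : ℕ) [Fact p.Prime] :
    ∃ ψ₁ ψ₂ : GaloisField p 6 →+ (Fin 3 → GaloisField p 4), Function.Injective ψ₁ ∧
      Function.Injective ψ₂ ∧ ∀ (x y : GaloisField p 6) (r : Fin 3 → GaloisField p 4)
        (a b : GaloisField p 4), x ≠ 0 → y ≠ 0 → a • r = ψ₁ x → b • r = ψ₂ y → False := by
  classical
  let K := GaloisField p 4
  let U := GaloisField p 6
  let F := FiniteField.Extension K p 3
  have hF : Module.finrank (ZMod p) F = 12 := by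
    rw [FiniteField.finrank_zmod_extension, GaloisField.finrank p (by norm_num)]
  obtain ⟨j⟩ : Nonempty (U →ₐ[ZMod p] F) := FiniteField.nonempty_algHom_of_finrank_dvd (by
    rw [hF, GaloisField.finrank p (by norm_num)]; norm_num)
  let e : F ≃ₗ[K] (Fin 3 → K) := LinearEquiv.ofFinrankEq _ _ (by
    rw [FiniteField.finrank_extension]; simp)
  have hp : 2 ≤ p := (Fact.out : p.Prime).two_le
  obtain ⟨α, hα⟩ : ∃ α : F, ∀ (c : K) (u : U), algebraMap K F c * j u ≠ α := by
    by_contra hcon
    push Not at hcon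
    have hs : Function.Surjective (fun cu : K × U => algebraMap K F cu.1 * j cu.2) := by
      intro α
      obtain ⟨c, u, h⟩ := hcon α
      exact ⟨(c, u), h⟩
    have h1 := Nat.card_le_card_of_surjective _ hs
    rw [FiniteField.natCard_extension, Nat.card_prod, GaloisField.card p 4 (by norm_num),
      GaloisField.card p 6 (by norm_num), ← pow_mul, ← pow_add] at h1
    have := (Nat.pow_le_pow_iff_right (by omega : 1 < p)).1 h1
    omega
  have hα0 : α ≠ 0 := fun h => hα 0 0 (by simp [h])
  let ψ : F → (U →+ (Fin 3 → K)) := fun β =>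
    AddMonoidHom.mk' (fun x => e (β * j x)) (by simp [mul_add])
  have hψ : ∀ β x, ψ β x = e (β * j x) := fun _ _ => rfl
  have hinj : ∀ β : F, β ≠ 0 → Function.Injective (ψ β) := by
    intro β hβ x y h
    rw [hψ, hψ] at h
    exact j.injective (mul_left_cancel₀ hβ (e.injective h))
  refine ⟨ψ 1, ψ α, hinj 1 one_ne_zero, hinj α hα0, ?_⟩
  intro x y r a b hx hy h1 h2
  rw [hψ] at h1 h2
  have h1' : algebraMap K F a * e.symm r = j x := by
    rw [← Algebra.smul_def, ← map_smul, h1]; simp
  have h2' : algebraMap K F b * e.symm r = α * j y := by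
    rw [← Algebra.smul_def, ← map_smul, h2]; simp
  have hjx : j x ≠ 0 := by simpa using hx
  have hjy : j y ≠ 0 := by simpa using hy
  have ha : algebraMap K F a ≠ 0 := by
    intro h; rw [h, zero_mul] at h1'; exact hjx h1'.symm
  refine hα (b / a) (x / y) ?_
  rw [map_div₀, map_div₀, div_mul_div_comm, div_eq_iff (mul_ne_zero ha hjy)]
  linear_combination (algebraMap K F a) * h2' - (algebraMap K F b) * h1'

end PlaneAux

open scoped LinearAlgebra.Projectivization in
/-- TASK Plane: the projective plane over `K` with `|K| = q = p^4` and two disjoint sets meeting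
every line in `1 mod p` points.
`k = GaloisField p 2 ⊂ K = GaloisField p 4` (or any finite field `k` with `p^2` elements and a quadratic
extension `K`, basis `1, ω`).  Points and lines: `ℙ K (Fin 3 → K)` with incidence = orthogonality
(`Mathlib/Combinatorics/Configuration.lean`, `Mathlib/LinearAlgebra/Projectivization/*`).
For a `k`-subspace `U ⊆ K^3` of `k`-dimension `3` let `B U` be the set of points spanned by nonzero
vectors of `U`.  For a line (kernel of a `K`-linear form `φ`), `U ∩ ker φ` is a nonzero `k`-subspace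
(`φ : U → K`, dimensions `3 > 2`); it has `|k|^d - 1` nonzero vectors, each point of `B U` on the line
contains `|k|^w - 1` of them (`w ≥ 1`); dividing by `|k| - 1`, all terms are `1 mod p`, so the number
of points is `1 mod p`.  `Sa = B (k^3)`, `Sb = B {v + ω M v | v ∈ k^3}` with `M ∈ M_3(k)` without
eigenvector in `k^3` (companion matrix of an irreducible cubic, or multiplication by a generator of a
cubic extension of `k`); `λ u = v + ω M v`, `λ = a + b ω`, forces `v = a u`, `M v = b u`, so the sets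
are disjoint.  `|B U| ≤ |k|^2 + |k| + 1`; each set meets every line so it has at least two points. -/
theorem exists_plane (p : ℕ) [Fact p.Prime] :
    ∃ (T L : Type) (_ : Fintype T) (_ : DecidableEq T) (_ : Fintype L) (_ : DecidableEq L)
      (q : ℕ) (I : L → Finset T) (Sa Sb : Finset T),
      10 ≤ q ∧ p ∣ q ∧ Fintype.card T = q ^ 2 + q + 1 ∧ (∀ l, (I l).card = q + 1) ∧
      (∀ l l', l ≠ l' → (I l ∩ I l').card = 1) ∧
      (∀ t, (Finset.univ.filter (fun l => t ∈ I l)).card = q + 1) ∧
      (∀ s t, s ≠ t → (Finset.univ.filter (fun l => s ∈ I l ∧ t ∈ I l)).card ≤ 1) ∧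
      Disjoint Sa Sb ∧ (∀ l, (((Sa ∩ I l).card : ℕ) : ZMod p) = 1) ∧
      (∀ l, (((Sb ∩ I l).card : ℕ) : ZMod p) = 1) ∧
      2 ≤ Sa.card ∧ 2 ≤ Sb.card ∧ 2 ≤ (Finset.univ \ (Sa ∪ Sb)).card := by
  classical
  let K := GaloisField p 4
  let U := GaloisField p 6
  have hp : 2 ≤ p := (Fact.out : p.Prime).two_le
  let _ : Fintype K := Fintype.ofFinite K
  let _ : Fintype U := Fintype.ofFinite U
  let _ : Fintype (ℙ K (Fin 3 → K)) := Fintype.ofFinite _
  have hK : Fintype.card K = p ^ 4 := by
    rw [← Nat.card_eq_fintype_card, GaloisField.card p 4 (by norm_num)]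
  have hU : Fintype.card U = p ^ 6 := by
    rw [← Nat.card_eq_fintype_card, GaloisField.card p 6 (by norm_num)]
  have hT : Fintype.card (ℙ K (Fin 3 → K)) = (p ^ 4) ^ 2 + p ^ 4 + 1 := by
    rw [← Nat.card_eq_fintype_card, Projectivization.card_of_finrank K _ (n := 3) (by simp),
      Nat.card_eq_fintype_card, hK]
    simp [Finset.sum_range_succ]; ring
  have hord : Configuration.ProjectivePlane.order (ℙ K (Fin 3 → K)) (ℙ K (Fin 3 → K)) = p ^ 4 := by
    have h := Configuration.ProjectivePlane.card_points (ℙ K (Fin 3 → K)) (ℙ K (Fin 3 → K))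
    rw [hT] at h
    rcases lt_trichotomy
      (Configuration.ProjectivePlane.order (ℙ K (Fin 3 → K)) (ℙ K (Fin 3 → K))) (p ^ 4) with
      h1 | h1 | h1
    · nlinarith
    · exact h1
    · nlinarith
  obtain ⟨ψ₁, ψ₂, i1, i2, hdisj⟩ := PlaneAux.exists_maps p
  have hG : ∀ x : U, p • x = 0 := fun x => by simp
  have hlt : Fintype.card K < Fintype.card U := by
    rw [hK, hU]; exact Nat.pow_lt_pow_right (by omega) (by norm_num)
  have hline1 := PlaneAux.ptSet_line p hG ψ₁ i1 hlt
  have hline2 := PlaneAux.ptSet_line p hG ψ₂ i2 hlt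
  have htwo : ∀ S : Finset (ℙ K (Fin 3 → K)), (∀ l, (((S ∩ Finset.univ.filter
      (fun t => Projectivization.orthogonal t l)).card : ℕ) : ZMod p) = 1) → 2 ≤ S.card := by
    intro S hS
    by_contra hcon
    obtain ⟨P, hP⟩ := Finset.card_le_one_iff_subset_singleton.1 (show S.card ≤ 1 by omega)
    obtain ⟨l, hl⟩ := Projectivization.exists_not_self_orthogonal P
    have h := hS l
    have : S ∩ Finset.univ.filter (fun t => Projectivization.orthogonal t l) = ∅ := by
      refine Finset.eq_empty_of_forall_notMem fun t ht => ?_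
      rw [Finset.mem_inter, Finset.mem_filter] at ht
      have := Finset.mem_singleton.1 (hP ht.1)
      exact hl (this ▸ ht.2.2)
    rw [this] at h
    simp at h
  refine ⟨ℙ K (Fin 3 → K), ℙ K (Fin 3 → K), inferInstance, inferInstance, inferInstance,
    inferInstance, p ^ 4, fun l => Finset.univ.filter (fun t => Projectivization.orthogonal t l),
    PlaneAux.ptSet ψ₁, PlaneAux.ptSet ψ₂, ?_, dvd_pow_self p (by norm_num), hT, ?_, ?_, ?_, ?_, ?_,
    hline1, hline2, htwo _ hline1, htwo _ hline2, ?_⟩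
  · calc 10 ≤ 2 ^ 4 := by norm_num
      _ ≤ p ^ 4 := Nat.pow_le_pow_left hp 4
  · intro l
    have h := Configuration.ProjectivePlane.pointCount_eq (ℙ K (Fin 3 → K)) l
    rw [hord, Configuration.pointCount, Nat.card_eq_fintype_card, Fintype.card_subtype] at h
    exact h
  · intro l l' hl
    obtain ⟨t, ht, huniq⟩ :=
      Configuration.HasPoints.existsUnique_point (ℙ K (Fin 3 → K)) (ℙ K (Fin 3 → K)) l l' hl
    rw [Finset.card_eq_one]
    refine ⟨t, ?_⟩
    ext s
    simp only [Finset.mem_inter, Finset.mem_filter, Finset.mem_univ, true_and,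
      Finset.mem_singleton]
    exact ⟨fun h => huniq s h, fun h => h ▸ ht⟩
  · intro t
    have h := Configuration.ProjectivePlane.lineCount_eq (ℙ K (Fin 3 → K)) t
    rw [hord, Configuration.lineCount, Nat.card_eq_fintype_card, Fintype.card_subtype] at h
    rw [← h]
    congr 1
    ext l
    simp [Configuration.ofField.mem_iff]
  · intro s t hst
    rw [Finset.card_le_one]
    intro l hl l' hl'
    simp only [Finset.mem_filter, Finset.mem_univ, true_and] at hl hl'
    exact (Configuration.ofField.eq_or_eq_of_orthogonal hl.1 hl.2 hl'.1 hl'.2).resolve_left hst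
  · rw [Finset.disjoint_left]
    intro P h1 h2
    simp only [PlaneAux.ptSet, Finset.mem_filter, Finset.mem_univ, true_and] at h1 h2
    obtain ⟨x, hx0, hx⟩ := h1
    obtain ⟨y, hy0, hy⟩ := h2
    rw [Projectivization.submodule_eq, Submodule.mem_span_singleton] at hx hy
    obtain ⟨a, ha⟩ := hx
    obtain ⟨b, hb⟩ := hy
    exact hdisj x y _ a b hx0 hy0 ha hb
  · have h1 := PlaneAux.ptSet_card_le ψ₁ i1
    have h2 := PlaneAux.ptSet_card_le ψ₂ i2
    have h3 := Finset.card_union_le (PlaneAux.ptSet ψ₁) (PlaneAux.ptSet ψ₂)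
    rw [Finset.card_univ_sdiff, hT]
    rw [hU] at h1 h2
    have h4 : 2 * p ^ 6 ≤ (p ^ 4) ^ 2 := by
      have : (p ^ 4) ^ 2 = p ^ 2 * p ^ 6 := by ring
      rw [this]
      exact Nat.mul_le_mul_right _ (by nlinarith)
    have h5 : 1 ≤ p ^ 4 := Nat.one_le_pow _ _ (by omega)
    omega

end Crest.Agent.R177
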