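import Crest.Agent.R177.Defs
import Crest.Agent.R177.Plane
import Crest.Agent.R177.Design.Sys

set_option autoImplicit false

namespace Crest.Agent.R177

open Equiv

/-- the algebraic properties of the design -/
structure SlotSys.Alg {T C U W : Type} [DecidableEq T] [DecidableEq U] (Y : SlotSys T C U W)
    {p : ℕ} (wA wB wC : C → ZMod p) (a0 b0 z0 : U) : Prop where
  ab : ∀ x y, wA (Y.col x) * wB (Y.col y) * (1 - (((Y.S x ∩ Y.S y).card : ℕ) : ZMod p)) =
    if x = a0 ∧ y = b0 then 1 else 0
  ac : ∀ x y, wA (Y.col x) * wC (Y.col y) * (1 - (((Y.S x ∩ Y.S y).card : ℕ) : ZMod p)) = 0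
  z0 : wC (Y.col z0) ≠ 0
  connB : ∀ κ κ', ∑ ξ ∈ Y.slots κ, ∑ ξ' ∈ Y.slots κ',
    (if ξ.1 = ξ'.1 then wA ξ.2 * wB ξ'.2 else 0) = 0
  connC : ∀ κ κ', ∑ ξ ∈ Y.slots κ, ∑ ξ' ∈ Y.slots κ',
    (if ξ.1 = ξ'.1 then wA ξ.2 * wC ξ'.2 else 0) = 0

/-- TASK Design.  Take `exists_plane`.  Each of the three sets `Sa`, `Sb`, rest has at least two
elements, so it carries a fixed point free permutation whose cycles (blocks) have length `2`, except
at most one of length `3`; glue to `π : Perm T`.  Then `(blkPairs π).card ≤ |T| + 9 =: Q < (q+1)^2`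
(each `t` has the partners `π t`, `π⁻¹ t`, which differ for at most `9` letters).
Colours `C = Fin 3 × Bool` (graph `A = 0, B = 1, C = 2` and a sign); `wA (0,s) = ±1`, `0` on other
graphs, similarly `wB`, `wC` (sign `true ↦ 1`).  The blocks inside `Sb` are owned by `B` and `C`, all
other blocks by `A`.  `U = C × L × Fin N ⊕ Bool`; the two extra vertices are `a0` (colour `(0,true)`,
letters `Sa`) and `b0` (colour `(1,true)`, letters `Sb`); `z0` any vertex of colour `(2,true)`.
Connectors: for a colour `c = (X,s)` and a block `β` owned by `X`, `(q+1) N + [extra vertex of colour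
c contains β]` connectors with slots `{(t,c) | t ∈ β}`; for a graph `X` and a letter `t` whose block is
not owned by `X`, `(q+1) N` connectors with slots `{(t,(X,true)), (π t,(X,false))}`.
`τ t t' (X,s) = (X, s)` if `X` owns the block of `t`, else `(X, !s)`.  In `connB` exactly one of the
two connectors is a whole block with constant sign and the other a pair with opposite signs (or the
blocks differ, or a weight vanishes). -/
theorem exists_design (p : ℕ) [Fact p.Prime] :
    ∃ (T C : Type) (_ : Fintype T) (_ : DecidableEq T) (_ : Fintype C) (_ : DecidableEq C)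
      (π : Perm T) (τ : T → T → C → C) (q Q : ℕ) (wA wB wC : C → ZMod p),
      Fintype.card T ≤ Q ∧ (blkPairs π).card ≤ Q ∧ Q < (q + 1) ^ 2 ∧
      ∀ N : ℕ, 0 < N → ∃ (U W : Type) (_ : Fintype U) (_ : DecidableEq U) (_ : Fintype W)
        (_ : DecidableEq W) (Y : SlotSys T C U W) (a0 b0 z0 : U),
        Y.Bounds π τ q N ∧ Y.Alg wA wB wC a0 b0 z0 := by
  obtain ⟨T, L, _, _, _, _, q, I, Sa, Sb, hq, hpq, hT, hI1, hI2, hI3, hI4, hd, hSa, hSb, ha, hb,
    hc⟩ := exists_plane p
  obtain ⟨π, h0, h1, hπa, hπb, hblk⟩ := DesignAux.exists_perm Sa Sb hd ha hb hc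
  refine ⟨T, DesignAux.Col, inferInstance, inferInstance, inferInstance, inferInstance, π,
    DesignAux.tau Sb, q, Fintype.card T + 9, DesignAux.wt (ZMod p) 0, DesignAux.wt (ZMod p) 1,
    DesignAux.wt (ZMod p) 2, Nat.le_add_right _ _, hblk, by rw [hT]; nlinarith, fun N hN => ?_⟩
  have hL : Nonempty L := by
    have : Nonempty T := Fintype.card_pos_iff.1 (by omega)
    obtain ⟨t⟩ := this
    obtain ⟨l, -⟩ := Finset.card_pos.1 (show 0 < (Finset.univ.filter (fun l => t ∈ I l)).card by
      rw [hI3]; omega)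
    exact ⟨l⟩
  obtain ⟨l0⟩ := hL
  have hll : ∀ l l', (((I l ∩ I l').card : ℕ) : ZMod p) = 1 := by
    intro l l'
    by_cases h : l = l'
    · subst h
      rw [Finset.inter_self, hI1, Nat.cast_add, (ZMod.natCast_eq_zero_iff q p).2 hpq]
      simp
    · rw [hI2 l l' h]; simp
  refine ⟨_, _, inferInstance, inferInstance, inferInstance, inferInstance,
    DesignAux.sys π I Sa Sb N ((q + 1) * N), .inr false, .inr true,
    .inl ((2, true), l0, ⟨0, hN⟩), DesignAux.bounds h0 h1 hπb hd hI3 hI4, ?_, ?_, ?_,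
    DesignAux.conn h0 h1 hπa hπb 1 (by decide), DesignAux.conn h0 h1 hπa hπb 2 (by decide)⟩
  · rintro (x | x) (y | y)
    · simp [DesignAux.sys, hll]
    · cases y
      · simp [DesignAux.sys, DesignAux.wt]
      · simp [DesignAux.sys, Finset.inter_comm (I _) Sb, hSb]
    · cases x
      · simp [DesignAux.sys, hSa]
      · simp [DesignAux.sys, DesignAux.wt]
    · cases x <;> cases y <;>
        simp [DesignAux.sys, DesignAux.wt, Finset.disjoint_iff_inter_eq_empty.1 hd]
  · rintro (x | x) (y | y)
    · simp [DesignAux.sys, hll]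
    · cases y <;> simp [DesignAux.sys, DesignAux.wt]
    · cases x
      · simp [DesignAux.sys, hSa]
      · simp [DesignAux.sys, DesignAux.wt]
    · cases y <;> simp [DesignAux.sys, DesignAux.wt]
  · simp [DesignAux.sys, DesignAux.wt]

end Crest.Agent.R177
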