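import Crest.Agent.R177.RegRep
import Crest.Agent.R177.DetRed.Mod3

set_option autoImplicit false

namespace Crest.Agent.R177

open Equiv

open Crest.AlgebraR.GroupRingDet

set_option maxHeartbeats 2000000 in
/-- TASK DetRed: a failure of direct finiteness mod `3` gives a counterexample to the determinant
conjecture.  Lift `a, b` to `ℤ[G]`: `a b = 1 + 3 k`.  `Γ` = lamplighter group
`(G →₀ ZMod 2) ⋊ G` (`SemidirectProduct`, finitely generated), lamps `x h`.  For `s ≥ 1` (fixed below),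
`P = 3^s`, `b' = b ∑ i < s, (-3k)^i`, so `a b' ≡ 1 mod P`; `e = 1 - b' a`: `a e ≡ 0`, `e b' ≡ 0`,
`e e ≡ e`.  The reduction of `e` mod `3` is `1 - b a ≠ 0` (else `c = b a c = 0`), independent of `s`;
pick `g0` with coefficient `c0` of `e` prime to `3`.  CAUTION: the support of `e` depends on `s`, so use
`e0 = 1 - b a` reduced mod 3 only to choose `g0`, and get rid of the circularity as follows: let `F` be the
support of a lift `e1 ∈ ℤ[G]` of `1 - b a` and `F' = g0⁻¹ F \ {1}`,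
`eU = (1 - x 1)/2 ∏ g ∈ F', (1 + x g)/2 ∈ ℚ[Γ]`, an idempotent with `eU g eU = 0` for `g ∈ F'`,
trace `2^(-n)`, `n = |F'| + 1`; choose `s` with `2^n ∣ 3^s - 1`, `ê = -(P-1) eU ∈ ℤ[Γ]`, `ê ê ≡ ê`.
Then `ê g0⁻¹ e ê ≡ c0 ê + 3 ê y ê` for some `y ∈ ℤ[Γ]`, and `c0 + 3 ê y ê` is invertible mod `P` with an
inverse `v` commuting with `ê` mod `P` (geometric series).  Put `w = v ê g0⁻¹ e`, `z = e ê`:
`a b' ≡ 1, a z ≡ 0, w b' ≡ 0, w z ≡ ê`.  `X = (a; w)`, `Y = (b', z)`,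
`W = [[1,-X],[0,1]] [[1,0],[Y,1]]` (3×3), `D1 = diag (1, P + ê, P)`, `D2 = diag (1,1,P)`.  All entries
of `D1 W D2` are divisible by `P`; `A = P⁻¹ D1 W D2`.  Over `ℚ`: `P + ê = 1 + (P-1)(1 - eU)`, so `A` is a
product of factors of the two types of `exists_regRep`, and
`logDet = (-3 + (1 - 2^(-n)) + 1 + 1) log P < 0`. -/
theorem det_reduction {G : Type} [Group G] (hG : Group.FG G) {a b c : MonoidAlgebra (ZMod 3) G}
    (hab : a * b = 1) (hac : a * c = 0) (hc : c ≠ 0) :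
    ∃ (G : Type) (_ : Group G) (n : ℕ) (A : Matrix (Fin n) (Fin n) (MonoidAlgebra ℤ G))
      (H : Type) (_ : NormedAddCommGroup H) (_ : InnerProductSpace ℂ H) (_ : CompleteSpace H)
      (b : HilbertBasis (Fin n × G) ℂ H) (T : H →L[ℂ] H),
      Group.FG G ∧ 1 ≤ n ∧ IsUnit (A.map (MonoidAlgebra.mapRingHom G (Int.castRingHom ℚ))) ∧
      IsRegularRepOperator b A T ∧ logDet b T < 0 := by
  obtain ⟨Γ, _, s, e, a, b, w, z, k₁, k₂, k₃, k₄, hΓ, hs, hee, he1, h₁, h₂, h₃, h₄⟩ :=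
    DetRedAux.lifted hG hab hac hc
  obtain ⟨H, _, _, _, β, Λ, hΛ, hΛ1, hΛN, hΛe⟩ := exists_regRep Γ 3
  obtain ⟨X, Y, A, hXf, hfX, hfY, hYf, hA⟩ := DetRedAux.alg
    (T := Matrix (Fin 3) (Fin 3) (MonoidAlgebra ℤ Γ)) 3 s
    !![(1 - 3 ^ s : ℤ) • 1, 0, 0; 0, e, 0; 0, 0, 0] !![0, 0, 0; 0, 0, 0; 0, 0, 1]
    !![0, 0, a; 0, 0, w; 0, 0, 0] !![0, 0, 0; 0, 0, 0; b, z, 0] !![k₁, k₂, 0; k₃, k₄, 0; 0, 0, 0]
    (by
      generalize (1 - 3 ^ s : ℤ) = t at hee
      ext1 i j; fin_cases i <;> fin_cases j <;> simp [Matrix.mul_apply, Fin.sum_univ_three, hee])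
    (by ext1 i j; fin_cases i <;> fin_cases j <;> simp [Matrix.mul_apply, Fin.sum_univ_three])
    (by ext1 i j; fin_cases i <;> fin_cases j <;> simp [Matrix.mul_apply, Fin.sum_univ_three])
    (by ext1 i j; fin_cases i <;> fin_cases j <;> simp [Matrix.mul_apply, Fin.sum_univ_three])
    (by ext1 i j; fin_cases i <;> fin_cases j <;> simp [Matrix.mul_apply, Fin.sum_univ_three])
    (by
      generalize (1 - 3 ^ s : ℤ) = t at h₁
      ext1 i j; fin_cases i <;> fin_cases j <;>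
        simp [Matrix.mul_apply, Fin.sum_univ_three, h₁, h₂, h₃, h₄])
  have hP : (1 : ℤ) < 3 ^ s := one_lt_pow₀ (by norm_num) (by omega)
  generalize (3 : ℤ) ^ s = P at *
  have hP' : (1 : ℚ) < P := by exact_mod_cast hP
  have hP1 : (1 - P : ℚ) ≠ 0 := by linarith
  have hP0 : (P : ℚ) ≠ 0 := by linarith
  obtain ⟨f, hf⟩ : ∃ f : Matrix (Fin 3) (Fin 3) (MonoidAlgebra ℤ Γ),
    f = !![0, 0, 0; 0, 0, 0; 0, 0, 1] := ⟨_, rfl⟩
  obtain ⟨E, hE⟩ : ∃ E : Matrix (Fin 3) (Fin 3) (MonoidAlgebra ℤ Γ),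
    E = !![(1 - P : ℤ) • 1, 0, 0; 0, e, 0; 0, 0, 0] := ⟨_, rfl⟩
  rw [← hf] at hXf hfX hfY hYf hA
  rw [← hE] at hA
  have hff : f * f = f := by
    rw [hf]; ext1 i j; fin_cases i <;> fin_cases j <;> simp [Matrix.mul_apply, Fin.sum_univ_three]
  have hEE : E * E = (1 - P) • E := by
    rw [hE]
    generalize (1 - P : ℤ) = t at hee
    ext1 i j; fin_cases i <;> fin_cases j <;> simp [Matrix.mul_apply, Fin.sum_univ_three, hee]
  have hXd : ∀ i, X i i = 0 := fun i => by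
    have e1 := congrFun (congrFun hXf i) i
    have e2 := congrFun (congrFun hfX i) i
    rw [hf] at e1 e2
    fin_cases i <;> simp_all [Matrix.mul_apply, Fin.sum_univ_three]
  have hYd : ∀ i, Y i i = 0 := fun i => by
    have e1 := congrFun (congrFun hfY i) i
    have e2 := congrFun (congrFun hYf i) i
    rw [hf] at e1 e2
    fin_cases i <;> simp_all [Matrix.mul_apply, Fin.sum_univ_three]
  have hXX : X * X = 0 := by
    nth_rewrite 1 [← hXf]; rw [mul_assoc, hfX, mul_zero]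
  have hYY : Y * Y = 0 := by
    nth_rewrite 2 [← hfY]; rw [← mul_assoc, hYf, zero_mul]
  let ψ := (MonoidAlgebra.mapRingHom Γ (Int.castRingHom ℚ)).mapMatrix (m := Fin 3)
  obtain ⟨E', hE'⟩ : ∃ E', E' = 1 - (1 - P : ℚ)⁻¹ • ψ E := ⟨_, rfl⟩
  have hEE' : E' * E' = E' := by
    have : ψ E * ψ E = (1 - P : ℚ) • ψ E := by
      rw [← map_mul, hEE, map_zsmul, ← Int.cast_smul_eq_zsmul ℚ]; push_cast; rfl
    rw [hE', sub_mul, mul_sub, mul_sub, smul_mul_smul_comm, this, smul_smul,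
      inv_mul_cancel_right₀ hP1]
    simp
  have hA' : ψ A = (1 + ((P : ℚ)⁻¹ - 1) • 1) * ((1 + ((P : ℚ) - 1) • E') * ((1 + ψ (-X)) *
      ((1 + ψ Y) * ((1 + ((P : ℚ) - 1) • ψ f) * 1)))) := by
    have e1 := congrArg ψ hA
    simp only [map_zsmul, map_mul, map_add, map_sub, map_one, ← Int.cast_smul_eq_zsmul ℚ] at e1
    have e2 : (1 : Matrix (Fin 3) (Fin 3) (MonoidAlgebra ℚ Γ)) + ((P : ℚ) - 1) • E' =
        (P : ℚ) • 1 + ψ E := by
      rw [hE', smul_sub, smul_smul, ← neg_sub 1 (P : ℚ), neg_mul, mul_inv_cancel₀ hP1]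
      module
    have e3 : (1 : Matrix (Fin 3) (Fin 3) (MonoidAlgebra ℚ Γ)) + ((P : ℚ)⁻¹ - 1) • 1 =
        (P : ℚ)⁻¹ • 1 := by module
    push_cast at e1
    rw [e2, e3, map_neg, ← sub_eq_add_neg, mul_one, ← e1, smul_mul_smul_comm,
      inv_mul_cancel₀ hP0, one_mul, one_smul]
  have uN : ∀ N : Matrix (Fin 3) (Fin 3) (MonoidAlgebra ℚ Γ), N * N = 0 → IsUnit (1 + N) :=
    fun N h => IsNilpotent.isUnit_one_add ⟨2, by rw [sq, h]⟩
  have ue : ∀ (N : Matrix (Fin 3) (Fin 3) (MonoidAlgebra ℚ Γ)) (r : ℚ), N * N = N → r ≠ 0 →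
      IsUnit (1 + (r - 1) • N) := fun N r h hr => by
    have : ∀ r t : ℚ, r * t = 1 → (1 + (r - 1) • N) * (1 + (t - 1) • N) = 1 := fun r t hrt => by
      rw [add_mul, mul_add, mul_add, smul_mul_smul_comm, h, one_mul, one_mul, mul_one,
        add_assoc, ← add_smul, ← add_smul, show t - 1 + (r - 1 + (r - 1) * (t - 1)) = 0 by
          linear_combination hrt, zero_smul, add_zero]
    exact ⟨⟨_, _, this r r⁻¹ (mul_inv_cancel₀ hr), this r⁻¹ r (inv_mul_cancel₀ hr)⟩, rfl⟩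
  have nX : ψ (-X) * ψ (-X) = 0 := by rw [← map_mul, neg_mul_neg, hXX, map_zero]
  have nY : ψ Y * ψ Y = 0 := by rw [← map_mul, hYY, map_zero]
  have nf : ψ f * ψ f = ψ f := by rw [← map_mul, hff]
  have u1 := (ue _ _ nf hP0).mul isUnit_one
  have u2 := (uN _ nY).mul u1
  have u3 := (uN _ nX).mul u2
  have u4 := (ue _ _ hEE' hP0).mul u3
  have u5 := (ue _ _ (mul_one 1) (inv_ne_zero hP0)).mul u4
  refine ⟨Γ, inferInstance, 3, A, H, inferInstance, inferInstance, inferInstance, β, Λ (ψ A), hΓ,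
    by norm_num, show IsUnit (ψ A) from hA' ▸ u5, fun i j g h => ?_, ?_⟩
  · rw [hΛ]; simp [ψ]
  · rw [hA', hΛe _ _ _ (mul_one 1) (by positivity) u4, hΛe _ _ _ hEE' (by positivity) u3,
      hΛN _ _ nX (fun i => by simp [ψ, hXd]) u2, hΛN _ _ nY (fun i => by simp [ψ, hYd]) u1,
      hΛe _ _ _ nf (by positivity) isUnit_one, hΛ1]
    have t1 : ∑ i, ((1 : Matrix (Fin 3) (Fin 3) (MonoidAlgebra ℚ Γ)) i i).coeff 1 = 3 := by
      simp [MonoidAlgebra.one_def]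
    have t2 : ∑ i, (ψ f i i).coeff 1 = 1 := by
      simp [hf, ψ, Fin.sum_univ_three, MonoidAlgebra.one_def]
    have t3 : ∑ i, (E' i i).coeff 1 = 2 - (1 - P : ℚ)⁻¹ * e.coeff 1 := by
      simp only [hE', hE, ψ, Fin.sum_univ_three, Matrix.sub_apply, Matrix.smul_apply,
        Matrix.one_apply_eq, RingHom.mapMatrix_apply, Matrix.map_apply, MonoidAlgebra.coeff_sub,
        Finsupp.sub_apply, MonoidAlgebra.coeff_smul_apply, MonoidAlgebra.coeff_mapRingHom]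
      simp [MonoidAlgebra.one_def]
      field_simp
      ring
    have t4 : (0 : ℚ) < (1 - P : ℚ)⁻¹ * e.coeff 1 :=
      mul_pos_of_neg_of_neg (inv_lt_zero.2 (by linarith)) (by exact_mod_cast he1)
    rw [t1, t2, t3]
    generalize (1 - P : ℚ)⁻¹ * e.coeff 1 = δ at t4
    have t5 : (0 : ℝ) < δ := by exact_mod_cast t4
    have t6 : 0 < Real.log P := Real.log_pos (by exact_mod_cast hP)
    push_cast
    rw [Real.log_inv]
    nlinarith

end Crest.Agent.R177
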