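import Crest.Agent.R177.Euler.Dim

set_option autoImplicit false

namespace Crest.Agent.R177

open Equiv

/-- TASK Euler: Euler's inequality.  Vertices are the orbits of `ρ = φ ∘ α`.
Proof: linear algebra over `ZMod 2`.  Let `E = |D|/2`.  The space `A` of `α`-invariant
`z : D → ZMod 2` has dimension `E`; the map `A → (P → ZMod 2)` of sums over pieces lands in the
hyperplane of total sum `0` (`∑ d, z d = 0` since `α` is a free involution), so its kernel `Z` has
dimension `≥ E - |P| + 1`.  For `z ∈ Z` put `ψ (dt p i) = ∑ k < i, z (dt p k)`; then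
`ψ (φ d) + ψ d = z d` for all `d` (at the last dart of a piece the next dart has `idx = 0`: if
`φ (dt p (len p - 1)) = dt p' i` with `0 < i < len p'` then injectivity of `φ` gives `p = p'`,
`i = len p`).  Planarity gives `χ` with `χ ∘ α = χ ∘ φ`, i.e. `χ` is `ρ`-invariant, and
`z = δχ`, `δχ d = χ (φ d) + χ d`.  The `ρ`-invariant functions have dimension `V` = number of orbits,
`δ` kills constants, so `E - |P| + 1 ≤ V - 1`.  Finally `2E = V1 + 2 V2 + B`, `V ≤ V1 + V2 + B/3`
where `V1 = #{ρ x = x}`, `2 V2 = #{ρ x ≠ x, ρ ρ x = x}`, `B = #{ρ ρ x ≠ x}`. -/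
theorem euler {D P : Type} [Fintype D] [DecidableEq D] [Fintype P] [Nonempty D] (φ α : Perm D)
    (hα : ∀ d, α (α d) = d) (hα' : ∀ d, α d ≠ d) (hpl : Planar φ α) (Pi : Pieces φ P) :
    (Finset.univ.filter (fun x => φ (α (φ (α x))) ≠ x)).card + 12 ≤
      6 * Fintype.card P + 3 * (Finset.univ.filter (fun x => φ (α x) = x)).card := by
  classical
  have h1 := EulerAux.card_le_two_mul_finrank α hα
  have h2 := EulerAux.euler_dim φ α hα hα' hpl Pi
  have h3 := EulerAux.finrank_inv_le (φ * α : Perm D)
  have h4 := EulerAux.orbits_le (φ * α : Perm D)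
  have h5 := EulerAux.sum_wt (φ * α : Perm D)
  simp only [Perm.mul_apply] at h5
  omega

end Crest.Agent.R177
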