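import Mathlib

set_option autoImplicit false

namespace Crest.Agent.R177

open Equiv

namespace FKPathAux

open Finset

variable {A : Type} [CStarAlgebra A]

lemma spec_bounds [Nontrivial A] {x xi : A} (h : x * xi = 1 ∧ xi * x = 1) {L m : ℝ} (hL : 0 < L)
    (h1 : ‖xi * star xi‖ ≤ L) (h2 : ‖star x * x‖ ≤ m) :
    ∀ s ∈ spectrum ℝ (star x * x), 1 / L ≤ s ∧ s ≤ m := by
  intro s hs
  have h0 : 0 ≤ s := spectrum_star_mul_self_nonneg s hs
  have e1 : star x * x * (xi * star xi) = 1 := by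
    rw [mul_assoc, ← mul_assoc x, h.1, one_mul, ← star_mul, h.2, star_one]
  have e2 : xi * star xi * (star x * x) = 1 := by
    rw [mul_assoc, ← mul_assoc (star xi), ← star_mul, h.1, star_one, one_mul, h.2]
  let u : Aˣ := ⟨star x * x, xi * star xi, e1, e2⟩
  have hs0 : s ≠ 0 := by
    rintro rfl
    exact (spectrum.zero_notMem ℝ u.isUnit) hs
  have hs' : ((Units.mk0 s hs0 : ℝˣ) : ℝ) ∈ spectrum ℝ (u : A) := hs
  rw [spectrum.inv_mem_iff] at hs'
  have h3 := spectrum.norm_le_norm_of_mem hs'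
  have h4 := spectrum.norm_le_norm_of_mem hs
  have hspos : 0 < s := lt_of_le_of_ne h0 (Ne.symm hs0)
  refine ⟨?_, (Real.le_norm_self s).trans (h4.trans h2)⟩
  have h5 : s⁻¹ ≤ L := by
    have : ‖(s⁻¹ : ℝ)‖ ≤ ‖xi * star xi‖ := by simpa [u] using h3
    exact (Real.le_norm_self _).trans (this.trans h1)
  rw [one_div]
  exact inv_le_of_inv_le₀ hspos h5

lemma one_sub_eq_cfc {y : A} (hy : IsSelfAdjoint y) (m : ℝ) :
    1 - m⁻¹ • y = cfc (fun s : ℝ => 1 - m⁻¹ * s) y := by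
  rw [cfc_sub _ _ y, cfc_const_one ℝ y, cfc_const_mul_id _ y]

lemma norm_z_le {y : A} (hy : IsSelfAdjoint y) {δ m : ℝ} (hδ : 0 < δ) (hδm : δ ≤ m)
    (hs : ∀ s ∈ spectrum ℝ y, δ ≤ s ∧ s ≤ m) : ‖1 - m⁻¹ • y‖ ≤ 1 - δ / m := by
  have hm : 0 < m := lt_of_lt_of_le hδ hδm
  rw [one_sub_eq_cfc hy]
  apply norm_cfc_le
  · rw [sub_nonneg, div_le_one hm]; exact hδm
  · intro s h
    obtain ⟨h1, h2⟩ := hs s h
    have h3 : m⁻¹ * s ≤ 1 := by rw [inv_mul_le_iff₀ hm]; simpa using h2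
    have h4 : δ / m ≤ m⁻¹ * s := by rw [inv_mul_eq_div]; gcongr
    rw [Real.norm_eq_abs, abs_of_nonneg (by linarith)]
    linarith

lemma log_approx {y : A} (hy : IsSelfAdjoint y) {δ m : ℝ} (hδ : 0 < δ) (hδm : δ ≤ m)
    (hs : ∀ s ∈ spectrum ℝ y, δ ≤ s ∧ s ≤ m) (n : ℕ) :
    ‖cfc Real.log y - ((Real.log m) • (1 : A)
        - ∑ i ∈ range n, ((i : ℝ) + 1)⁻¹ • (1 - m⁻¹ • y) ^ (i + 1))‖
      ≤ (1 - δ / m) ^ n * (m / δ) := by
  have hm : 0 < m := lt_of_lt_of_le hδ hδm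
  have hq : 0 ≤ 1 - δ / m := by rw [sub_nonneg, div_le_one hm]; exact hδm
  have hlog : ContinuousOn Real.log (spectrum ℝ y) :=
    Real.continuousOn_log.mono fun s h => by
      have := (hs s h).1
      simp only [Set.mem_compl_iff, Set.mem_singleton_iff]
      linarith
  have e1 : ∑ i ∈ range n, ((i : ℝ) + 1)⁻¹ • (1 - m⁻¹ • y) ^ (i + 1)
      = cfc (∑ i ∈ range n, fun s : ℝ => ((i : ℝ) + 1)⁻¹ * (1 - m⁻¹ * s) ^ (i + 1)) y := by
    rw [cfc_sum _ y (range n) (fun i _ => by fun_prop)]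
    refine sum_congr rfl fun i _ => ?_
    rw [cfc_const_mul _ _ y, cfc_pow _ _ y, one_sub_eq_cfc hy]
  have e2 : (Real.log m) • (1 : A) = cfc (fun _ : ℝ => Real.log m) y := by
    rw [cfc_const _ y, Algebra.algebraMap_eq_smul_one]
  have hc : Continuous
      (∑ i ∈ range n, fun s : ℝ => ((i : ℝ) + 1)⁻¹ * (1 - m⁻¹ * s) ^ (i + 1)) := by
    have : (∑ i ∈ range n, fun s : ℝ => ((i : ℝ) + 1)⁻¹ * (1 - m⁻¹ * s) ^ (i + 1))
        = fun s => ∑ i ∈ range n, ((i : ℝ) + 1)⁻¹ * (1 - m⁻¹ * s) ^ (i + 1) := by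
      funext s; simp [Finset.sum_apply]
    rw [this]; fun_prop
  rw [e1, e2, ← cfc_sub _ _ y (by fun_prop) hc.continuousOn,
    ← cfc_sub _ _ y hlog (by fun_prop)]
  apply norm_cfc_le (by positivity)
  intro s h
  obtain ⟨h1, h2⟩ := hs s h
  have hs0 : 0 < s := lt_of_lt_of_le hδ h1
  have h3 : m⁻¹ * s ≤ 1 := by rw [inv_mul_le_iff₀ hm]; simpa using h2
  have h4 : δ / m ≤ m⁻¹ * s := by rw [inv_mul_eq_div]; gcongr
  have h5 : 0 < δ / m := by positivity
  have habs : |1 - m⁻¹ * s| = 1 - m⁻¹ * s := abs_of_nonneg (by linarith)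
  have h6 := Real.abs_log_sub_add_sum_range_le (x := 1 - m⁻¹ * s) (by rw [habs]; linarith) n
  rw [habs, sub_sub_cancel, Real.log_mul (by positivity) hs0.ne', Real.log_inv] at h6
  rw [Real.norm_eq_abs, Finset.sum_apply]
  have e3 : Real.log s - (Real.log m
      - ∑ i ∈ range n, ((i : ℝ) + 1)⁻¹ * (1 - m⁻¹ * s) ^ (i + 1))
      = ∑ i ∈ range n, (1 - m⁻¹ * s) ^ (i + 1) / ((i : ℝ) + 1)
        + (-Real.log m + Real.log s) := by
    have : ∑ i ∈ range n, ((i : ℝ) + 1)⁻¹ * (1 - m⁻¹ * s) ^ (i + 1)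
        = ∑ i ∈ range n, (1 - m⁻¹ * s) ^ (i + 1) / ((i : ℝ) + 1) :=
      sum_congr rfl fun i _ => by rw [div_eq_inv_mul]
    rw [this]; ring
  rw [e3]
  refine h6.trans ?_
  have h7 : (1 - m⁻¹ * s) ^ (n + 1) ≤ (1 - δ / m) ^ n := by
    calc (1 - m⁻¹ * s) ^ (n + 1) ≤ (1 - δ / m) ^ (n + 1) :=
          pow_le_pow_left₀ (by linarith) (by linarith) _
      _ ≤ (1 - δ / m) ^ n := pow_le_pow_of_le_one hq (by linarith) (Nat.le_succ n)
  calc (1 - m⁻¹ * s) ^ (n + 1) / (m⁻¹ * s) ≤ (1 - δ / m) ^ n / (δ / m) := by gcongr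
    _ = (1 - δ / m) ^ n * (m / δ) := by field_simp

lemma trace_pow_deriv (M : StarSubalgebra ℂ A) (τ : A →L[ℂ] ℂ)
    (hτ : ∀ x ∈ M, ∀ y ∈ M, τ (x * y) = τ (y * x)) {z : ℝ → A} {z' : A} {t : ℝ}
    (hz : HasDerivAt z z' t) (hzM : z t ∈ M) (hz'M : z' ∈ M) (i : ℕ) :
    HasDerivAt (fun s => (τ (((i : ℝ) + 1)⁻¹ • z s ^ (i + 1))).re) (τ (z t ^ i * z')).re t := by
  have h1 := (hz.fun_pow' (i + 1)).const_smul ((i : ℝ) + 1)⁻¹
  let T : A →L[ℝ] ℝ := Complex.reCLM.comp (τ.restrictScalars ℝ)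
  have h2 := T.hasFDerivAt.comp_hasDerivAt t h1
  have e : T (((i : ℝ) + 1)⁻¹ •
      ∑ j ∈ range (i + 1), z t ^ ((i + 1).pred - j) * z' * z t ^ j) = (τ (z t ^ i * z')).re := by
    rw [map_smul, map_sum]
    have h3 : ∀ j ∈ range (i + 1), T (z t ^ ((i + 1).pred - j) * z' * z t ^ j)
        = (τ (z t ^ i * z')).re := by
      intro j hj
      have hj' : j ≤ i := Nat.lt_succ_iff.1 (mem_range.1 hj)
      change (τ (z t ^ ((i + 1).pred - j) * z' * z t ^ j)).re = _
      rw [hτ _ (mul_mem (pow_mem hzM _) hz'M) _ (pow_mem hzM _), ← mul_assoc, ← pow_add]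
      congr 4
      simp only [Nat.pred_succ]
      omega
    rw [sum_congr rfl h3, sum_const, card_range, nsmul_eq_mul, smul_eq_mul]
    push_cast
    field_simp
  rw [e] at h2
  exact h2

end FKPathAux

open FKPathAux Finset in
/-- TASK FKPath: derivative of the Fuglede-Kadison determinant along a path.
Let `y t = star (x t) * x t`, positive and invertible, `y' = star x' * x + star x * x'`.  On `[0,1]` the
spectra lie in `[δ, m]`; `log y = log m - ∑ k ≥ 1, (1 - y/m)^k / k` (norm convergent; `cfc` of a uniform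
limit of polynomials), `d/dt τ ((1 - y/m)^k) = -k τ ((1 - y/m)^(k-1) y') / m` by traciality on `M`, and
the sum of the derivatives is `τ (y⁻¹ y')`, whose real part is `2 κ`
(`τ (xi (star xi) (star x') x) = τ (star (xi x'))` by traciality).  Any other route is fine. -/
theorem fk_path {A : Type} [CStarAlgebra A] (M : StarSubalgebra ℂ A)
    (hM : IsClosed (M : Set A)) (τ : A →L[ℂ] ℂ) (hτ : ∀ x ∈ M, ∀ y ∈ M, τ (x * y) = τ (y * x))
    (hτs : ∀ x, τ (star x) = (starRingEnd ℂ) (τ x)) (x x' xi : ℝ → A)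
    (hx : ∀ t, HasDerivAt x (x' t) t) (hx' : Continuous x') (hxM : ∀ t, x t ∈ M)
    (hx'M : ∀ t, x' t ∈ M) (hxiM : ∀ t, xi t ∈ M) (hxi : ∀ t, x t * xi t = 1 ∧ xi t * x t = 1)
    (κ : ℝ) (hκ : ∀ t, (τ (xi t * x' t)).re = κ) :
    (τ (cfc Real.log (star (x 1) * x 1))).re =
      (τ (cfc Real.log (star (x 0) * x 0))).re + 2 * κ := by
  rcases subsingleton_or_nontrivial A with hA | hA
  · have h0 := hκ 0
    rw [Subsingleton.elim (xi 0 * x' 0) 0, map_zero] at h0
    rw [Subsingleton.elim (cfc Real.log (star (x 1) * x 1)) (cfc Real.log (star (x 0) * x 0)),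
      ← h0]
    simp
  have hxc : Continuous x := continuous_iff_continuousAt.2 fun t => (hx t).continuousAt
  have hxic : Continuous xi := by
    have e : xi = fun t => Ring.inverse (x t) := by
      funext t
      exact (Ring.inverse_unit ⟨x t, xi t, (hxi t).1, (hxi t).2⟩).symm
    rw [e]
    refine continuous_iff_continuousAt.2 fun t => ?_
    exact ContinuousAt.comp (g := Ring.inverse) (f := x)
      (NormedRing.inverse_continuousAt ⟨x t, xi t, (hxi t).1, (hxi t).2⟩) hxc.continuousAt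
  set y : ℝ → A := fun t => star (x t) * x t with hy
  set y' : ℝ → A := fun t => star (x' t) * x t + star (x t) * x' t with hy'
  set yi : ℝ → A := fun t => xi t * star (xi t) with hyi
  have hyd : ∀ t, HasDerivAt y (y' t) t := fun t => (hx t).star.mul (hx t)
  obtain ⟨m₀, hm₀⟩ := (isCompact_Icc (a := (0 : ℝ)) (b := 1)).exists_bound_of_continuousOn
    (f := y) (by fun_prop)
  obtain ⟨B₀, hB₀⟩ := (isCompact_Icc (a := (0 : ℝ)) (b := 1)).exists_bound_of_continuousOn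
    (f := y') (by fun_prop)
  obtain ⟨L₀, hL₀⟩ := (isCompact_Icc (a := (0 : ℝ)) (b := 1)).exists_bound_of_continuousOn
    (f := yi) (by fun_prop)
  set L : ℝ := max L₀ 1 with hL
  have hLpos : 0 < L := lt_max_of_lt_right one_pos
  set δ : ℝ := 1 / L with hδ
  have hδpos : 0 < δ := by positivity
  set m : ℝ := max m₀ δ with hm
  have hδm : δ ≤ m := le_max_right _ _
  have hmpos : 0 < m := lt_of_lt_of_le hδpos hδm
  have hB0 : 0 ≤ B₀ := (norm_nonneg _).trans (hB₀ 0 (by simp))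
  have hspec : ∀ t ∈ Set.Icc (0 : ℝ) 1, ∀ s ∈ spectrum ℝ (y t), δ ≤ s ∧ s ≤ m := fun t ht =>
    spec_bounds (hxi t) hLpos ((hL₀ t ht).trans (le_max_left _ _))
      ((hm₀ t ht).trans (le_max_left _ _))
  have hsa : ∀ t, IsSelfAdjoint (y t) := fun t => IsSelfAdjoint.star_mul_self _
  have hyM : ∀ t, y t ∈ M := fun t => mul_mem (star_mem (hxM t)) (hxM t)
  have hy'M : ∀ t, y' t ∈ M := fun t =>
    add_mem (mul_mem (star_mem (hx'M t)) (hxM t)) (mul_mem (star_mem (hxM t)) (hx'M t))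
  have hyiy : ∀ t, yi t * y t = 1 := fun t => by
    simp only [hyi, hy]
    rw [mul_assoc, ← mul_assoc (star (xi t)), ← star_mul, (hxi t).1, star_one, one_mul,
      (hxi t).2]
  have h2κ : ∀ t, (τ (yi t * y' t)).re = 2 * κ := fun t => by
    have e1 : yi t * y' t = xi t * (star (x' t * xi t) * x t) + xi t * x' t := by
      simp only [hyi, hy']
      rw [mul_add, mul_assoc (xi t) (star (xi t)) (star (x t) * x' t),
        ← mul_assoc (star (xi t)) (star (x t)), ← star_mul, (hxi t).1, star_one, one_mul,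
        star_mul]
      simp only [mul_assoc]
    rw [e1, map_add, Complex.add_re, hκ t,
      hτ _ (hxiM t) _ (mul_mem (star_mem (mul_mem (hx'M t) (hxiM t))) (hxM t)), mul_assoc,
      (hxi t).1, mul_one, hτs, Complex.conj_re, hτ _ (hx'M t) _ (hxiM t), hκ t]
    ring
  set z : ℝ → A := fun t => 1 - m⁻¹ • y t with hz
  have hzd : ∀ t, HasDerivAt z (-(m⁻¹ • y' t)) t := fun t =>
    ((hyd t).const_smul m⁻¹).const_sub 1
  have hsm : ∀ (r : ℝ) (a : A), a ∈ M → r • a ∈ M := fun r a ha => by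
    rw [← Complex.coe_smul]; exact SMulMemClass.smul_mem _ ha
  have hzM : ∀ t, z t ∈ M := fun t => sub_mem (one_mem _) (hsm _ _ (hyM t))
  set q : ℝ := 1 - δ / m with hq
  have hq0 : 0 ≤ q := by rw [hq, sub_nonneg, div_le_one hmpos]; exact hδm
  have hq1 : q < 1 := by have : 0 < δ / m := by positivity
                         linarith
  have key : ∀ n : ℕ, |(τ (cfc Real.log (y 1))).re - (τ (cfc Real.log (y 0))).re - 2 * κ|
      ≤ q ^ n * (‖τ‖ * (2 * (m / δ) + L * B₀)) := by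
    intro n
    let φ : ℝ → ℝ := fun t =>
      -∑ i ∈ range n, (τ (((i : ℝ) + 1)⁻¹ • z t ^ (i + 1))).re - 2 * κ * t
    have hφ : ∀ t, HasDerivAt φ (-(τ (yi t * z t ^ n * y' t)).re) t := by
      intro t
      have h1 := HasDerivAt.fun_sum (u := range n) fun i _ =>
        trace_pow_deriv M τ hτ (hzd t) (hzM t) (neg_mem (hsm _ _ (hy'M t))) i
      have h2 := h1.neg.sub ((hasDerivAt_id t).const_mul (2 * κ))
      have e1 : yi t * (1 - z t ^ n) = m⁻¹ • ∑ i ∈ range n, z t ^ i := by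
        rw [← mul_neg_geom_sum, ← mul_assoc]
        simp only [hz, sub_sub_cancel, mul_smul_comm, hyiy, smul_mul_assoc, one_mul]
      have e2 : -∑ i ∈ range n, (τ (z t ^ i * -(m⁻¹ • y' t))).re - 2 * κ * 1
          = -(τ (yi t * z t ^ n * y' t)).re := by
        have e3 : ∑ i ∈ range n, (τ (z t ^ i * -(m⁻¹ • y' t))).re
            = -(τ (yi t * (1 - z t ^ n) * y' t)).re := by
          rw [← Complex.re_sum, ← map_sum, ← sum_mul, e1, ← Complex.neg_re, ← map_neg]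
          congr 2
          rw [mul_neg, mul_smul_comm, smul_mul_assoc]
        rw [e3, mul_sub, sub_mul, mul_one, map_sub, Complex.sub_re, h2κ]
        ring
      rw [e2] at h2
      exact h2
    have hzn : ∀ t ∈ Set.Icc (0 : ℝ) 1, ‖z t‖ ≤ q := fun t ht =>
      norm_z_le (hsa t) hδpos hδm (hspec t ht)
    have hbound : ∀ t ∈ Set.Ico (0 : ℝ) 1,
        ‖-(τ (yi t * z t ^ n * y' t)).re‖ ≤ ‖τ‖ * (L * q ^ n * B₀) := by
      intro t ht
      have ht' : t ∈ Set.Icc (0 : ℝ) 1 := Set.Ico_subset_Icc_self ht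
      rw [norm_neg, Real.norm_eq_abs]
      refine (Complex.abs_re_le_norm _).trans ((τ.le_opNorm _).trans ?_)
      gcongr
      refine (norm_mul_le _ _).trans ?_
      have h1 : ‖yi t * z t ^ n‖ ≤ L * q ^ n := by
        refine (norm_mul_le _ _).trans ?_
        have h2 : ‖z t ^ n‖ ≤ q ^ n :=
          (norm_pow_le _ _).trans (pow_le_pow_left₀ (norm_nonneg _) (hzn t ht') n)
        have h3 : ‖yi t‖ ≤ L := (hL₀ t ht').trans (le_max_left _ _)
        gcongr
      have h4 := hB₀ t ht'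
      gcongr
    have hmvt := norm_image_sub_le_of_norm_deriv_le_segment_01'
      (f := φ) (fun t _ => (hφ t).hasDerivWithinAt) hbound
    have happ : ∀ t ∈ Set.Icc (0 : ℝ) 1,
        |(τ (cfc Real.log (y t))).re - ((τ (Real.log m • (1 : A))).re + φ t + 2 * κ * t)|
          ≤ ‖τ‖ * (q ^ n * (m / δ)) := by
      intro t ht
      have h1 := log_approx (hsa t) hδpos hδm (hspec t ht) n
      have e : (τ (cfc Real.log (y t))).re - ((τ (Real.log m • (1 : A))).re + φ t + 2 * κ * t)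
          = (τ (cfc Real.log (y t) - ((Real.log m) • (1 : A)
            - ∑ i ∈ range n, ((i : ℝ) + 1)⁻¹ • (1 - m⁻¹ • y t) ^ (i + 1)))).re := by
        rw [map_sub, map_sub, map_sum, Complex.sub_re, Complex.sub_re, Complex.re_sum]
        simp only [φ, hz]
        ring
      rw [e]
      refine (Complex.abs_re_le_norm _).trans ((τ.le_opNorm _).trans ?_)
      gcongr
    have h0 := abs_le.1 (happ 0 (by simp))
    have h1 := abs_le.1 (happ 1 (by simp))
    rw [Real.norm_eq_abs] at hmvt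
    have h2 := abs_le.1 hmvt
    rw [abs_le]
    constructor <;> nlinarith [h0.1, h0.2, h1.1, h1.2, h2.1, h2.2]
  have hlim : Filter.Tendsto (fun n : ℕ => q ^ n * (‖τ‖ * (2 * (m / δ) + L * B₀))) Filter.atTop
      (nhds 0) := by
    simpa using (tendsto_pow_atTop_nhds_zero_of_lt_one hq0 hq1).mul_const
      (‖τ‖ * (2 * (m / δ) + L * B₀))
  have hle := ge_of_tendsto' hlim key
  have := abs_nonpos_iff.1 hle
  linarith

end Crest.Agent.R177
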