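import Crest.Agent.R177.Design
import Crest.Agent.R177.RelBasic
import Crest.Agent.R177.DefsPat

set_option autoImplicit false

namespace Crest.Agent.R177

open Equiv

namespace HandshakeAux

/-- a sum over a subtype of pairs as an iterated sum -/
theorem sum_pairs {A B M : Type} [Fintype A] [DecidableEq A] [Fintype B] [DecidableEq B]
    [AddCommMonoid M] (S : A → Finset B) (f : A × B → M) :
    ∑ e : {e : A × B // e.2 ∈ S e.1}, f e.1 = ∑ a, ∑ b ∈ S a, f (a, b) := by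
  rw [← Finset.sum_finset_product (Finset.univ.filter (fun e : A × B => e.2 ∈ S e.1))
    Finset.univ S (by simp)]
  exact (Finset.sum_subtype _ (by simp) f).symm

theorem single_sum {R G ι : Type} [Semiring R] (g : G) (s : Finset ι) (f : ι → R) :
    MonoidAlgebra.single g (∑ i ∈ s, f i) = ∑ i ∈ s, MonoidAlgebra.single g (f i) :=
  map_sum (MonoidAlgebra.singleAddHom g) f s

/-- the key identity -/
theorem key {T C U W : Type} [Fintype T] [DecidableEq T] [Fintype C] [DecidableEq C]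
    [Fintype U] [DecidableEq U] [Fintype W] [DecidableEq W] (Y : SlotSys T C U W) {R : Type}
    [CommRing R] (wA w : C → R) (σ : Y.Matching) {ν : U ⊕ W → (Y.graph σ).Grp}
    (hν : (Y.graph σ).IsPot ν) (ind : U ⊕ W → R)
    (hind : ∀ e, ind ((Y.graph σ).src e) = ind ((Y.graph σ).tgt e))
    (hconn : ∀ κ κ', ∑ ξ ∈ Y.slots κ, ∑ ξ' ∈ Y.slots κ',
      (if ξ.1 = ξ'.1 then wA ξ.2 * w ξ'.2 else 0) = 0) :
    ∑ x : U, ∑ y : U, MonoidAlgebra.single (ν (Sum.inl x) * (ν (Sum.inl y))⁻¹)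
      (wA (Y.col x) * (w (Y.col y) * ind (Sum.inl y)) * (((Y.S x ∩ Y.S y).card : ℕ) : R)) =
      (0 : MonoidAlgebra R (Y.graph σ).Grp) := by
  set F : U × T → U × T → MonoidAlgebra R (Y.graph σ).Grp := fun e e' =>
    MonoidAlgebra.single (ν (Sum.inl e.1) * (ν (Sum.inl e'.1))⁻¹)
      (if e.2 = e'.2 then wA (Y.col e.1) * (w (Y.col e'.1) * ind (Sum.inl e'.1)) else 0) with hF
  set F' : W × (T × C) → W × (T × C) → MonoidAlgebra R (Y.graph σ).Grp := fun s s' =>
    MonoidAlgebra.single (ν (Sum.inr s.1) * (ν (Sum.inr s'.1))⁻¹)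
      ((if s.2.1 = s'.2.1 then wA s.2.2 * w s'.2.2 else 0) * ind (Sum.inr s'.1)) with hF'
  have h1 : ∀ e e' : Y.E, F e.1 e'.1 = F' (σ.1 e).1 (σ.1 e').1 := by
    intro e e'
    have a1 := σ.2 e
    have a2 := σ.2 e'
    have p1 : ν (Sum.inr (σ.1 e).1.1) = ν (Sum.inl e.1.1) * (Y.graph σ).gen e.1.2 := hν e
    have p2 : ν (Sum.inr (σ.1 e').1.1) = ν (Sum.inl e'.1.1) * (Y.graph σ).gen e'.1.2 := hν e'
    have i2 : ind (Sum.inl e'.1.1) = ind (Sum.inr (σ.1 e').1.1) := hind e'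
    simp only [hF, hF', a1, a2, SlotSys.cls]
    by_cases h : e.1.2 = e'.1.2
    · rw [if_pos h, if_pos h, ← i2, p1, p2, h]
      congr 1
      · rw [mul_inv_rev, mul_assoc, mul_inv_cancel_left]
      · ring
    · rw [if_neg h, if_neg h]; simp
  have h2 : ∑ e : Y.E, ∑ e' : Y.E, F e.1 e'.1 = ∑ s : Y.WS, ∑ s' : Y.WS, F' s.1 s'.1 := by
    rw [← Equiv.sum_comp σ.1]
    refine Finset.sum_congr rfl fun e _ => ?_
    rw [← Equiv.sum_comp σ.1]
    exact Finset.sum_congr rfl fun e' _ => h1 e e'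
  have h3 : ∑ s : Y.WS, ∑ s' : Y.WS, F' s.1 s'.1 = 0 := by
    rw [sum_pairs Y.slots (fun s => ∑ s' : Y.WS, F' s s'.1)]
    refine Finset.sum_eq_zero fun κ _ => ?_
    rw [Finset.sum_congr rfl (fun ξ _ => sum_pairs Y.slots (fun s' => F' (κ, ξ) s'))]
    rw [Finset.sum_comm]
    refine Finset.sum_eq_zero fun κ' _ => ?_
    simp only [hF']
    simp_rw [← single_sum, ← Finset.sum_mul]
    rw [hconn]; simp
  rw [← h3, ← h2, sum_pairs Y.S (fun e => ∑ e' : Y.E, F e e'.1)]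
  refine Finset.sum_congr rfl fun x _ => ?_
  rw [Finset.sum_congr rfl (fun t _ => sum_pairs Y.S (fun e' => F (x, t) e'))]
  rw [Finset.sum_comm]
  refine Finset.sum_congr rfl fun y _ => ?_
  simp only [hF]
  simp_rw [← single_sum]
  congr 1
  simp_rw [Finset.sum_ite_eq]
  rw [← Finset.sum_filter, Finset.sum_const, Finset.filter_mem_eq_inter, nsmul_eq_mul, mul_comm]

/-- the product formula -/
theorem prod_eq {T C U W : Type} [Fintype T] [DecidableEq T] [Fintype C] [DecidableEq C]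
    [Fintype U] [DecidableEq U] [Fintype W] [DecidableEq W] (Y : SlotSys T C U W) {R : Type}
    [CommRing R] (wA w : C → R) (σ : Y.Matching) {ν : U ⊕ W → (Y.graph σ).Grp}
    (hν : (Y.graph σ).IsPot ν) (ind : U ⊕ W → R)
    (hind : ∀ e, ind ((Y.graph σ).src e) = ind ((Y.graph σ).tgt e))
    (hconn : ∀ κ κ', ∑ ξ ∈ Y.slots κ, ∑ ξ' ∈ Y.slots κ',
      (if ξ.1 = ξ'.1 then wA ξ.2 * w ξ'.2 else 0) = 0) :
    (∑ x : U, MonoidAlgebra.single (ν (Sum.inl x)) (wA (Y.col x))) *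
      (∑ y : U, MonoidAlgebra.single (ν (Sum.inl y))⁻¹ (w (Y.col y) * ind (Sum.inl y))) =
    ∑ x : U, ∑ y : U, MonoidAlgebra.single (ν (Sum.inl x) * (ν (Sum.inl y))⁻¹)
      (wA (Y.col x) * w (Y.col y) * (1 - (((Y.S x ∩ Y.S y).card : ℕ) : R)) *
        ind (Sum.inl y)) := by
  have hk := key Y wA w σ hν ind hind hconn
  rw [Finset.sum_mul_sum, ← add_zero (∑ x : U, ∑ y : U, MonoidAlgebra.single
    (ν (Sum.inl x) * (ν (Sum.inl y))⁻¹) (wA (Y.col x) * w (Y.col y) *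
      (1 - (((Y.S x ∩ Y.S y).card : ℕ) : R)) * ind (Sum.inl y))), ← hk, ← Finset.sum_add_distrib]
  refine Finset.sum_congr rfl fun x _ => ?_
  rw [← Finset.sum_add_distrib]
  refine Finset.sum_congr rfl fun y _ => ?_
  rw [MonoidAlgebra.single_mul_single, ← MonoidAlgebra.single_add]
  congr 1
  ring

theorem isWalk_snoc {V E T : Type} (Γ : LG V E T) {x : V} {l : List (E × Bool)} {d : E × Bool}
    (h : Γ.IsWalk x l (Γ.st d)) : Γ.IsWalk x (l ++ [d]) (Γ.en d) := by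
  induction l generalizing x with
  | nil => exact ⟨h.symm, rfl⟩
  | cons a l ih => exact ⟨h.1, ih h.2⟩

theorem reach_iff {V E T : Type} (Γ : LG V E T) (z : V) (e : E) :
    Γ.Reach z (Γ.src e) ↔ Γ.Reach z (Γ.tgt e) := by
  constructor
  · rintro ⟨l, hl⟩
    exact ⟨l ++ [(e, true)], isWalk_snoc Γ (d := (e, true)) hl⟩
  · rintro ⟨l, hl⟩
    exact ⟨l ++ [(e, false)], isWalk_snoc Γ (d := (e, false)) hl⟩

end HandshakeAux

open HandshakeAux in
/-- TASK Handshake.  `a' = ∑ x, wA (col x) • [ν x]`, `b' = ∑ y, wB (col y) • [(ν y)⁻¹]`,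
`c = ∑ y reachable from z0, wC (col y) • [(ν y)⁻¹]` (`ν x = ν (inl x)`).  Key identity, for `d = wB ∘ col`
or `d = wC ∘ col` times the indicator of the component of `z0`:
`∑ x y, wA x d y |S x ∩ S y| [ν x (ν y)⁻¹] = ∑ over pairs of edges (e,e') with the same letter of
wA (src e) d (src e') [ν (tgt e) (ν (tgt e'))⁻¹]` (as `ν (tgt e) = ν (src e) * gen t`), and reindexing by
`σ` this is `∑ κ κ', [ν κ (ν κ')⁻¹] * (sum in connB / connC, times the indicator at κ') = 0`.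
Hence `a' b' = [ν a0 (ν b0)⁻¹]`, `a' c = 0`; put `a = a'`, `b = b' [ν b0 (ν a0)⁻¹]`.  The coefficient of
`c` at `(ν z0)⁻¹` is `wC (col z0) ≠ 0` by `hNT`. -/
theorem handshake {T C U W : Type} [Fintype T] [DecidableEq T] [Fintype C] [DecidableEq C]
    [Fintype U] [DecidableEq U] [Fintype W] [DecidableEq W] (Y : SlotSys T C U W) {p : ℕ}
    [Fact p.Prime] {wA wB wC : C → ZMod p} {a0 b0 z0 : U} (hA : Y.Alg wA wB wC a0 b0 z0)
    (σ : Y.Matching) {ν : U ⊕ W → (Y.graph σ).Grp} (hν : (Y.graph σ).IsPot ν)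
    (hNT : ∀ y, (Y.graph σ).Reach (Sum.inl z0) y → ν y = ν (Sum.inl z0) → y = Sum.inl z0) :
    ∃ a b c : MonoidAlgebra (ZMod p) (Y.graph σ).Grp, a * b = 1 ∧ a * c = 0 ∧ c ≠ 0 := by
  classical
  set ind : U ⊕ W → ZMod p := fun y => if (Y.graph σ).Reach (Sum.inl z0) y then 1 else 0 with hind
  have hB := prod_eq Y wA wB σ hν (fun _ => 1) (fun _ => rfl) hA.connB
  have hC := prod_eq Y wA wC σ hν ind (fun e => by simp only [hind, reach_iff]) hA.connC
  refine ⟨∑ x : U, MonoidAlgebra.single (ν (Sum.inl x)) (wA (Y.col x)),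
    (∑ y : U, MonoidAlgebra.single (ν (Sum.inl y))⁻¹ (wB (Y.col y) * 1)) *
      MonoidAlgebra.single (ν (Sum.inl b0) * (ν (Sum.inl a0))⁻¹) 1,
    ∑ y : U, MonoidAlgebra.single (ν (Sum.inl y))⁻¹ (wC (Y.col y) * ind (Sum.inl y)),
    ?_, ?_, ?_⟩
  · rw [← mul_assoc, hB]
    simp_rw [hA.ab]
    rw [Finset.sum_eq_single a0, Finset.sum_eq_single b0]
    · rw [MonoidAlgebra.single_mul_single, MonoidAlgebra.one_def]
      congr 1
      · group
      · simp
    · intro y _ hy; simp [hy]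
    · simp
    · intro x _ hx; simp [hx]
    · simp
  · rw [hC]
    simp_rw [hA.ac]
    simp
  · intro h0
    have h1 := congrArg (fun c : MonoidAlgebra (ZMod p) (Y.graph σ).Grp =>
      c.coeff (ν (Sum.inl z0))⁻¹) h0
    simp only [MonoidAlgebra.coeff_sum, Finsupp.coe_finsetSum, Finset.sum_apply,
      MonoidAlgebra.coeff_single, MonoidAlgebra.coeff_zero, Finsupp.coe_zero, Pi.zero_apply] at h1
    rw [Finset.sum_eq_single z0] at h1
    · have hr : (Y.graph σ).Reach (Sum.inl z0) (Sum.inl z0) := ⟨[], rfl⟩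
      simp only [Finsupp.single_eq_same, hind, hr, if_true, mul_one] at h1
      exact hA.z0 h1
    · intro y _ hy
      by_cases hr : (Y.graph σ).Reach (Sum.inl z0) (Sum.inl y)
      · rw [Finsupp.single_eq_of_ne]
        intro h
        exact hy (Sum.inl_injective (hNT _ hr (inv_injective h).symm))
      · simp [hind, hr]
    · simp

end Crest.Agent.R177
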