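import Crest.Agent.R177.HypRect
import Crest.Agent.R177.Hyp.Word

set_option autoImplicit false

namespace Crest.Agent.R177

open Crest.GroupTheory

/-- TASK Hyp: linear isoperimetric inequality implies the four point condition
(Bridson-Haefliger III.H.2.9 with `rect` as the area bound).  `d` = word metric; geodesics are words
of minimal length.  Fix `R' ≫ C ρ`, `R = 4 R'`.  Slim triangles: let `p` on the side `[x,y]` be far from
the other two sides; let `x'` (`y'`) be the last (first) vertex of `[x,y]` before (after) `p` within
`R` of the other sides, `u, v` the corresponding points.  If `u, v` are on one side use the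
quadrilateral `x' y' v u`; otherwise cut the corner at `z` at the first point `u'` of `[u,z]` within
`R'` of `[v,z]` and use the hexagon `x' y' v v' u' u`.  Apply `rect` with `f = d(·, α)`,
`h = d(·, start of α)` for the longest `α` of the (at most three) long sides, reading the polygon
backwards from the start of `α` (so that `α` itself, where `f = 0`, comes last): the perimeter is at most
`3 |α| + 3R`, and `(R'-1) (|α| - 2R - 3)/ρ ≤ C (3|α| + 3R)` bounds `|α|`, hence `d(p, other sides)`.
Then slim triangles give the four point condition for Gromov products (standard).
(The formal proof in `R177/Hyp/*.lean` instead takes the point `p` at maximal distance `r` from the other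
two sides, builds a detour of length `≤ 20 r` around the ball `B(p,r)` and applies `rect` once.) -/
theorem hyp {G T : Type} [Group G] [Fintype T] (ι : T → G)
    (hgen : Subgroup.closure (Set.range ι) = ⊤) {ρ C : ℕ} (hfill : LinFill ι ρ C) :
    IsHyperbolicGroup G := by
  classical
  obtain ⟨δ, hδ⟩ := HypAux.DMet.four_point (Nat.succ_pos ρ)
    (HypAux.rect_wordMet hgen (Nat.succ_pos ρ) (HypAux.linFill_succ hfill))
  have hS : ((Finset.univ.image ι : Finset G) : Set G) = Set.range ι := by simp
  refine ⟨Finset.univ.image ι, by rw [hS, hgen], δ, Nat.cast_nonneg _, ?_⟩
  intro w x y z
  rw [hS]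
  have h0 : (0 : ℝ) ≤ δ := Nat.cast_nonneg _
  rcases hδ w x y z with h | h
  · have h' : wordDist (Set.range ι) y w + wordDist (Set.range ι) x z ≤
        wordDist (Set.range ι) z w + wordDist (Set.range ι) x y + δ := by
      unfold wordDist
      exact_mod_cast h
    have := min_le_left (gromovProduct (Set.range ι) w x y) (gromovProduct (Set.range ι) w y z)
    unfold gromovProduct at *
    linarith
  · have h' : wordDist (Set.range ι) y w + wordDist (Set.range ι) x z ≤
        wordDist (Set.range ι) x w + wordDist (Set.range ι) y z + δ := by
      unfold wordDist
      exact_mod_cast h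
    have := min_le_right (gromovProduct (Set.range ι) w x y) (gromovProduct (Set.range ι) w y z)
    unfold gromovProduct at *
    linarith

end Crest.Agent.R177
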