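import Crest.Agent.R177.HypRect
import Crest.Agent.R177.RelBasic

set_option autoImplicit false

namespace Crest.Agent.R177

namespace HypFillAux

/-! ### the Cayley chain of a word -/

section Cay

variable {G T : Type} [Group G] (ι : T → G)

theorem lift_mk_cons_true (t : T) (w : List (T × Bool)) :
    FreeGroup.lift ι (FreeGroup.mk ((t, true) :: w)) =
      ι t * FreeGroup.lift ι (FreeGroup.mk w) := by
  simp [FreeGroup.lift_mk]

theorem lift_mk_cons_false (t : T) (w : List (T × Bool)) :
    FreeGroup.lift ι (FreeGroup.mk ((t, false) :: w)) =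
      (ι t)⁻¹ * FreeGroup.lift ι (FreeGroup.mk w) := by
  simp [FreeGroup.lift_mk]

theorem cay_append (g : G) (w w' : List (T × Bool)) :
    cay ι g (w ++ w') = cay ι g w + cay ι (g * FreeGroup.lift ι (FreeGroup.mk w)) w' := by
  induction w generalizing g with
  | nil => simp [cay, FreeGroup.lift_mk]
  | cons d w ih =>
    rcases d with ⟨t, b⟩
    cases b
    · rw [List.cons_append, cay, cay, ih, lift_mk_cons_false, add_assoc, mul_assoc]
    · rw [List.cons_append, cay, cay, ih, lift_mk_cons_true, add_assoc, mul_assoc]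

theorem cay_cancel (g : G) (t : T) (b : Bool) (w : List (T × Bool)) :
    cay ι g ((t, b) :: (t, !b) :: w) = cay ι g w := by
  cases b
  · simp only [cay, Bool.not_false, inv_mul_cancel_right]
    rw [← add_assoc, ← Finsupp.single_add]
    simp
  · simp only [cay, Bool.not_true, mul_inv_cancel_right]
    rw [← add_assoc, ← Finsupp.single_add]
    simp

theorem cay_step (g : G) {w w' : List (T × Bool)} (h : FreeGroup.Red.Step w w') :
    cay ι g w = cay ι g w' := by
  cases h with
  | @not L₁ L₂ x b => rw [cay_append, cay_append, cay_cancel]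

/-- `cay` descends to the free group -/
noncomputable def cayF (g : G) : FreeGroup T → (G × T →₀ ℤ) :=
  Quot.lift (cay ι g) (fun _ _ h => cay_step ι g h)

theorem cayF_mk (g : G) (w : List (T × Bool)) : cayF ι g (FreeGroup.mk w) = cay ι g w := rfl

theorem cayF_one (g : G) : cayF ι g 1 = 0 := rfl

theorem cayF_mul (g : G) (u v : FreeGroup T) :
    cayF ι g (u * v) = cayF ι g u + cayF ι (g * FreeGroup.lift ι u) v := by
  induction u using Quot.ind with
  | mk u =>
    induction v using Quot.ind with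
    | mk v =>
      simp only [FreeGroup.quot_mk_eq_mk, FreeGroup.mul_mk, cayF_mk]
      exact cay_append ι g u v

theorem cayF_add_inv (g : G) (u : FreeGroup T) :
    cayF ι g u + cayF ι (g * FreeGroup.lift ι u) u⁻¹ = 0 := by
  rw [← cayF_mul, mul_inv_cancel, cayF_one]

end Cay

/-! ### the l¹ norm -/

section Norm

variable {X Y : Type}

theorem norm1_eq_sum (c : X →₀ ℤ) {s : Finset X} (hs : c.support ⊆ s) :
    norm1 c = ∑ x ∈ s, (c x).natAbs := by
  unfold norm1
  exact Finsupp.sum_of_support_subset c hs _ (by simp)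

theorem norm1_add_le (a b : X →₀ ℤ) : norm1 (a + b) ≤ norm1 a + norm1 b := by
  classical
  rw [norm1_eq_sum (a + b) Finsupp.support_add,
    norm1_eq_sum a (s := a.support ∪ b.support) Finset.subset_union_left,
    norm1_eq_sum b (s := a.support ∪ b.support) Finset.subset_union_right,
    ← Finset.sum_add_distrib]
  exact Finset.sum_le_sum (fun x _ => Int.natAbs_add_le _ _)

theorem norm1_zero : norm1 (0 : X →₀ ℤ) = 0 := by simp [norm1]

theorem norm1_single (x : X) (n : ℤ) : norm1 (Finsupp.single x n) = n.natAbs := by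
  unfold norm1
  rw [Finsupp.sum_single_index]
  simp

theorem norm1_sum_le {I : Type} (s : Finset I) (z : I → (X →₀ ℤ)) :
    norm1 (∑ i ∈ s, z i) ≤ ∑ i ∈ s, norm1 (z i) := by
  classical
  induction s using Finset.induction_on with
  | empty => simp [norm1_zero]
  | insert i s hi ih =>
    rw [Finset.sum_insert hi, Finset.sum_insert hi]
    exact (norm1_add_le _ _).trans (by omega)

theorem norm1_mapDomain_le (f : X → Y) (c : X →₀ ℤ) :
    norm1 (Finsupp.mapDomain f c) ≤ norm1 c := by
  unfold Finsupp.mapDomain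
  rw [Finsupp.sum]
  refine (norm1_sum_le _ _).trans ?_
  simp only [norm1_single]
  exact le_rfl

open Classical in
theorem sum_filter_fst {A B : Type} (c : A × B →₀ ℤ) :
    ∑ g ∈ c.support.image Prod.fst, c.filter (fun p => p.1 = g) = c := by
  ext p
  rw [Finsupp.finsetSum_apply]
  simp only [Finsupp.filter_apply]
  rw [Finset.sum_ite_eq]
  split_ifs with hp
  · rfl
  · by_contra hne
    exact hp (Finset.mem_image_of_mem _ (Finsupp.mem_support_iff.mpr (Ne.symm hne)))

open Classical in
theorem sum_norm1_filter_fst {A B : Type} (c : A × B →₀ ℤ) :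
    ∑ g ∈ c.support.image Prod.fst, norm1 (c.filter (fun p => p.1 = g)) = norm1 c := by
  rw [norm1_eq_sum c subset_rfl,
    ← Finset.sum_fiberwise_of_maps_to (s := c.support) (t := c.support.image Prod.fst)
      (g := Prod.fst) (fun p hp => Finset.mem_image_of_mem _ hp)]
  refine Finset.sum_congr rfl (fun g _ => ?_)
  rw [norm1_eq_sum _ (s := c.support.filter (fun p => p.1 = g)) (by
    rw [Finsupp.support_filter])]
  refine Finset.sum_congr rfl (fun p hp => ?_)
  rw [Finsupp.filter_apply, if_pos (Finset.mem_filter.mp hp).2]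

end Norm

/-! ### pushing two-chains to the Cayley graph -/

section Push

variable {V E T : Type} (Γ : LG V E T) (ν : V → Γ.Grp)

/-- the edge of the Cayley graph under the cone triangle `(g, e)` -/
def pmap (p : Γ.Grp × E) : Γ.Grp × T := (p.1 * ν (Γ.src p.2), Γ.lab p.2)

theorem chain_nil (g : Γ.Grp) : Γ.chain g [] = 0 := rfl

theorem chain_cons (g : Γ.Grp) (d : E × Bool) (l : List (E × Bool)) :
    Γ.chain g (d :: l) = Finsupp.single (g, d.1) (cond d.2 (1 : ℤ) (-1)) + Γ.chain g l := by
  simp [LG.chain]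

variable {ν}

theorem cay_walk (hν : Γ.IsPot ν) {x y : V} {l : List (E × Bool)} (hl : Γ.IsWalk x l y)
    (g : Γ.Grp) :
    cay Γ.gen g (l.map Γ.lb) = Finsupp.mapDomain (pmap Γ ν) (Γ.chain (g * (ν x)⁻¹) l) := by
  induction l generalizing x g with
  | nil => simp [cay, chain_nil]
  | cons d l ih =>
    obtain ⟨h1, h2⟩ := hl
    rcases d with ⟨e, b⟩
    have he := hν e
    cases b
    · have hx : Γ.tgt e = x := h1
      have h3 : Γ.IsWalk (Γ.src e) l y := h2
      have h4 : g * (Γ.gen (Γ.lab e))⁻¹ * (ν (Γ.src e))⁻¹ = g * (ν x)⁻¹ := by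
        rw [← hx, he]; group
      have h5 : g * (ν x)⁻¹ * ν (Γ.src e) = g * (Γ.gen (Γ.lab e))⁻¹ := by
        rw [← hx, he]; group
      rw [List.map_cons, chain_cons, Finsupp.mapDomain_add, Finsupp.mapDomain_single]
      change cay Γ.gen g ((Γ.lab e, false) :: l.map Γ.lb) = _
      rw [cay, ih h3, h4]
      simp only [pmap, h5, cond_false]
    · have hx : Γ.src e = x := h1
      have h3 : Γ.IsWalk (Γ.tgt e) l y := h2
      have h4 : g * (Γ.gen (Γ.lab e)) * (ν (Γ.tgt e))⁻¹ = g * (ν x)⁻¹ := by
        rw [← hx, he]; group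
      have h5 : g * (ν x)⁻¹ * ν (Γ.src e) = g := by
        rw [← hx]; group
      rw [List.map_cons, chain_cons, Finsupp.mapDomain_add, Finsupp.mapDomain_single]
      change cay Γ.gen g ((Γ.lab e, true) :: l.map Γ.lb) = _
      rw [cay, ih h3, h4]
      simp only [pmap, h5, cond_true]

theorem push_rel (hν : Γ.IsPot ν) {w : FreeGroup T} {c : Γ.Grp × E →₀ ℤ} (h : Γ.Rel ν w c) :
    Finsupp.mapDomain (pmap Γ ν) c = cayF Γ.gen 1 w := by
  induction h with
  | one => simp [cayF_one]
  | step w c u x l hl h ih =>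
    have h1 : FreeGroup.lift Γ.gen w = 1 := by rw [← Γ.proj_eq_lift]; exact Γ.rel_proj h
    have h2 : FreeGroup.lift Γ.gen (Γ.word l) = 1 := by
      rw [← Γ.proj_eq_lift]; exact Γ.proj_closed hl
    have h3 := cayF_add_inv Γ.gen 1 u
    rw [Finsupp.mapDomain_add, ih, cayF_mul, cayF_mul, cayF_mul, h1, map_mul, h2, mul_one,
      mul_one, ← cay_walk Γ hν hl, Γ.proj_eq_lift]
    rw [one_mul] at h3 ⊢
    have h4 : cayF Γ.gen (FreeGroup.lift Γ.gen u) (Γ.word l) =
      cay Γ.gen (FreeGroup.lift Γ.gen u) (l.map Γ.lb) := rfl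
    rw [h4, add_right_comm, h3, zero_add]

/-- the pairing of a two-chain with the coboundary of `F` -/
noncomputable def bd (F : Γ.Grp → V → ℤ) : (Γ.Grp × E →₀ ℤ) →ₗ[ℤ] ℤ :=
  Finsupp.linearCombination ℤ (fun p => F p.1 (Γ.tgt p.2) - F p.1 (Γ.src p.2))

theorem bd_walk (F : Γ.Grp → V → ℤ) {x y : V} {l : List (E × Bool)} (hl : Γ.IsWalk x l y)
    (g : Γ.Grp) : bd Γ F (Γ.chain g l) = F g y - F g x := by
  induction l generalizing x with
  | nil =>
    have : x = y := hl
    simp [chain_nil, this]
  | cons d l ih =>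
    obtain ⟨h1, h2⟩ := hl
    rcases d with ⟨e, b⟩
    rw [chain_cons, map_add, ih h2]
    cases b
    · have hx : Γ.tgt e = x := h1
      simp only [bd, Finsupp.linearCombination_single, cond_false, LG.en, hx]
      simp
    · have hx : Γ.src e = x := h1
      simp only [bd, Finsupp.linearCombination_single, cond_true, LG.en, hx]
      simp

theorem bd_rel (F : Γ.Grp → V → ℤ) {w : FreeGroup T} {c : Γ.Grp × E →₀ ℤ} (h : Γ.Rel ν w c) :
    bd Γ F c = 0 := by
  induction h with
  | one => simp
  | step w c u x l hl h ih => rw [map_add, ih, bd_walk Γ F hl]; simp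

open Classical in
theorem isCyc_part (hν : Γ.IsPot ν) {w : FreeGroup T} {c : Γ.Grp × E →₀ ℤ} (h : Γ.Rel ν w c)
    (g : Γ.Grp) :
    IsCyc Γ.gen (Finsupp.mapDomain (pmap Γ ν) (c.filter (fun p => p.1 = g))) := by
  intro f
  have h0 := bd_rel Γ (fun g' v => if g' = g then f (g * ν v) else 0) h
  rw [Finsupp.sum_mapDomain_index (by simp) (by intro p m n; ring)]
  rw [← h0, bd, Finsupp.linearCombination_apply, Finsupp.sum, Finsupp.sum,
    Finsupp.support_filter, Finset.sum_filter]
  refine Finset.sum_congr rfl (fun p _ => ?_)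
  by_cases hp : p.1 = g
  · rw [if_pos hp, Finsupp.filter_apply, if_pos hp]
    simp only [pmap, hp, if_true, smul_eq_mul, hν p.2, mul_assoc]
  · simp [hp]

end Push

theorem nb_reduce {T : Type} [DecidableEq T] (w : List (T × Bool)) : NB (FreeGroup.reduce w) := by
  have h : FreeGroup.IsReduced (FreeGroup.reduce w) :=
    FreeGroup.IsReduced.of_reduce_eq FreeGroup.reduce.idem
  refine List.IsChain.imp ?_ h
  rintro ⟨a, b⟩ ⟨a', b'⟩ hab he
  simp only [flp, Prod.mk.injEq] at he
  have := hab he.1.symm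
  simp only at this
  rw [he.2] at this
  cases b <;> simp at this

end HypFillAux

open HypFillAux in
/-- TASK HypFill.  Given `w` with trivial image take `c` with `Rel ν (mk w) c`; `norm1 c ≤ C |reduce w|`.
By induction on `Rel`: (i) pushing `c` forward along `(g,e) ↦ (g * ν (src e), lab e)` gives
`cay gen 1 w` (which only depends on `mk w`, is additive, and `cay g (label of l) ` is the push-forward
of `chain (g * (ν x)⁻¹) l`); (ii) for every `g` and every `F : V → ℤ`,
`∑ e, c (g,e) * (F (tgt e) - F (src e)) = 0`.  Take `I` = the finite set of first coordinates `g` of the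
support of `c`, `z g` = push-forward of the part of `c` with first coordinate `g`; `ρ` = a bound for
the word lengths of the finitely many `(ν x)⁻¹ * ν y`. -/
theorem linFill_of_rel {V E T : Type} [Finite V] (Γ : LG V E T) {ν : V → Γ.Grp}
    (hν : Γ.IsPot ν) (C : ℕ)
    (h : ∀ (w : List (T × Bool)) c, NB w → Γ.Rel ν (FreeGroup.mk w) c → norm1 c ≤ C * w.length) :
    ∃ ρ, LinFill Γ.gen ρ C := by
  classical
  obtain ⟨ρ, hρ⟩ := Finite.bddAbove_range (fun p : V × V =>
    Crest.GroupTheory.wordLength (Set.range Γ.gen) ((ν p.1)⁻¹ * ν p.2))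
  refine ⟨ρ, fun w hw => ?_⟩
  rw [← Γ.proj_eq_lift] at hw
  obtain ⟨c, hc⟩ := Γ.rel_exists ν hw
  have hn : norm1 c ≤ C * w.length := by
    have h1 := h (FreeGroup.reduce w) c (nb_reduce w) (by rwa [FreeGroup.reduce.self])
    exact h1.trans (Nat.mul_le_mul_left _ (FreeGroup.Red.length_le FreeGroup.reduce.red))
  refine ⟨{g // g ∈ c.support.image Prod.fst}, inferInstance,
    fun g => Finsupp.mapDomain (pmap Γ ν) (c.filter (fun p => p.1 = g.1)),
    fun g => isCyc_part Γ hν hc g.1, ?_, ?_, ?_⟩
  · intro g p hp p' hp'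
    obtain ⟨q, hq, rfl⟩ := Finset.mem_image.mp (Finsupp.mapDomain_support hp)
    obtain ⟨q', hq', rfl⟩ := Finset.mem_image.mp (Finsupp.mapDomain_support hp')
    rw [Finsupp.support_filter, Finset.mem_filter] at hq hq'
    have : (pmap Γ ν q).1⁻¹ * (pmap Γ ν q').1 = (ν (Γ.src q.2))⁻¹ * ν (Γ.src q'.2) := by
      simp only [pmap, hq.2, hq'.2]; group
    rw [this]
    exact hρ ⟨(Γ.src q.2, Γ.src q'.2), rfl⟩
  · rw [Finset.sum_coe_sort (c.support.image Prod.fst)
      (fun g => Finsupp.mapDomain (pmap Γ ν) (c.filter (fun p => p.1 = g))),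
      ← Finsupp.mapDomain_finsetSum, sum_filter_fst, push_rel Γ hν hc, cayF_mk]
  · rw [Finset.sum_coe_sort (c.support.image Prod.fst)
      (fun g => norm1 (Finsupp.mapDomain (pmap Γ ν) (c.filter (fun p => p.1 = g))))]
    refine le_trans (Finset.sum_le_sum (fun g _ => norm1_mapDomain_le _ _)) ?_
    rw [sum_norm1_filter_fst]
    exact hn

end Crest.Agent.R177
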