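import Crest.Agent.R177.Defs
import Crest.Prelude.Def_WordHyperbolic

set_option autoImplicit false

namespace Crest.Agent.R177

open Crest.GroupTheory

/-- homological linear isoperimetric inequality with cells of diameter at most `ρ` -/
def LinFill {G T : Type} [Group G] (ι : T → G) (ρ C : ℕ) : Prop :=
  ∀ w : List (T × Bool), FreeGroup.lift ι (FreeGroup.mk w) = 1 →
    ∃ (I : Type) (_ : Fintype I) (z : I → (G × T →₀ ℤ)), (∀ i, IsCyc ι (z i)) ∧
      (∀ i, ∀ p ∈ (z i).support, ∀ p' ∈ (z i).support,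
        wordLength (Set.range ι) (p.1⁻¹ * p'.1) ≤ ρ) ∧
      ∑ i, z i = cay ι 1 w ∧ ∑ i, norm1 (z i) ≤ C * w.length

/-- the vertex reached after reading the first `k` letters of `w` from `g` -/
def wpt {G T : Type} [Group G] (ι : T → G) (g : G) (w : List (T × Bool)) (k : ℕ) : G :=
  g * FreeGroup.lift ι (FreeGroup.mk (w.take k))

namespace HypRectAux

variable {G T : Type} [Group G] (ι : T → G)

/-- the pairing of a one-chain with an edge function -/
noncomputable abbrev pr (φ : G × T → ℤ) : (G × T →₀ ℤ) →ₗ[ℤ] ℤ := Finsupp.linearCombination ℤ φ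

omit [Group G] in
theorem pr_congr {φ ψ : G × T → ℤ} {z : G × T →₀ ℤ} (h : ∀ p ∈ z.support, φ p = ψ p) :
    pr φ z = pr ψ z := by
  simp only [Finsupp.linearCombination_apply, Finsupp.sum]
  exact Finset.sum_congr rfl fun p hp => by rw [h p hp]

omit [Group G] in
theorem pr_zero {φ : G × T → ℤ} {z : G × T →₀ ℤ} (h : ∀ p ∈ z.support, φ p = 0) :
    pr φ z = 0 := by
  simp only [Finsupp.linearCombination_apply, Finsupp.sum]
  exact Finset.sum_eq_zero fun p hp => by rw [h p hp, smul_zero]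

/-- coboundary of a vertex function -/
def cob (u : G → ℤ) (p : G × T) : ℤ := u (p.1 * ι p.2) - u p.1

theorem pr_cob_of_isCyc {z : G × T →₀ ℤ} (hz : IsCyc ι z) (u : G → ℤ) : pr (cob ι u) z = 0 := by
  have := hz u
  simpa only [Finsupp.linearCombination_apply, smul_eq_mul, cob] using this

theorem wpt_zero (g : G) (w : List (T × Bool)) : wpt ι g w 0 = g := by
  simp [wpt, FreeGroup.lift_mk]

theorem wpt_cons (g : G) (d : T × Bool) (w : List (T × Bool)) (k : ℕ) :
    wpt ι g (d :: w) (k + 1) = wpt ι (g * cond d.2 (ι d.1) (ι d.1)⁻¹) w k := by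
  simp [wpt, FreeGroup.lift_mk, mul_assoc]

theorem wpt_length (g : G) (w : List (T × Bool)) :
    wpt ι g w w.length = g * FreeGroup.lift ι (FreeGroup.mk w) := by
  simp [wpt]

theorem wpt_mul (g x : G) (w : List (T × Bool)) (k : ℕ) :
    wpt ι (g * x) w k = g * wpt ι x w k := by
  simp [wpt, mul_assoc]

/-- The pairing of the traced chain with `φ` telescopes as soon as it does so edge by edge. -/
theorem pr_cay (φ : G × T → ℤ) : ∀ (w : List (T × Bool)) (g : G) (U : ℕ → ℤ),
    (∀ k < w.length, ∀ t, (wpt ι g w k * ι t = wpt ι g w (k + 1) →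
        φ (wpt ι g w k, t) = U (k + 1) - U k) ∧
      (wpt ι g w (k + 1) * ι t = wpt ι g w k → φ (wpt ι g w (k + 1), t) = U k - U (k + 1))) →
    pr φ (cay ι g w) = U w.length - U 0
  | [], g, U, _ => by simp [cay]
  | (t, true) :: w, g, U, H => by
      have h0 := (H 0 (by simp) t).1 (by simp [wpt_cons, wpt_zero])
      have ih := pr_cay φ w (g * ι t) (fun k => U (k + 1)) (fun k hk s => by
        have := H (k + 1) (by simpa using hk) s
        simpa only [wpt_cons, cond_true] using this)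
      rw [wpt_zero] at h0
      simp only [cay, map_add, Finsupp.linearCombination_single, ih, h0, List.length_cons]
      simp
  | (t, false) :: w, g, U, H => by
      have h0 := (H 0 (by simp) t).2 (by simp [wpt_cons, wpt_zero])
      have ih := pr_cay φ w (g * (ι t)⁻¹) (fun k => U (k + 1)) (fun k hk s => by
        have := H (k + 1) (by simpa using hk) s
        simpa only [wpt_cons, cond_false] using this)
      rw [wpt_cons, wpt_zero] at h0
      simp only [cond_false] at h0
      simp only [cay, map_add, Finsupp.linearCombination_single, ih, h0, List.length_cons]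
      simp

theorem lip_list {h : G → ℤ} (hh : ∀ x t, |h (x * ι t) - h x| ≤ 1) :
    ∀ (l : List G) (x : G), (∀ y ∈ l, y ∈ Set.range ι ∨ y⁻¹ ∈ Set.range ι) →
      h (x * l.prod) - h x ≤ l.length
  | [], x, _ => by simp
  | y :: l, x, H => by
      have ih := lip_list hh l (x * y) (fun z hz => H z (List.mem_cons_of_mem _ hz))
      have h1 : h (x * y) - h x ≤ 1 := by
        rcases H y List.mem_cons_self with ⟨t, ht⟩ | ⟨t, ht⟩
        · rw [← ht]; exact (abs_le.1 (hh x t)).2
        · have := (abs_le.1 (hh (x * y) t)).1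
          rw [ht, mul_inv_cancel_right] at this
          linarith
      rw [List.prod_cons, ← mul_assoc, List.length_cons]
      push_cast
      linarith

theorem lip_wordLength (hgen : Subgroup.closure (Set.range ι) = ⊤) {h : G → ℤ}
    (hh : ∀ x t, |h (x * ι t) - h x| ≤ 1) (x y : G) :
    h y - h x ≤ wordLength (Set.range ι) (x⁻¹ * y) := by
  have hne : {n : ℕ | ∃ l : List G, l.length = n ∧
      (∀ x ∈ l, x ∈ Set.range ι ∨ x⁻¹ ∈ Set.range ι) ∧ l.prod = x⁻¹ * y}.Nonempty := by
    have hm : x⁻¹ * y ∈ (Subgroup.closure (Set.range ι)).toSubmonoid := by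
      rw [hgen]; trivial
    rw [Subgroup.closure_toSubmonoid] at hm
    obtain ⟨l, hl, hp⟩ := Submonoid.exists_list_of_mem_closure hm
    exact ⟨l.length, l, rfl, fun z hz => by simpa [Set.mem_inv] using hl z hz, hp⟩
  obtain ⟨l, hl, hm, hp⟩ := Nat.sInf_mem hne
  have := lip_list ι hh l x hm
  rw [hp, mul_inv_cancel_left, hl] at this
  exact this

omit [Group G] in
theorem card_support_le_norm1 (z : G × T →₀ ℤ) : z.support.card ≤ norm1 z := by
  rw [norm1, Finsupp.sum, Finset.card_eq_sum_ones]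
  refine Finset.sum_le_sum fun p hp => ?_
  have := Finsupp.mem_support_iff.1 hp
  omega

/-- the indicator function of the sublevel set `{f ≤ r}` -/
def ind (f : G → ℤ) (r : ℤ) (x : G) : ℤ := if f x ≤ r then 1 else 0

/-- an edge on which the coboundary of the indicator does not vanish crosses the level -/
theorem cross_of_cob {f : G → ℤ} (hf : ∀ x t, |f (x * ι t) - f x| ≤ 1) {r : ℤ} {p : G × T}
    (hp : cob ι (ind f r) p ≠ 0) :
    (f p.1 = r ∧ f (p.1 * ι p.2) = r + 1) ∨ (f p.1 = r + 1 ∧ f (p.1 * ι p.2) = r) := by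
  have := abs_le.1 (hf p.1 p.2)
  unfold cob ind at hp
  split_ifs at hp <;> omega

/-- one crossing edge in a window of the second coordinate -/
theorem exists_cross {ρ : ℕ} (hgen : Subgroup.closure (Set.range ι) = ⊤)
    (f h : G → ℤ) (hf : ∀ x t, |f (x * ι t) - f x| ≤ 1) (hh : ∀ x t, |h (x * ι t) - h x| ≤ 1)
    (w : List (T × Bool)) {I : Type} [Fintype I] (z : I → (G × T →₀ ℤ)) (hz : ∀ i, IsCyc ι (z i))
    (hd : ∀ i, ∀ p ∈ (z i).support, ∀ p' ∈ (z i).support,
        wordLength (Set.range ι) (p.1⁻¹ * p'.1) ≤ ρ)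
    (hs : ∑ i, z i = cay ι 1 w)
    (R : ℕ) (a b : ℤ) (k1 : ℕ) (hk1 : k1 ≤ w.length)
    (h0 : f 1 ≤ 0) (h1 : (R : ℤ) ≤ f (wpt ι 1 w k1))
    (h2 : ∀ k ≤ k1, f (wpt ι 1 w k) ≤ R → h (wpt ι 1 w k) ≤ a)
    (h3 : ∀ k, k1 ≤ k → k ≤ w.length → 0 < f (wpt ι 1 w k) → f (wpt ι 1 w k) ≤ R →
      b < h (wpt ι 1 w k)) (r θ : ℤ) (hr0 : 0 ≤ r) (hr : r < R) (ha : a ≤ θ) (hb : θ < b) :
    ∃ i, ∃ p ∈ (z i).support, cob ι (ind f r) p ≠ 0 ∧ θ < h p.1 ∧ h p.1 ≤ θ + ρ := by
  classical
  by_contra hcon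
  push Not at hcon
  set φ : G × T → ℤ := fun p => if h p.1 ≤ θ then cob ι (ind f r) p else 0 with hφ
  have hz0 : ∀ i, pr φ (z i) = 0 := by
    intro i
    by_cases hF : ∃ p ∈ (z i).support, h p.1 ≤ θ
    · obtain ⟨p0, hp0, hθ⟩ := hF
      rw [← pr_cob_of_isCyc ι (hz i) (ind f r)]
      refine pr_congr fun p hp => ?_
      simp only [hφ]
      split_ifs with hc
      · rfl
      · by_contra hne
        have h4 := hcon i p hp (fun h5 => hne h5.symm) (not_le.1 hc)
        have h5 := lip_wordLength ι hgen hh p0.1 p.1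
        have h6 : (wordLength (Set.range ι) (p0.1⁻¹ * p.1) : ℤ) ≤ ρ := by
          exact_mod_cast hd i p0 hp0 p hp
        linarith
    · push Not at hF
      refine pr_zero fun p hp => ?_
      simp only [hφ]
      rw [if_neg (not_le.2 (hF p hp))]
  have hsum : pr φ (cay ι 1 w) = 0 := by
    rw [← hs, map_sum]; exact Finset.sum_eq_zero fun i _ => hz0 i
  -- the two kinds of edges
  have hlow : ∀ (k k' : ℕ) (t : T), k ≤ k1 → k' ≤ k1 → wpt ι 1 w k * ι t = wpt ι 1 w k' →
      φ (wpt ι 1 w k, t) = ind f r (wpt ι 1 w k') - ind f r (wpt ι 1 w k) := by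
    intro k k' t hk _ he
    have hc : cob ι (ind f r) (wpt ι 1 w k, t) =
        ind f r (wpt ι 1 w k') - ind f r (wpt ι 1 w k) := by simp only [cob, he]
    simp only [hφ]
    split_ifs with hθ
    · exact hc
    · rw [← hc]
      by_contra hne
      have h4 := cross_of_cob ι hf (fun h5 => hne h5.symm)
      have h5 := h2 k hk (by dsimp only at h4; omega)
      exact hθ (h5.trans ha)
  have hhigh : ∀ (k k' : ℕ) (t : T), k1 ≤ k → k1 ≤ k' → k ≤ w.length → k' ≤ w.length →
      wpt ι 1 w k * ι t = wpt ι 1 w k' → φ (wpt ι 1 w k, t) = 0 := by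
    intro k k' t hk hk' hl hl' he
    simp only [hφ]
    split_ifs with hθ
    · by_contra hne
      have h4 := cross_of_cob ι hf hne
      have h5 := abs_le.1 (hh (wpt ι 1 w k) t)
      dsimp only at h4
      rw [he] at h4 h5
      rcases h4 with h4 | h4
      · have := h3 k' hk' hl' (by omega) (by omega)
        omega
      · have := h3 k hk hl (by omega) (by omega)
        omega
    · rfl
  have key := pr_cay ι φ w 1 (fun k => ind f r (wpt ι 1 w (min k k1))) (fun k hk t => by
    by_cases hkk : k + 1 ≤ k1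
    · rw [min_eq_left hkk, min_eq_left (by omega : k ≤ k1)]
      exact ⟨hlow k (k + 1) t (by omega) hkk, hlow (k + 1) k t hkk (by omega)⟩
    · rw [min_eq_right (by omega : k1 ≤ k + 1), min_eq_right (by omega : k1 ≤ k), sub_self]
      exact ⟨hhigh k (k + 1) t (by omega) (by omega) (by omega) (by omega),
        hhigh (k + 1) k t (by omega) (by omega) (by omega) (by omega)⟩)
  rw [hsum, min_eq_right hk1, Nat.zero_min, wpt_zero] at key
  unfold ind at key
  rw [if_neg (by omega), if_pos (by omega)] at key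
  omega

end HypRectAux

open HypRectAux in
/-- TASK HypRect: the coarea (rectangle) inequality.  `f, h : G → ℤ` change by at most one along
edges.  The closed word `w` read from `g` starts in `{f ≤ 0}`, has `f ≥ R` at time `k1`; before `k1`
every vertex with `f ≤ R` has `h ≤ a`, after `k1` every vertex with `0 < f ≤ R` has `h > b`.
Proof: translate the filling to start at `g` (`cay ι g w` is the left translate of `cay ι 1 w`).
For `0 ≤ r < R` and `θ = a + j ρ`, `j < n`, let `F` be the set of `i` such that `supp (z i)` has an edge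
`(x,t)` with `h x ≤ θ`, and apply `IsCyc` with the indicator `u` of `{f ≤ r}` to `Z = ∑ i ∈ F, z i`:
`⟨Z, δu⟩ = 0`.  All edges of `supp Z` have `h x ≤ θ + ρ` (`h` is 1-Lipschitz for `wordLength`).  On
edges with `h x ≤ θ` the chain `Z` equals `cay ι g w`, and these edges contribute `-1` to
`⟨cay ι g w, δu⟩`: the part before `k1` has total `-1` and all its crossing edges (`f` values
`r, r+1`) have `h x ≤ a`; crossing edges after `k1` have `h x ≥ b > θ`.  Hence some `z i` has an edge
crossing level `r` with `θ < h x ≤ θ + ρ`.  Distinct `(r, j)` give distinct edges. -/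
theorem rect {G T : Type} [Group G] (ι : T → G) {ρ C : ℕ} (hρ : 0 < ρ) (hfill : LinFill ι ρ C)
    (hgen : Subgroup.closure (Set.range ι) = ⊤)
    (f h : G → ℤ) (hf : ∀ x t, |f (x * ι t) - f x| ≤ 1) (hh : ∀ x t, |h (x * ι t) - h x| ≤ 1)
    (g : G) (w : List (T × Bool)) (hw : FreeGroup.lift ι (FreeGroup.mk w) = 1)
    (R n : ℕ) (a b : ℤ) (hab : a + n * ρ + 3 ≤ b) (k1 : ℕ) (hk1 : k1 ≤ w.length)
    (h0 : f g ≤ 0) (h1 : (R : ℤ) ≤ f (wpt ι g w k1))
    (h2 : ∀ k ≤ k1, f (wpt ι g w k) ≤ R → h (wpt ι g w k) ≤ a)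
    (h3 : ∀ k, k1 ≤ k → k ≤ w.length → 0 < f (wpt ι g w k) → f (wpt ι g w k) ≤ R →
      b < h (wpt ι g w k)) :
    R * n ≤ C * w.length := by
  classical
  obtain ⟨I, _, z, hz, hd, hs, hC⟩ := hfill w hw
  have hw1 : ∀ k, wpt ι g w k = g * wpt ι 1 w k := fun k => by rw [← wpt_mul, mul_one]
  have hf' : ∀ x t, |f (g * (x * ι t)) - f (g * x)| ≤ 1 := fun x t => by
    rw [← mul_assoc]; exact hf _ _
  have hh' : ∀ x t, |h (g * (x * ι t)) - h (g * x)| ≤ 1 := fun x t => by
    rw [← mul_assoc]; exact hh _ _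
  have hex : ∀ q : Fin R × Fin n, ∃ y : (_ : I) × (G × T),
      y.2 ∈ (z y.1).support ∧ cob ι (ind (fun x => f (g * x)) (q.1 : ℕ)) y.2 ≠ 0 ∧
        a + (q.2 : ℕ) * ρ < h (g * y.2.1) ∧ h (g * y.2.1) ≤ a + (q.2 : ℕ) * ρ + ρ := by
    rintro ⟨⟨r, hr⟩, ⟨j, hjn⟩⟩
    have hq : r < R ∧ j < n := ⟨hr, hjn⟩
    have hj : (j : ℤ) * ρ ≤ n * ρ :=
      mul_le_mul_of_nonneg_right (by exact_mod_cast hq.2.le) (by positivity)
    have hj0 : (0 : ℤ) ≤ j * ρ := by positivity
    obtain ⟨i, p, hp, h4⟩ := exists_cross ι hgen (fun x => f (g * x)) (fun x => h (g * x)) hf' hh'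
      w z hz hd hs R a b k1 hk1 (by simpa using h0) (by simpa only [← hw1] using h1)
      (by simpa only [← hw1] using h2) (by simpa only [← hw1] using h3) r (a + j * ρ)
      (by positivity) (by exact_mod_cast hq.1) (by linarith) (by linarith)
    exact ⟨⟨i, p⟩, hp, h4⟩
  choose F hF using hex
  have hcard : (Finset.univ : Finset (Fin R × Fin n)).card ≤
      (Finset.univ.sigma (fun i => (z i).support)).card := by
    refine Finset.card_le_card_of_injOn F (fun q _ => ?_) ?_
    · simpa using (hF q).1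
    · rintro ⟨⟨r, hrR⟩, ⟨j, hjn⟩⟩ - ⟨⟨r', hrR'⟩, ⟨j', hjn'⟩⟩ - he
      obtain ⟨-, c1, c2, c3⟩ := hF ⟨⟨r, hrR⟩, ⟨j, hjn⟩⟩
      obtain ⟨-, c1', c2', c3'⟩ := hF ⟨⟨r', hrR'⟩, ⟨j', hjn'⟩⟩
      rw [← he] at c1' c2' c3'
      have d1 := cross_of_cob ι (f := fun x => f (g * x)) hf' c1
      have d2 := cross_of_cob ι (f := fun x => f (g * x)) hf' c1'
      dsimp only at d1 d2 c2 c3 c2' c3'
      have hr : r = r' := by omega
      have hρ' : (0 : ℤ) < ρ := by exact_mod_cast hρ
      have hj1 : (j : ℤ) < j' + 1 := by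
        by_contra hc
        have : ((j' : ℤ) + 1) * ρ ≤ j * ρ := mul_le_mul_of_nonneg_right (not_lt.1 hc) hρ'.le
        linarith
      have hj2 : (j' : ℤ) < j + 1 := by
        by_contra hc
        have : ((j : ℤ) + 1) * ρ ≤ j' * ρ := mul_le_mul_of_nonneg_right (not_lt.1 hc) hρ'.le
        linarith
      have hj : j = j' := by omega
      subst hr hj
      rfl
  rw [Finset.card_univ, Fintype.card_prod, Fintype.card_fin, Fintype.card_fin,
    Finset.card_sigma] at hcard
  exact hcard.trans ((Finset.sum_le_sum fun i _ => card_support_le_norm1 (z i)).trans hC)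

end Crest.Agent.R177
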