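import Crest.Agent.R177.Defs

set_option autoImplicit false

namespace Crest.Agent.R177

open Equiv

namespace PiecesExAux

/-- base darts of the cycles -/
theorem exists_base {D : Type} (φ : Perm D) (s : Option D) :
    ∃ b : D → D, (∀ d, φ.SameCycle (b d) d) ∧ (∀ d d', φ.SameCycle d d' → b d = b d') ∧
      ∀ d, s = some d → b d = d := by
  classical
  let S := Perm.SameCycle.setoid φ
  have h0 : ∀ d, φ.SameCycle (Quotient.out (Quotient.mk S d)) d := fun d =>
    Quotient.exact (Quotient.out_eq (Quotient.mk S d))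
  have h1 : ∀ d d', φ.SameCycle d d' → Quotient.mk S d = Quotient.mk S d' := fun d d' h =>
    Quotient.sound h
  cases s with
  | none =>
    exact ⟨fun d => Quotient.out (Quotient.mk S d), h0, fun d d' h => by simp only [h1 d d' h],
      fun d h => by cases h⟩
  | some s =>
    refine ⟨fun d => if φ.SameCycle s d then s else Quotient.out (Quotient.mk S d), ?_, ?_, ?_⟩
    · intro d
      by_cases h : φ.SameCycle s d
      · simp [h]
      · simpa [h] using h0 d
    · intro d d' h
      have : φ.SameCycle s d ↔ φ.SameCycle s d' := ⟨fun a => a.trans h, fun a => a.trans h.symm⟩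
      simp only [this, h1 d d' h]
    · intro d h
      cases h
      simp [Perm.SameCycle.refl]

/-- coordinates on the cycles -/
theorem exists_coords {D : Type} [Fintype D] [DecidableEq D] (φ : Perm D) (s : Option D) :
    ∃ (b : D → D) (n pos : D → ℕ), (∀ d, pos d < n d) ∧ (∀ d, (φ ^ pos d) (b d) = d) ∧
      (∀ d k, b ((φ ^ k) (b d)) = b d) ∧ (∀ d k, n ((φ ^ k) (b d)) = n d) ∧
      (∀ d k, k < n d → pos ((φ ^ k) (b d)) = k) ∧ (∀ d, (φ ^ n d) (b d) = b d) ∧
      ∀ d, s = some d → pos d = 0 := by
  obtain ⟨b, hb1, hb2, hb3⟩ := exists_base φ s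
  have hper : ∀ d, 0 < Function.minimalPeriod φ d := fun d =>
    Function.minimalPeriod_pos_of_mem_periodicPts (φ.injective.mem_periodicPts d)
  have hex : ∀ d, ∃ k, k < Function.minimalPeriod φ (b d) ∧ (φ ^ k) (b d) = d := by
    intro d
    obtain ⟨i, -, hi⟩ := (hb1 d).exists_pow_eq'
    refine ⟨i % Function.minimalPeriod φ (b d), Nat.mod_lt _ (hper _), ?_⟩
    rw [Perm.coe_pow, Function.iterate_mod_minimalPeriod_eq, ← Perm.coe_pow, hi]
  choose pos hpos1 hpos2 using hex
  have hbb : ∀ d k, b ((φ ^ k) (b d)) = b d := by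
    intro d k
    refine (hb2 _ _ ?_).symm
    exact (hb1 d).symm.trans ⟨(k : ℤ), by simp⟩
  have hinj : ∀ d k, k < Function.minimalPeriod φ (b d) → pos ((φ ^ k) (b d)) = k := by
    intro d k hk
    have h1 := hpos1 ((φ ^ k) (b d))
    have h2 := hpos2 ((φ ^ k) (b d))
    rw [hbb] at h1 h2
    exact Function.iterate_injOn_Iio_minimalPeriod (f := φ) (x := b d) h1 hk
      (by simpa only [Perm.coe_pow] using h2)
  refine ⟨b, fun d => Function.minimalPeriod φ (b d), pos, hpos1, hpos2, hbb,
    fun d k => by simp only [hbb], hinj, fun d => ?_, fun d hd => ?_⟩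
  · rw [Perm.coe_pow]; exact Function.iterate_minimalPeriod
  · have := hinj d 0 (hper _)
    simpa [hb3 d hd] using this

open Classical in
/-- index of the piece of position `r` in a cycle of length `n` -/
noncomputable def J (M : ℕ) (w : Prop) (n r : ℕ) : ℕ := if w then 0 else min (r / M) (n / M - 1)

open Classical in
/-- length of the piece number `j` -/
noncomputable def L (M : ℕ) (w : Prop) (n j : ℕ) : ℕ :=
  if w then n else if j = n / M - 1 then n - j * M else M

theorem J_mul_le (M : ℕ) (w : Prop) (n r : ℕ) : J M w n r * M ≤ r := by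
  unfold J
  split_ifs
  · simp
  · exact (Nat.mul_le_mul_right _ (min_le_left _ _)).trans (Nat.div_mul_le_self _ _)

theorem sub_lt_L {M : ℕ} (hM : 0 < M) (w : Prop) {n r : ℕ} (hr : r < n) :
    r - J M w n r * M < L M w n (J M w n r) := by
  have h0 := J_mul_le M w n r
  unfold L
  split_ifs with hw hj
  · omega
  · omega
  · have : J M w n r = r / M := by
      unfold J at hj ⊢
      rw [if_neg hw] at hj ⊢
      omega
    rw [this]
    have := Nat.mod_lt r hM
    have := Nat.div_add_mod' r M
    omega

theorem J_add {M : ℕ} (hM : 0 < M) (w : Prop) {n r i : ℕ}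
    (hi : i < L M w n (J M w n r)) :
    J M w n r * M + i < n ∧ J M w n (J M w n r * M + i) = J M w n r := by
  have h0 := J_mul_le M w n r
  by_cases hw : w
  · simp only [L, J, hw, if_true] at hi ⊢
    simp [hi]
  · have hle : J M w n r ≤ n / M - 1 := by
      unfold J; rw [if_neg hw]; exact min_le_right _ _
    set j := J M w n r with hj
    have hdiv : (j * M + i) / M = j + i / M := by
      rw [add_comm, Nat.add_mul_div_right _ _ hM, add_comm]
    unfold L at hi
    rw [if_neg hw] at hi
    by_cases hl : j = n / M - 1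
    · rw [if_pos hl] at hi
      refine ⟨by omega, ?_⟩
      unfold J
      rw [if_neg hw, hdiv, ← hl]
      exact min_eq_right (Nat.le_add_right _ _)
    · rw [if_neg hl] at hi
      have h1 : j + 1 ≤ n / M := by omega
      have h2 : (j + 1) * M ≤ n := (Nat.le_div_iff_mul_le hM).mp h1
      refine ⟨by nlinarith, ?_⟩
      unfold J
      rw [if_neg hw, hdiv, Nat.div_eq_of_lt hi, add_zero]
      exact min_eq_left hle

theorem L_bounds {M : ℕ} (hM : 0 < M) {w : Prop} (hw : ¬ w) {n : ℕ} (hn : M ≤ n) (j : ℕ) :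
    M ≤ L M w n j ∧ L M w n j ≤ 2 * M := by
  unfold L
  rw [if_neg hw]
  split_ifs with hl
  · have h1 : 1 ≤ n / M := (Nat.le_div_iff_mul_le hM).mpr (by omega)
    have h2 := Nat.mod_lt n hM
    have h3 := Nat.div_add_mod' n M
    have h4 : n / M = j + 1 := by omega
    rw [h4, add_mul] at h3
    omega
  · omega

end PiecesExAux

open PiecesExAux in
/-- TASK PiecesEx: cut the `φ`-cycles into pieces.  Choose a base dart in every cycle (`s` in its
own cycle).  A cycle of length `n` (`Function.minimalPeriod`) that is `uncut` or has `n ≤ 2M` is one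
piece; otherwise cut it at the multiples `0, M, 2M, ..., (n/M - 1) M` of `M`, so that all pieces
have length `M` except the last one, of length in `[M, 2M)`.  E.g. take for `P` the subtype of
starting darts. -/
theorem exists_pieces {D : Type} [Fintype D] [DecidableEq D] (φ : Perm D) (uncut : D → Prop)
    (hun : ∀ d, uncut (φ d) ↔ uncut d) (s : Option D) (M : ℕ) (hM : 0 < M) :
    ∃ (P : Type) (_ : Fintype P) (_ : DecidableEq P) (Pi : Pieces φ P),
      (∀ p, (Pi.dt p (Pi.len p) = Pi.dt p 0 ∧ (uncut (Pi.dt p 0) ∨ Pi.len p ≤ 2 * M)) ∨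
        (¬ uncut (Pi.dt p 0) ∧ M ≤ Pi.len p ∧ Pi.len p ≤ 2 * M)) ∧
      ∀ d, s = some d → Pi.idx d = 0 := by
  classical
  obtain ⟨b, n, pos, hlt, hpos, hb, hn, hpp, hper, hs⟩ := exists_coords φ s
  have hunk : ∀ k d, uncut ((φ ^ k) d) ↔ uncut d := by
    intro k
    induction k with
    | zero => simp
    | succ k ih => intro d; rw [pow_succ', Perm.mul_apply, hun, ih]
  set w : D → Prop := fun d => uncut (b d) ∨ n d ≤ 2 * M with hw
  set j : D → ℕ := fun d => J M (w d) (n d) (pos d) with hj
  set l : D → ℕ := fun d => L M (w d) (n d) (j d) with hl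
  set idx : D → ℕ := fun d => pos d - j d * M with hidx
  have hwk : ∀ d k, w ((φ ^ k) (b d)) = w d := by
    intro d k; simp only [hw, hb, hn]
  have hle : ∀ d, j d * M ≤ pos d := fun d => J_mul_le _ _ _ _
  have hidxlt : ∀ d, idx d < l d := fun d => sub_lt_L hM _ (hlt d)
  have hlpos : ∀ d, 0 < l d := fun d => lt_of_le_of_lt (Nat.zero_le _) (hidxlt d)
  -- the darts of the piece of `d`
  have hmove : ∀ d i, i < l d → pos ((φ ^ (j d * M + i)) (b d)) = j d * M + i ∧
      j ((φ ^ (j d * M + i)) (b d)) = j d := by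
    intro d i hi
    obtain ⟨h1, h2⟩ := J_add hM (w d) hi
    have h3 := hpp d _ h1
    refine ⟨h3, ?_⟩
    simp only [hj] at h3 ⊢
    rw [hwk, hn, h3, h2]
  have hstart : ∀ d, idx ((φ ^ (j d * M)) (b d)) = 0 := by
    intro d
    obtain ⟨h1, h2⟩ := hmove d 0 (hlpos d)
    rw [add_zero] at h1 h2
    simp only [hidx, h1, h2, Nat.sub_self]
  have hP : ∀ (p : {d // idx d = 0}) i, (φ ^ i) p.1 = (φ ^ (j p.1 * M + i)) (b p.1) := by
    intro p i
    have h1 := p.2
    have h2 := hle p.1
    have h3 : j p.1 * M = pos p.1 := by simp only [hidx] at h1; omega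
    rw [h3, add_comm, pow_add, Perm.mul_apply, hpos]
  refine ⟨{d // idx d = 0}, inferInstance, inferInstance,
    { len := fun p => l p.1
      dt := fun p i => (φ ^ i) p.1
      pc := fun d => ⟨(φ ^ (j d * M)) (b d), hstart d⟩
      idx := idx
      len_pos := fun p => hlpos _
      dt_succ := fun p i => by rw [pow_succ', Perm.mul_apply]
      pc_dt := ?_
      idx_dt := ?_
      idx_lt := ?_
      dt_pc := ?_ }, ?_, ?_⟩
  · intro p i hi
    apply Subtype.ext
    obtain ⟨-, h2⟩ := hmove p.1 i hi
    have := hP p 0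
    simp only [pow_zero, Perm.one_apply, add_zero] at this
    simp only [hP p i, h2, hb]
    exact this.symm
  · intro p i hi
    obtain ⟨h1, h2⟩ := hmove p.1 i hi
    simp only [hP p i, hidx, h1, h2, Nat.add_sub_cancel_left]
  · intro d
    obtain ⟨-, h2⟩ := hmove d 0 (hlpos d)
    rw [add_zero] at h2
    have : l ((φ ^ (j d * M)) (b d)) = l d := by
      simp only [hl]
      rw [hwk, hn, h2]
    simp only [this]
    exact hidxlt d
  · intro d
    have h2 := hle d
    simp only
    rw [← Perm.mul_apply, ← pow_add]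
    have : idx d + j d * M = pos d := by simp only [hidx]; omega
    rw [this, hpos]
  · intro p
    have hu : uncut p.1 ↔ uncut (b p.1) := by
      conv_lhs => rw [← hpos p.1]
      exact hunk _ _
    simp only [pow_zero, Perm.one_apply]
    by_cases hwp : w p.1
    · left
      have h1 : l p.1 = n p.1 := by simp only [hl, L, hwp, if_true]
      rw [h1, hu]
      refine ⟨?_, hwp⟩
      conv_lhs => arg 2; rw [← hpos p.1]
      rw [← Perm.mul_apply, ← pow_add, add_comm, pow_add, Perm.mul_apply, hper, hpos]
    · right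
      have h1 : ¬ uncut (b p.1) := fun h => hwp (Or.inl h)
      have h2 : ¬ n p.1 ≤ 2 * M := fun h => hwp (Or.inr h)
      rw [hu]
      exact ⟨h1, L_bounds hM hwp (by omega) _⟩
  · intro d hd
    simp only [hidx, hs d hd, Nat.zero_sub]

end Crest.Agent.R177
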