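import Crest.Agent.R177.IsoCore
import Crest.Agent.R177.PiecesEx
import Crest.Agent.R177.Euler

set_option autoImplicit false

namespace Crest.Agent.R177

open Equiv

variable {V E T : Type} {Γ : LG V E T}

theorem iso_disc {z : V} {L0 C0 : ℕ} (h : IsoProp Γ z L0 C0) {D : Type} [Fintype D]
    [DecidableEq D] (Δ : Diag Γ D) (hΔ : Δ.IsDisc) : Δ.nInner ≤ 2 * C0 * Δ.nBdry :=
  h D Δ none (fun d _ => hΔ.1 d) hΔ.2 (fun _ h => by cases h)

namespace IsoAux

theorem walk_iterate {D : Type} (Δ : Diag Γ D) (hΔ : ∀ d, Δ.Link d) (ε : D → E × Bool)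
    (hε : ∀ d, Δ.edge d ≠ none → Δ.edge d = some (ε d)) (k : ℕ) (x : D) (hx : Δ.edge x ≠ none) :
    Γ.IsWalk (Γ.st (ε x)) ((List.iterate Δ.φ x k).map ε) (Γ.st (ε (Δ.φ^[k] x))) ∧
      NB ((List.iterate Δ.φ x (k + 1)).map ε) := by
  induction k generalizing x with
  | zero => exact ⟨rfl, by simp [NB]⟩
  | succ k ih =>
    have hx' : Δ.edge (Δ.φ x) ≠ none := fun h => hx ((Δ.edge_φ x).mp h)
    obtain ⟨h1, h2⟩ := hΔ x _ _ (hε x hx) (hε _ hx')
    obtain ⟨i1, i2⟩ := ih (Δ.φ x) hx'
    refine ⟨⟨rfl, ?_⟩, ?_⟩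
    · rw [h1]; exact i1
    · exact List.IsChain.cons_cons h2 i2

/-- a link is not a cancelling corner -/
theorem not_cancel {D : Type} (hi : Γ.Immersed) (Δ : Diag Γ D) {d : D} (hd : Δ.edge d ≠ none)
    (hl : Δ.Link d) : Δ.lab (Δ.φ d) ≠ flp (Δ.lab d) := by
  intro h
  have hd' : Δ.edge (Δ.φ d) ≠ none := fun h => hd ((Δ.edge_φ d).mp h)
  obtain ⟨ε, hε⟩ := Option.ne_none_iff_exists'.mp hd
  obtain ⟨ε', hε'⟩ := Option.ne_none_iff_exists'.mp hd'
  obtain ⟨h1, h2⟩ := hl _ _ hε hε'
  refine h2 (hi _ _ ?_ ?_)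
  · rw [LG.st_flp, h1]
  · rw [LG.lb_flp, ← Δ.lab_edge _ _ hε, ← Δ.lab_edge _ _ hε', h]

open Classical in
/-- declare the face of `d0` to be the boundary -/
noncomputable def cutFace {D : Type} (Δ : Diag Γ D) (hall : ∀ d, Δ.edge d ≠ none) (d0 : D) :
    Diag Γ D where
  φ := Δ.φ
  α := Δ.α
  lab := Δ.lab
  edge d := if Δ.φ.SameCycle d0 d then none else Δ.edge d
  α_α := Δ.α_α
  α_ne := Δ.α_ne
  lab_α := Δ.lab_α
  lab_edge d ε h := by
    split_ifs at h
    exact Δ.lab_edge d ε h
  edge_φ d := by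
    simp only [Perm.sameCycle_apply_right]
    split_ifs
    · rfl
    · exact Δ.edge_φ d
  planar := Δ.planar
  red_α d ε ε' h h' := by
    split_ifs at h h'
    exact Δ.red_α d ε ε' h h'

theorem cutFace_none {D : Type} (Δ : Diag Γ D) (hall : ∀ d, Δ.edge d ≠ none) (d0 d : D) :
    (cutFace Δ hall d0).edge d = none ↔ Δ.φ.SameCycle d0 d := by
  simp only [cutFace]
  split_ifs with h
  · simp [h]
  · simp [h, hall d]

theorem cutFace_some {D : Type} (Δ : Diag Γ D) (hall : ∀ d, Δ.edge d ≠ none) {d0 d : D}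
    {ε : E × Bool} (h : (cutFace Δ hall d0).edge d = some ε) :
    Δ.edge d = some ε ∧ ¬ Δ.φ.SameCycle d0 d := by
  simp only [cutFace] at h
  split_ifs at h with h'
  exact ⟨h, h'⟩

/-- a single cycle is a single piece -/
theorem exists_unit_pieces {D : Type} [Fintype D] [DecidableEq D] (φ : Perm D) (d0 : D)
    (h : ∀ d, φ.SameCycle d0 d) : Nonempty (Pieces φ Unit) := by
  obtain ⟨b, n, pos, hlt, hpos, hb, hn, hpp, -, hs⟩ := PiecesExAux.exists_coords φ (some d0)
  have hb0 : b d0 = d0 := by simpa [hs d0 rfl] using hpos d0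
  have hall : ∀ d, b d = d0 ∧ n d = n d0 := by
    intro d
    obtain ⟨i, -, hi⟩ := (h d).exists_pow_eq'
    have h1 := hb d0 i
    have h2 := hn d0 i
    rw [hb0, hi] at h1 h2
    exact ⟨h1, h2⟩
  refine ⟨
    { len := fun _ => n d0
      dt := fun _ i => (φ ^ i) d0
      pc := fun _ => ()
      idx := pos
      len_pos := fun _ => lt_of_le_of_lt (Nat.zero_le _) (hlt d0)
      dt_succ := fun _ i => by rw [pow_succ', Perm.mul_apply]
      pc_dt := fun _ _ _ => rfl
      idx_dt := fun _ i hi => by simpa only [hb0] using hpp d0 i hi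
      idx_lt := fun d => by simpa only [(hall d).2] using hlt d
      dt_pc := fun d => by simpa only [(hall d).1] using hpos d }⟩

end IsoAux

open IsoAux

/-- TASK Iso (a): an inner `φ`-cycle all of whose corners are links is a nonempty closed `NB` walk
(list `(List.range n).map (edge of φ^i d)`, `n` the minimal period), so it has more than `g` darts. -/
theorem inner_large {g : ℕ} (hg : Γ.GirthGt g) {D : Type} [Fintype D] [DecidableEq D]
    (Δ : Diag Γ D) (hΔ : ∀ d, Δ.Link d) (hne : Δ.nInner ≠ 0) : g < Δ.nInner := by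
  classical
  unfold Diag.nInner at hne ⊢
  obtain ⟨d, hd⟩ := Finset.card_ne_zero.mp hne
  have hd : Δ.edge d ≠ none := by simpa using hd
  obtain ⟨ε0, -⟩ := Option.ne_none_iff_exists'.mp hd
  have hε : ∀ x, Δ.edge x ≠ none → Δ.edge x = some ((Δ.edge x).getD ε0) := by
    intro x hx
    obtain ⟨ε, h⟩ := Option.ne_none_iff_exists'.mp hx
    simp [h]
  have hper : 0 < Function.minimalPeriod Δ.φ d :=
    Function.minimalPeriod_pos_of_mem_periodicPts (Δ.φ.injective.mem_periodicPts d)
  obtain ⟨k, hk⟩ : ∃ k, Function.minimalPeriod Δ.φ d = k + 1 := ⟨_, (Nat.succ_pred_eq_of_pos hper).symm⟩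
  have h1 := (walk_iterate Δ hΔ _ hε (k + 1) d hd).1
  have h2 := (walk_iterate Δ hΔ _ hε k d hd).2
  have h3 : Δ.φ^[k + 1] d = d := by rw [← hk]; exact Function.iterate_minimalPeriod
  rw [h3] at h1
  have h4 := hg _ _ h1 h2 (by simp [List.iterate])
  rw [List.length_map, List.length_iterate, ← hk] at h4
  refine lt_of_lt_of_le h4 ?_
  have hin : ∀ i, Δ.edge (Δ.φ^[i] d) ≠ none := by
    intro i
    induction i with
    | zero => exact hd
    | succ i ih =>
      rw [Function.iterate_succ_apply']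
      exact fun h => ih ((Δ.edge_φ _).mp h)
  rw [← Finset.card_range (Function.minimalPeriod Δ.φ d)]
  refine Finset.card_le_card_of_injOn (fun i => Δ.φ^[i] d) (fun i _ => by simpa using hin i) ?_
  intro i hi j hj hij
  exact Function.iterate_injOn_Iio_minimalPeriod (by simpa using hi) (by simpa using hj) hij

/-- TASK Iso (b): no marked diagram exists.  If `φ^k d0 ≠ d0` for `0 < k < L0` apply `h` with
`brk = some d0`: `nInner ≤ 0`, but `d0` is inner.  Otherwise the cycle of `d0` has `n < L0` darts;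
declare them boundary darts (`edge' d = none` on the cycle of `d0`; same `φ α lab`).  The new diagram
is a disc (a cancelling corner `lab (φ d) = flp (lab d)` with `d ≠ d0` contradicts `Link d` and
`Immersed`), so `nInner' ≤ 2 C0 n < 2 C0 L0`, hence `nInner' = 0` by (a).  Then `D` is one cycle,
a single piece (`P = Unit`), and `euler` gives two darts with `φ (α x) = x`, i.e. two cancelling
corners `d = α x`. -/
theorem iso_marked {z : V} {L0 C0 : ℕ} (hL0 : 0 < L0) (hC0 : 0 < C0) (hi : Γ.Immersed)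
    (hg : Γ.GirthGt (2 * C0 * L0)) (h : IsoProp Γ z L0 C0) {D : Type} [Fintype D]
    [DecidableEq D] (Δ : Diag Γ D) (d0 : D) : ¬ Δ.IsMarked z d0 := by
  classical
  rintro ⟨hall, hlink, hz⟩
  by_cases hk : ∀ k, 0 < k → k < L0 → (Δ.φ ^ k) d0 ≠ d0
  · have h1 := h D Δ (some d0) (fun d hd => hlink d (fun e => hd (by rw [e])))
      ⟨fun d _ hd => absurd hd (hall d), fun d _ hd => absurd hd (hall d)⟩
      (fun d hd => by cases hd; exact ⟨hall _, hz, hk⟩)
    have h2 : Δ.nBdry = 0 := by
      unfold Diag.nBdry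
      rw [Finset.card_eq_zero, Finset.filter_eq_empty_iff]
      exact fun d _ => hall d
    have h3 : Δ.nInner ≠ 0 := by
      unfold Diag.nInner
      exact Finset.card_ne_zero.mpr ⟨d0, by simpa using hall d0⟩
    rw [h2] at h1
    omega
  · push Not at hk
    obtain ⟨k, hk0, hkL, hk⟩ := hk
    have hcan : ∀ d, Δ.lab (Δ.φ d) = flp (Δ.lab d) → d = d0 := by
      intro d hd
      by_contra hne
      exact not_cancel hi Δ (hall d) (hlink d hne) hd
    set Δ' := cutFace Δ hall d0 with hΔ'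
    have hl' : ∀ d, Δ'.Link d := by
      intro d ε ε' h1 h2
      obtain ⟨a1, a2⟩ := cutFace_some Δ hall h1
      obtain ⟨a3, -⟩ := cutFace_some Δ hall h2
      refine hlink d ?_ ε ε' a1 a3
      rintro rfl
      exact a2 (Perm.SameCycle.refl _ _)
    have hdisc : Δ'.IsDisc := by
      refine ⟨hl', fun d d' h1 h2 => ?_, fun d d' _ _ h1 h2 => ?_⟩
      · exact ((cutFace_none Δ hall d0 d).mp h1).symm.trans ((cutFace_none Δ hall d0 d').mp h2)
      · exact (hcan d h1).trans (hcan d' h2).symm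
    have h1 := iso_disc h Δ' hdisc
    have h2 : Δ'.nBdry ≤ k := by
      unfold Diag.nBdry
      refine le_trans (Finset.card_le_card (t := (Finset.range k).image (fun i => (Δ.φ ^ i) d0)) ?_)
        (Finset.card_image_le.trans (Finset.card_range k).le)
      intro d hd
      have hd : Δ'.edge d = none := by simpa using hd
      obtain ⟨i, -, hi⟩ := ((cutFace_none Δ hall d0 d).mp hd).exists_pow_eq'
      refine Finset.mem_image.mpr ⟨i % k, Finset.mem_range.mpr (Nat.mod_lt _ hk0), ?_⟩
      have hp : Function.IsPeriodicPt Δ.φ k d0 := by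
        unfold Function.IsPeriodicPt Function.IsFixedPt
        rw [← Perm.coe_pow]; exact hk
      rw [Perm.coe_pow, hp.iterate_mod_apply, ← Perm.coe_pow, hi]
    have h3 : Δ'.nInner = 0 := by
      by_contra hne
      have h4 := inner_large hg Δ' hl' hne
      have h5 : 2 * C0 * Δ'.nBdry ≤ 2 * C0 * L0 := Nat.mul_le_mul_left _ (by omega)
      omega
    have h4 : ∀ d, Δ.φ.SameCycle d0 d := by
      intro d
      unfold Diag.nInner at h3
      rw [Finset.card_eq_zero, Finset.filter_eq_empty_iff] at h3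
      have := h3 (Finset.mem_univ d)
      exact (cutFace_none Δ hall d0 d).mp (not_not.mp this)
    obtain ⟨Pi⟩ := exists_unit_pieces Δ.φ d0 h4
    haveI : Nonempty D := ⟨d0⟩
    have h5 := euler Δ.φ Δ.α Δ.α_α Δ.α_ne Δ.planar Pi
    have h6 : (Finset.univ.filter (fun x => Δ.φ (Δ.α x) = x)).card ≤ 1 := by
      refine Finset.card_le_one.mpr fun x hx y hy => ?_
      have key : ∀ x, Δ.φ (Δ.α x) = x → Δ.α x = d0 := by
        intro x hx
        apply hcan
        rw [hx, Δ.lab_α, flp_flp]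
      have hx := key x (by simpa using hx)
      have hy := key y (by simpa using hy)
      exact Δ.α.injective (hx.trans hy.symm)
    rw [Fintype.card_unit] at h5
    omega

end Crest.Agent.R177
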