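import Crest.Agent.R177.NoK8.Minor
import Crest.Agent.R177.NoK8.Count

set_option autoImplicit false

namespace Crest.Agent.R177

open Equiv NoK8Aux

/-- TASK NoK8: the piece graph of a planar map has no `K_8` minor.
Proof: let `B_0..B_7` be branch sets; for `i < j` choose a dart `ε i j` with `pc (ε i j) ∈ B i`,
`pc (α (ε i j)) ∈ B j`.  Call a dart `d` selected if `pc d` and `pc (α d)` lie in the same `B i`, or
`d` or `α d` is some `ε i j`.  Let `Cyc` be the space of `α`-invariant `z : D → ZMod 2` supported on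
selected darts with zero sum on every piece, and `proj z (i,j) = z (ε i j)` in `F_2^28`.
(a) `proj` is onto the even subgraphs of `K_8` (a space of dimension `≥ 28 - 8 = 20`, kernel of the
degree map `F_2^28 → F_2^8`): given an even subgraph, the defects on the pieces of `B i` have total
sum `0`, and in a connected graph every `f : B i → F_2` of total sum `0` is the boundary of a set of
inner edges (the boundaries `δ_p + δ_p'` of adjacent pieces span, by induction along walks).
(b) every `z ∈ Cyc` is `δχ` (`δχ d = χ (φ d) + χ d`) by planarity (potential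
`ψ (dt p i) = ∑ k < i, z (dt p k)` as in Euler.lean), and `χ` is constant on the classes (regions) of
the equivalence relation generated by `α d ~ φ d`, `d ~ φ d` for unselected `d`,
`dt p 0 ~ dt p (len p)`.  So `z` is a sum of the `δ 1_r` over regions `r`; each `δ 1_r ∈ Cyc`.
(c) `proj (δ 1_r)` is an even subgraph of `K_8`, hence `0` or has at least 3 edges, and each pair
`(i,j)` lies in `proj (δ 1_r)` for at most two regions (those of `ε i j` and `φ (ε i j)`).  So at most
`56/3 < 19` regions have nonzero projection, and they span a space of dimension `≥ 20`. -/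
theorem noK8 {D P : Type} [Fintype D] [DecidableEq D] [Fintype P] [DecidableEq P] (φ α : Perm D)
    (hα : ∀ d, α (α d) = d) (hα' : ∀ d, α d ≠ d) (hpl : Planar φ α) (Pi : Pieces φ P) :
    ¬ HasCliqueMinor (Pi.graph α) 8 := by
  intro h
  obtain ⟨S⟩ := exists_setup Pi hα h
  obtain ⟨cl, hcl⟩ : ∃ cl : D → ({χ // S.Adm χ} → ZMod 2), ∀ d χ, cl d χ = χ.1 d :=
    ⟨fun d χ => χ.1 d, fun _ _ => rfl⟩
  refine @count_false _ (Classical.decEq _) (fun i j => cl (S.ε i j)) ?_ ?_
  · intro r i
    have hc : ∀ {d d'}, (∀ ξ : {χ // S.Adm χ}, ξ.1 d = ξ.1 d') → cl d = cl d' :=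
      fun h => funext fun ξ => by rw [hcl, hcl, h]
    refine S.even hα hα'
      (χ := fun d => @ite _ (cl d = r) (Classical.decEq _ _ _) 1 0) ⟨?_, ?_, ?_⟩ i
    · intro d
      have h1 : cl (α d) = cl (φ d) := hc (fun ξ => ξ.2.1 d)
      exact congrArg (fun x => @ite (ZMod 2) (x = r) (Classical.decEq _ _ _) 1 0) h1
    · intro d hd
      have h1 : cl (φ d) = cl d := hc (fun ξ => ξ.2.2.1 d hd)
      exact congrArg (fun x => @ite (ZMod 2) (x = r) (Classical.decEq _ _ _) 1 0) h1
    · intro p
      have h1 : cl (Pi.dt p (Pi.len p)) = cl (Pi.dt p 0) := hc (fun ξ => ξ.2.2.2 p)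
      exact congrArg (fun x => @ite (ZMod 2) (x = r) (Classical.decEq _ _ _) 1 0) h1
  · rintro ⟨⟨i, j⟩, hi, hij⟩
    obtain ⟨χ, hχ, H⟩ := S.triangle hα hpl hi hij
    refine ⟨fun r => r ⟨χ, hχ⟩, ?_⟩
    rintro ⟨⟨a, b⟩, ha, hab⟩
    simp only [hcl, H a b ha hab, Subtype.mk.injEq, Prod.mk.injEq]

end Crest.Agent.R177
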