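import Crest.Agent.R177.Sep
import Crest.Agent.R177.Euler
import Crest.Agent.R177.NoK8
import Crest.Agent.R177.PiecesEx
import Crest.Agent.R177.IsoCore.Global

set_option autoImplicit false

namespace Crest.Agent.R177

open Equiv

/-- the global isoperimetric inequality for diagrams over `Γ` with at most one broken corner -/
def IsoProp {V E T : Type} (Γ : LG V E T) (z : V) (L0 C0 : ℕ) : Prop :=
  ∀ (D : Type) [Fintype D] [DecidableEq D] (Δ : Diag Γ D) (brk : Option D),
    (∀ d, some d ≠ brk → Δ.Link d) → Δ.OneBdry →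
    (∀ d0, brk = some d0 → Δ.edge d0 ≠ none ∧
      (∀ ε, Δ.edge (Δ.φ d0) = some ε → Γ.st ε = z) ∧
      ∀ k, 0 < k → k < L0 → (Δ.φ ^ k) d0 ≠ d0) →
    Δ.nInner ≤ 2 * C0 * Δ.nBdry

/-- TASK IsoCore: local to global.
Proof.  Let `M = Cm * L0`, `m = K' * ..` large constants depending only on `C0, Cm` (see the end),
`K` from `sep 8 m`.  If there is no inner dart there is nothing to prove.  Take `exists_pieces` with
`uncut d := edge d = none`, `s = brk.map φ`.  There is at most one boundary piece (whole cycle,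
`OneBdry.1`); every inner piece has `L0 ≤ len ≤ 2M`: whole unbroken cycles are nonempty closed `NB`
walks (girth), the whole broken cycle by hypothesis, arcs since `M ≥ L0`.  Let `n` = number of inner
pieces, `Λ = nInner ≥ L0 n`, `|P| ≤ n + 1 ≤ 2n`.  `#{φ α x = x} ≤ 2`: for `d = α x` one has
`φ d = α d`; if `d` is inner and not the break, `Link d`, `lab_α`, `lab_edge`, `Immersed` force
`edge (φ d) = flp (edge d)`, contradiction; boundary ones by `OneBdry.2`.  So `euler` gives
`#bad ≤ 6 |P|` where `d` is bad if `φ α φ α (φ d) ≠ φ d`; if `d` is not bad and `φ d ≠ α d`, or in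
general whenever `φ (α (φ d)) = α d`, the pairing continues: `α (φ d) = φ⁻¹ (α d)`.
(Precisely: `x = φ d = ρ (α d)`; `ρ ρ x = x` gives `ρ x = α d`, i.e. `φ α φ d = α d`.)
Let `X'` = separator `X` of `sep` for `Pi.graph α` (`noK8`), plus the boundary piece, plus the pieces
with more than `K'` bad darts (at most `12 n / K'` of them).  For each class `𝒞 = {p ∉ X', c p = k}`
(at most `K` pieces, enumerate by an injection into `Fin K`, unused indices get length `0`) build a
`Config Γ z K B L0 M`: `ed (p,i)` = edge of `dt p i`, `pr (p,i) = some (pc (α d), idx (α d))` if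
`pc (α d) ∈ 𝒞` (`d = dt p i`, `i < len p`), else `none`.  Break points: `d` bad (`≤ K K'`), or
`α d ∈ 𝒞` has `idx = 0` (`≤ K`), or `α (φ d) ∈ 𝒞` is the last dart of its piece (`≤ K`); so
`B = K K' + 2 K`.  An unpaired dart has its partner in a piece of `X'` (partners in pieces outside
`X'` are in the same class, adjacent or equal).  Sum `LIP` over the classes:
`Λ - 2M x ≤ C0 (nBdry + 2M x)` with `x ≤ 2n/m + 12 n/K'` the number of removed inner pieces, and
`2 M x (1 + C0) ≤ Λ/2` once `m, K' ≥ 64 Cm (1 + C0)` or so, as `Λ ≥ L0 n`. -/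
theorem iso_core (C0 Cm : ℕ) (hC0 : 0 < C0) (hCm : 0 < Cm) : ∃ K B : ℕ,
    ∀ (V E T : Type) (Γ : LG V E T) (z : V) (L0 : ℕ), 0 < L0 → Γ.Immersed → Γ.GirthGt L0 →
      Γ.LIP z K B L0 (Cm * L0) C0 → IsoProp Γ z L0 C0 := by
  obtain ⟨K, hK⟩ := sep 8 (56 * Cm * (C0 + 1))
  refine ⟨K, K * (56 * Cm * (C0 + 1)) + 2 * K, ?_⟩
  intro V E T Γ z L0 hL0 hi hg hL D _ _ Δ brk hlink hone hbrk
  have hM : 0 < Cm * L0 := Nat.mul_pos hCm hL0
  obtain ⟨P, _, _, Pi, hP, hs⟩ := exists_pieces Δ.φ (fun d => Δ.edge d = none) Δ.edge_φ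
    (brk.map Δ.φ) (Cm * L0) hM
  have hs' : ∀ d0, brk = some d0 → Pi.idx (Δ.φ d0) = 0 := fun d0 h => hs _ (by rw [h]; rfl)
  rcases isEmpty_or_nonempty D with hD | hD
  · simp [Diag.nInner]
  obtain ⟨X, c, hX, hc, hcK⟩ := hK P (Pi.graph Δ.α)
    (noK8 Δ.φ Δ.α Δ.α_α Δ.α_ne Δ.planar Pi)
  have he := euler Δ.φ Δ.α Δ.α_α Δ.α_ne Δ.planar Pi
  have h2 := IsoCoreAux.card_fix_le hi Δ brk hlink hone
  exact IsoCoreAux.global Δ Pi brk hCm hg hL hlink hone hbrk hP hs' X c hX hc hcK (by omega)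

end Crest.Agent.R177
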