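import Crest.Agent.R177.Jumps.Count

set_option autoImplicit false

namespace Crest.Agent.R177

open Equiv

/-- TASK Jumps.  Cut each walk into at most `2 Cm` blocks of `L0` darts.  A block passes over an edge
at most once, so `mult x ≤ 2 Cm K`.  For blocks `b, b'` the darts of `b` whose edge occurs in `b'` form an
interval (`coincide`, `pat_sameE`), so `mult` changes between `(p,i)` and `(p,i+1)` only at block ends
and at ends of these intervals: at most `B1 (K, Cm)` jumps.  A run of level `j` starts at `i = 0` or at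
a jump.  For a leaf representative `x` the neighbouring dart through the `U` end of `x` is missing
(end of the walk) or is a different edge (`nb`) at the same `U` vertex, hence not of level `j`: a jump
or an end is adjacent to `x`. -/
theorem jumps (K Cm : ℕ) : ∃ B2 : ℕ, ∀ (V E T : Type) (Γ : LG V E T) (z : V) (B L0 : ℕ),
    0 < L0 → Γ.Bip → Γ.GirthGt (2 * L0) → ∀ c : Config Γ z K B L0 (Cm * L0),
      (∀ x ∈ darts c.len, c.pat.mult x ≤ 2 * Cm * K) ∧
      ∀ j, c.pat.nRun j ≤ B2 ∧ c.pat.nLeaf j ≤ B2 := by
  refine ⟨2 * K + 2 * (K * (2 * Cm) * (K * (2 * Cm) * 3)), ?_⟩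
  intro V E T Γ z B L0 hL hb hg c
  refine ⟨fun x hx => JumpsAux.mult_le c hL hb hg x hx, fun j => ⟨?_, ?_⟩⟩
  · have h1 := JumpsAux.nRun_le c j
    have h2 := JumpsAux.card_jumps_le c hL hb hg
    omega
  · have h1 := JumpsAux.nLeaf_le c hL hb hg j
    have h2 := JumpsAux.card_jumps_le c hL hb hg
    omega

end Crest.Agent.R177
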