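import Crest.Agent.R177.Switch
import Crest.Agent.R177.LevelCount.Stages

set_option autoImplicit false

namespace Crest.Agent.R177

open Equiv

/-- TASK LevelCount: first moment bound for one pattern and one level.
For each `σ` in the set choose a configuration `c`; let `h σ` be the set of pairs
`((c.ed x).1, σ (c.ed x).1)`, `x ∈ J j`; it has `nE j` elements, so by `good_count` it suffices to bound
the number of possible `h`.  `h` is determined by four functions on `J j`: letter, colour, `U` vertex,
connector.  Count them in stages (general lemma: a finite set `𝓕` of functions on a finite linearly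
ordered index set, with at most `b i` values at `i` once the earlier values are fixed, has at most
`∏ b i` elements; or: restriction to the free indices is injective).
(1) Letters on all darts `x` with `j ≤ mW x`: the letters at one connector are determined by those of
two darts over different edges (a third letter is related by `π` to the first and differs from the
second, `slots_blk`), resp. by one letter if there is only one edge; so `≤ Q` choices for a free
connector (`blkPairs`, `card T ≤ Q`) and none for a `det` one (`pr_lab`, induction along `before`,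
which is a strict order whose initial segments are the levels).
(2) Colours: consecutive darts of `J j` share their `U` vertex (same colour) or their connector
(`slots_col`), so only run starts are free.
(3) `U` vertices: `1` choice if marked, `≤ N + 1` if two different edges of level `j` (two different
letters, `pair`), `≤ (q+1) N + 1 ≤ (q+1)(N+1)` otherwise (`upper`).
(4) connectors: `≤ (q+1) N + 1` (`card_eq`, `upper`). -/
theorem level_count {T C U W : Type} [Fintype T] [DecidableEq T] [Fintype C] [DecidableEq C]
    [Fintype U] [DecidableEq U] [Fintype W] [DecidableEq W] (Y : SlotSys T C U W) {π : Perm T}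
    {τ : T → T → C → C} {q N Q : ℕ} (hB : Y.Bounds π τ q N) (hQ1 : Fintype.card T ≤ Q)
    (hQ2 : (blkPairs π).card ≤ Q) (g : ℕ) (hg : 2 ≤ g) (z : U) {K : ℕ} (B L0 M : ℕ) (P : Pat K)
    (j : ℕ) (hj : 1 ≤ j) (𝒜 : Finset Y.Matching) (h𝒜 : 𝒜 ⊆ Y.Good g)
    (hP : ∀ σ ∈ 𝒜, ∃ c : Config (Y.graph σ) (Sum.inl z) K B L0 M, c.pat = P) :
    𝒜.card * ((q + 1) * N - (P.nE j + 2 * (Fintype.card T + 3) ^ (g + 1))) ^ P.nE j ≤
      Q ^ P.nFree j * Fintype.card C ^ P.nRun j * (N + 1) ^ P.nU j * (q + 1) ^ P.nLeaf j *
        ((q + 1) * N + 1) ^ P.nW j * (Y.Good g).card := by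
  classical
  rcases 𝒜.eq_empty_or_nonempty with rfl | ⟨σ0, hσ0⟩
  · simp
  have hex : ∀ σ ∈ 𝒜, ∃ e : Fin K × ℕ → Y.E, LevelCountAux.IsRz Y z P σ e := by
    intro σ hσ
    obtain ⟨c, rfl⟩ := hP σ hσ
    have hG : (Y.graph σ).GirthGt g := by
      have := h𝒜 hσ
      unfold SlotSys.Good at this
      exact (Finset.mem_filter.1 this).2
    exact ⟨_, LevelCountAux.isRz_of_config (hG.mono hg) c⟩
  have : Nonempty (Fin K × ℕ → Y.E) := ⟨(hex σ0 hσ0).choose⟩
  choose! e he using hex
  refine le_trans (LevelCountAux.card_mul_le_cnt_mul 𝒜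
    (fun σ => (P.J j).image (fun x => (e σ x, σ.1 (e σ x)))) _ (Y.Good g).card ?_)
    (Nat.mul_le_mul_right _ (LevelCountAux.cnt_pairs_le hB hQ1 hQ2 hj 𝒜 he))
  intro σ1 hσ1 ℬ hℬ
  have h1 := good_count Y hB g ((P.J j).image (fun x => (e σ1 x, σ1.1 (e σ1 x))))
  rw [LevelCountAux.card_image_J (he σ1 hσ1) j] at h1
  refine le_trans (Nat.mul_le_mul_right _ (Finset.card_le_card ?_)) h1
  intro σ hσ'
  have hσ := hℬ σ hσ'
  simp only [Finset.mem_filter]
  refine ⟨h𝒜 hσ.1, fun x hx => ?_⟩
  rw [← hσ.2] at hx
  obtain ⟨y, -, rfl⟩ := Finset.mem_image.1 hx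
  rfl

end Crest.Agent.R177
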