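import Crest.Agent.R177.DefsPat
import Crest.Agent.R177.Levels.Free

set_option autoImplicit false

namespace Crest.Agent.R177

open Equiv

/-! TASK Levels: the level sums (Ollivier's trick).  Use the dictionary `pat_sameE` etc.
`Λ = c.total`, `μ` bounds all multiplicities.
(a) `∑ j, nE j = ∑ over edges of mult = Λ`.
(b) `∑ j, nU j = ∑ over unmarked U vertices v of (max mult of an edge at v)`, same for `nW`.  The darts
over an edge `ε` at `v` inject into the visits of `v` (vertex positions with `vtx = v`, identifying the
last with the first position of a closed walk): two darts sharing a visit are consecutive, and would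
backtrack.  The number of visits is `Λ + #(nonempty walks that are not closed)`, and each walk that
starts at `z` has a visit at `z`, which is a `U` vertex and is not counted.  So the excess is at most
the number `a` of walks of length `≥ M`.
(c) the `W` positions of a walk of length `n` number at most `n/2 + 1`.
(d) call `(p,i)` a pass if `i + 1 < len p` and `o (p,i) = true`, good if `pr (p,i) = some (p',i'+1)`,
`pr (p,i+1) = some (p',i')`.  There are at least `Λ/2 - K` passes, at most `unp + B` of them are not
good.  `(p,i) ↦ (p',i')` is an involution on good passes, and the two connectors differ (same letter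
at the same connector means same edge by `Immersed`, contradicting `pr_red`); `before` is total on
different connectors, so one of the two connectors is `det`.  Hence
`∑ j, nFree j ≤ ∑ free κ, visits κ ≤ (Λ/2 + K) - (number of good passes)/2`. -/

variable {V E T : Type} {Γ : LG V E T} {z : V} {K B L0 M : ℕ} (c : Config Γ z K B L0 M)

theorem levels_E (hb : Γ.Bip) (hg : Γ.GirthGt 2) {μ : ℕ}
    (hμ : ∀ x ∈ darts c.len, c.pat.mult x ≤ μ) :
    ∑ j ∈ Finset.Icc 1 μ, c.pat.nE j = c.total :=
  LevelsAux.levels_E' c hb hg hμ

theorem levels_V (hb : Γ.Bip) (hg : Γ.GirthGt 2) (hz : ∀ e, Γ.tgt e ≠ z) (μ : ℕ) :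
    ∃ a : ℕ, a * M ≤ c.total ∧
      ∑ j ∈ Finset.Icc 1 μ, (c.pat.nU j + c.pat.nW j) ≤ c.total + a :=
  LevelsAux.levels_V' c hb hg hz μ

theorem levels_W (hb : Γ.Bip) (hg : Γ.GirthGt 2) (μ : ℕ) :
    2 * ∑ j ∈ Finset.Icc 1 μ, c.pat.nW j ≤ c.total + 2 * K :=
  LevelsAux.levels_W' c hb hg μ

theorem levels_free (hb : Γ.Bip) (hi : Γ.Immersed) (hg : Γ.GirthGt 2) (μ : ℕ) :
    4 * ∑ j ∈ Finset.Icc 1 μ, c.pat.nFree j ≤ c.total + 2 * c.unp + 6 * K + 2 * B :=
  LevelsAux.levels_free' c hb hi hg μ

end Crest.Agent.R177
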