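import Crest.Agent.R177.Realize.Top

set_option autoImplicit false

namespace Crest.Agent.R177

/-- TASK Realize.  Let `Cell = X0 ⊕ X1 ⊕ X2` and `Y ⊆ (Cell → ℝ)` (product topology) the set of the
points `pt x = δ_x`, `ed e s = (1-s) δ_{s e} + s δ_{t e} + s(1-s) δ_e`,
`tr f (s,t) = l0 δ_{v0} + l1 δ_{v1} + l2 δ_{v2} + l0 l1 δ_{d2 f} + l1 l2 δ_{d0 f} + l0 l2 δ_{d1 f}
 + l0 l1 l2 δ_f` with `(l0,l1,l2) = (1-s, s(1-t), s t)` (`Pi.single`; the three vertices and the three
edges of a triangle are distinct by `Simplicial`).  `G` acts by `(g • y) c = y (g⁻¹ • c)`.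
The complex is locally finite (free action on `X0`, finitely many orbits of edges and triangles).
The open stars `{y | y (inl x) > 0}` cover `Y` and meet only finitely many closed cells, which are
compact; this gives `closed` (`LocallyFinite`), local compactness, and proper discontinuity
(a compact set meets finitely many cells).  The action is free on points because it is free on
cells and `cellMap` is bijective.  Then use
`isQuotientCoveringMap_quotientMk_of_properlyDiscontinuousSMul` and
`t2Space_of_properlyDiscontinuousSMul_of_t2Space`. -/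
theorem exists_realz {G X0 X1 X2 : Type} [Group G] [MulAction G X0] [MulAction G X1]
    [MulAction G X2] (K : Cx X0 X1 X2) (hs : K.Simplicial) (ha : K.Act G) :
    ∃ (Y : Type) (_ : TopologicalSpace Y) (_ : MulAction G Y) (R : Realz K Y), R.Act G := by
  let := RealizeAux.actY ha
  have := RealizeAux.continuousConstSMul ha
  have := RealizeAux.isCancelSMul hs ha
  have := RealizeAux.properlyDiscontinuous hs ha
  have := RealizeAux.locallyCompact hs ha
  refine ⟨RealizeAux.YS K, inferInstance, RealizeAux.actY ha,
    { pt := RealizeAux.ptY K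
      ed := RealizeAux.edY K
      tr := RealizeAux.trY hs
      ed_zero := fun e => Subtype.ext (RealizeAux.edE_zero K e)
      ed_one := fun e => Subtype.ext (RealizeAux.edE_one K e)
      tr_s0 := fun f s => Subtype.ext (RealizeAux.trE_s0 K f s)
      tr_s1 := fun f s => Subtype.ext (RealizeAux.trE_s1 hs f s)
      tr_1t := fun f t => Subtype.ext (RealizeAux.trE_1t hs f t)
      tr_0t := fun f t => Subtype.ext (RealizeAux.trE_0t K f t)
      bij := RealizeAux.cellMapY_bijective hs
      closed := RealizeAux.closed_of hs ha }, ?_⟩
  exact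
    { pt_smul := fun g x => Subtype.ext (RealizeAux.actE_pt g x)
      ed_smul := fun g e s => Subtype.ext (RealizeAux.actE_ed ha g e s)
      tr_smul := fun g f p => Subtype.ext (RealizeAux.actE_tr ha g f p)
      cov := isQuotientCoveringMap_quotientMk_of_properlyDiscontinuousSMul
      t2 := t2Space_of_properlyDiscontinuousSMul_of_t2Space }

end Crest.Agent.R177
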