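import Crest.Agent.R177.Main0
import Crest.Agent.R177.Realize
import Crest.Agent.R177.CWQuot
import Crest.Agent.R177.Contract

/-!
# The master theorem of the row 177 project
-/

set_option autoImplicit false

namespace Crest.Agent.R177

theorem master (p : ℕ) [Fact p.Prime] :
    ∃ (G : Type) (_ : Group G), Group.IsFinitelyPresented G ∧ Group.FG G ∧
      (∀ g : G, IsOfFinOrder g → g = 1) ∧ Crest.Topology.HasFiniteClassifyingComplex G 2 ∧
      Crest.GroupTheory.IsHyperbolicGroup G ∧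
      ∃ a b c : MonoidAlgebra (ZMod p) G, a * b = 1 ∧ a * c = 0 ∧ c ≠ 0 := by
  obtain ⟨G, iG, h1, h2, h3, ⟨X0, X1, X2, m0, m1, m2, Kx, hs, ha, hc⟩, h5, h6⟩ := master0 p
  obtain ⟨Yt, tY, mY, R, hR⟩ := exists_realz Kx hs ha
  have := contractible_realz Kx hs hc R
  exact ⟨G, iG, h1, h2, h3, classifying_of_contractible Kx ha R hR, h5, h6⟩

end Crest.Agent.R177
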