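import Crest.Agent.R177.Coincide

set_option autoImplicit false

namespace Crest.Agent.R177

open Equiv

namespace PatCountAux

/-- polynomially bounded functions of `L0` -/
def PolyB (f : ℕ → ℕ) : Prop := ∃ d : ℕ, ∀ L : ℕ, 0 < L → f L ≤ (L + 1) ^ d

theorem PolyB.const (c : ℕ) : PolyB (fun _ => c) :=
  ⟨c, fun L hL => (Nat.lt_two_pow_self).le.trans (Nat.pow_le_pow_left (by omega) c)⟩

theorem PolyB.id : PolyB (fun L => L) := ⟨1, fun L _ => by simp⟩

theorem PolyB.mul {f g : ℕ → ℕ} (hf : PolyB f) (hg : PolyB g) : PolyB (fun L => f L * g L) := by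
  obtain ⟨d, hd⟩ := hf
  obtain ⟨e, he⟩ := hg
  exact ⟨d + e, fun L hL => by rw [pow_add]; exact Nat.mul_le_mul (hd L hL) (he L hL)⟩

theorem PolyB.add {f g : ℕ → ℕ} (hf : PolyB f) (hg : PolyB g) : PolyB (fun L => f L + g L) := by
  obtain ⟨d, hd⟩ := hf
  obtain ⟨e, he⟩ := hg
  refine ⟨d + e + 1, fun L hL => ?_⟩
  have h1 : (L + 1) ^ d ≤ (L + 1) ^ (d + e) := Nat.pow_le_pow_right (by omega) (by omega)
  have h2 : (L + 1) ^ e ≤ (L + 1) ^ (d + e) := Nat.pow_le_pow_right (by omega) (by omega)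
  have h3 : (L + 1) ^ (d + e) * 2 ≤ (L + 1) ^ (d + e) * (L + 1) :=
    Nat.mul_le_mul_left _ (by omega)
  have := hd L hL
  have := he L hL
  rw [pow_succ]
  show f L + g L ≤ _
  omega

theorem PolyB.pow {f : ℕ → ℕ} (hf : PolyB f) (k : ℕ) : PolyB (fun L => f L ^ k) := by
  obtain ⟨d, hd⟩ := hf
  exact ⟨d * k, fun L hL => by rw [pow_mul]; exact Nat.pow_le_pow_left (hd L hL) k⟩

/-- optional positions with bounded index -/
abbrev OP (K N : ℕ) : Type := Option (Fin K × Fin N)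

def OP.val {K N : ℕ} (o : OP K N) : Option (Fin K × ℕ) := o.map (fun x => (x.1, x.2.val))

theorem exists_OP {K N : ℕ} (o : Option (Fin K × ℕ)) (h : ∀ y, o = some y → y.2 < N) :
    ∃ o' : OP K N, o'.val = o := by
  cases o with
  | none => exact ⟨none, rfl⟩
  | some y => exact ⟨some (y.1, ⟨y.2, h y rfl⟩), rfl⟩

/-- codes of patterns -/
abbrev Code (K B A N : ℕ) : Type :=
  (Fin K → Fin N) × (Fin K → Bool) ×
    ((Fin K × Fin A) × (Fin K × Fin A) → Fin N × Fin N × Fin N × Bool) × OP K N ×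
    (Fin K → OP K N) × (Fin B → OP K N) × (Fin B → OP K N)

theorem card_Code (K B A N : ℕ) : Fintype.card (Code K B A N) =
    N ^ K * (2 ^ K * ((N * (N * (N * 2))) ^ (K * A * (K * A)) * ((K * N + 1) *
      ((K * N + 1) ^ K * ((K * N + 1) ^ B * (K * N + 1) ^ B))))) := by
  simp [Code, OP]

/-- the coincidence relation described by four parameters -/
def Seg (i0 i0' n : ℕ) (s : Bool) (i i' : ℕ) : Prop :=
  ∃ k < n, i = i0 + k ∧ (if s then i' = i0' + k else i' + k = i0')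

/-- the code describes the pattern -/
structure Codes {K B A N : ℕ} (L0 : ℕ) (w : Code K B A N) (π : Pat K) : Prop where
  len : ∀ p, π.len p = (w.1 p).val
  ori : π.ori = w.2.1
  R : ∀ x y, (x, y) ∈ π.R ↔ x ∈ verts π.len ∧ y ∈ verts π.len ∧ ∃ a a' : Fin A,
    a.val = x.2 / L0 ∧ a'.val = y.2 / L0 ∧
      Seg (w.2.2.1 ((x.1, a), (y.1, a'))).1 (w.2.2.1 ((x.1, a), (y.1, a'))).2.1
        (w.2.2.1 ((x.1, a), (y.1, a'))).2.2.1 (w.2.2.1 ((x.1, a), (y.1, a'))).2.2.2 x.2 y.2
  Z : ∀ x, x ∈ π.Z ↔ ∃ y, w.2.2.2.1.val = some y ∧ (x, y) ∈ π.R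
  pr_out : ∀ x : Fin K × ℕ, ¬ x.2 < π.len x.1 → π.pr x = none
  pr_zero : ∀ p, π.pr (p, 0) = (w.2.2.2.2.1 p).val
  pr_brk : ∀ j p i, (w.2.2.2.2.2.1 j).val = some (p, i) → π.pr (p, i + 1) = (w.2.2.2.2.2.2 j).val
  pr_smooth : ∀ p i, i + 1 < π.len p → (∀ j, (w.2.2.2.2.2.1 j).val ≠ some (p, i)) →
    Smooth π.pr (p, i)

theorem Codes.unique {K B A N L0 : ℕ} {w : Code K B A N} {π π' : Pat K} (h : Codes L0 w π)
    (h' : Codes L0 w π') : π = π' := by
  have hlen : π.len = π'.len := funext fun p => (h.len p).trans (h'.len p).symm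
  have hR : π.R = π'.R := by
    ext ⟨x, y⟩
    rw [h.R, h'.R, hlen]
  refine Pat.ext hlen (h.ori.trans h'.ori.symm) hR ?_ ?_
  · funext ⟨p, i⟩
    induction i with
    | zero => rw [h.pr_zero, h'.pr_zero]
    | succ i ih =>
      by_cases hi : i + 1 < π.len p
      · by_cases hj : ∃ j, (w.2.2.2.2.2.1 j).val = some (p, i)
        · obtain ⟨j, hj⟩ := hj
          rw [h.pr_brk j p i hj, h'.pr_brk j p i hj]
        · have hj' : ∀ j, (w.2.2.2.2.2.1 j).val ≠ some (p, i) := fun j hh => hj ⟨j, hh⟩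
          have s1 := h.pr_smooth p i hi hj'
          have s2 := h'.pr_smooth p i (hlen ▸ hi) hj'
          rcases s1 with ⟨a1, a2⟩ | ⟨p1, i1, a1, a2⟩ <;>
            rcases s2 with ⟨b1, b2⟩ | ⟨p2, i2, b1, b2⟩
          · exact a2.trans b2.symm
          · rw [ih, b1] at a1
            exact absurd a1 (by simp)
          · rw [ih, b1] at a1
            exact absurd a1 (by simp)
          · rw [ih, b1] at a1
            simp only [Option.some.injEq, Prod.mk.injEq, Nat.add_right_cancel_iff] at a1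
            obtain ⟨rfl, rfl⟩ := a1
            exact a2.trans b2.symm
      · rw [h.pr_out (p, i + 1) hi, h'.pr_out (p, i + 1) (hlen ▸ hi)]
  · ext x
    rw [h.Z, h'.Z, hR]

theorem coincide_bdd {V E T : Type} {Γ : LG V E T} {z : V} {K B L0 M : ℕ}
    (c : Config Γ z K B L0 M) {b : ℕ} (hg : Γ.GirthGt (2 * b)) (p p' : Fin K) (a a' : ℕ) :
    ∃ w : Fin (4 * M + 2) × Fin (4 * M + 2) × Fin (4 * M + 2) × Bool,
      ∀ i i', (p, i) ∈ verts c.len → (p', i') ∈ verts c.len →
      a ≤ i → i ≤ a + b → a' ≤ i' → i' ≤ a' + b →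
      (c.vtx (p, i) = c.vtx (p', i') ↔ Seg w.1 w.2.1 w.2.2.1 w.2.2.2 i i') := by
  obtain ⟨i0, i0', n, s, h⟩ := coincide c hg p p' a a'
  have hb : ∀ q j, (q, j) ∈ verts c.len → j ≤ 2 * M := fun q j hq =>
    ((mem_verts _ _).1 hq).2.trans (c.len_hi q)
  by_cases hc : i0 ≤ 2 * M ∧ i0' ≤ 4 * M
  · refine ⟨(⟨i0, by omega⟩, ⟨i0', by omega⟩, ⟨min n (2 * M + 1), by omega⟩, s),
      fun i i' h1 h2 h3 h4 h5 h6 => ?_⟩
    rw [h i i' h1 h2 h3 h4 h5 h6]
    have := hb p i h1
    constructor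
    · rintro ⟨k, hk, e1, e2⟩
      exact ⟨k, by simp only; omega, e1, e2⟩
    · rintro ⟨k, hk, e1, e2⟩
      exact ⟨k, by simp only at hk; omega, e1, e2⟩
  · refine ⟨(⟨0, by omega⟩, ⟨0, by omega⟩, ⟨0, by omega⟩, s),
      fun i i' h1 h2 h3 h4 h5 h6 => ?_⟩
    rw [h i i' h1 h2 h3 h4 h5 h6]
    have := hb p i h1
    have := hb p' i' h2
    constructor
    · rintro ⟨k, hk, e1, e2⟩
      exfalso
      apply hc
      cases s <;> simp at e2 <;> omega
    · rintro ⟨k, hk, -⟩
      exact absurd hk (by simp)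

theorem exists_code {V E T : Type} {Γ : LG V E T} {z : V} {K B L0 Cm M : ℕ} (hL : 0 < L0)
    (hM : M = Cm * L0) (hg : Γ.GirthGt (2 * L0)) (c : Config Γ z K B L0 M) :
    ∃ w : Code K B (2 * Cm + 1) (4 * M + 2), Codes L0 w c.pat := by
  classical
  have hlen : ∀ p, c.len p < 4 * M + 2 := fun p => by have := c.len_hi p; omega
  have hpr : ∀ x y, c.pr x = some y → y.2 < 4 * M + 2 := fun x y h => by
    have := c.pr_dom y x (c.pr_symm x y h)
    have := hlen y.1
    omega
  choose wR hwR using fun q : (Fin K × Fin (2 * Cm + 1)) × (Fin K × Fin (2 * Cm + 1)) =>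
    coincide_bdd c hg q.1.1 q.2.1 (q.1.2.val * L0) (q.2.2.val * L0)
  obtain ⟨wZ, hwZ⟩ : ∃ wZ : OP K (4 * M + 2),
      ∀ x, x ∈ c.pat.Z ↔ ∃ y, wZ.val = some y ∧ (x, y) ∈ c.pat.R := by
    by_cases hZ : ∃ y ∈ verts c.len, c.vtx y = z
    · obtain ⟨y, hy, hyz⟩ := hZ
      have hy2 : y.2 < 4 * M + 2 := by
        have := ((mem_verts _ _).1 hy).2
        have := hlen y.1
        omega
      refine ⟨some (y.1, ⟨y.2, hy2⟩), fun x => ?_⟩
      simp only [OP.val, Option.map_some, Option.some.injEq, exists_eq_left', c.mem_pat_R]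
      simp only [Config.pat, Finset.mem_filter, hy, hyz, true_and]
    · refine ⟨none, fun x => ?_⟩
      simp only [OP.val, Option.map_none, reduceCtorEq, false_and, exists_false, iff_false]
      intro hx
      simp only [Config.pat, Finset.mem_filter] at hx
      exact hZ ⟨x, hx⟩
  choose w0 hw0 using fun p : Fin K => exists_OP (N := 4 * M + 2) (c.pr (p, 0)) (hpr _)
  set Br := (darts c.len).filter (fun x => x.2 + 1 < c.len x.1 ∧ ¬ Smooth c.pr x) with hBr
  have hcard : Br.card ≤ B := by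
    have := c.brk
    convert this
  let g : Fin B → Option (Fin K × ℕ) := fun j =>
    if h : j.val < Br.card then some (Br.equivFin.symm ⟨j.val, h⟩).val else none
  have hg1 : ∀ j y, g j = some y → y ∈ Br := by
    intro j y h
    simp only [g] at h
    split_ifs at h with hj
    rw [← Option.some.inj h]
    exact Subtype.property _
  have hg2 : ∀ y ∈ Br, ∃ j, g j = some y := by
    intro y hy
    have hlt := (Br.equivFin ⟨y, hy⟩).isLt
    refine ⟨⟨(Br.equivFin ⟨y, hy⟩).val, by omega⟩, ?_⟩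
    simp only [g, hlt, dif_pos, Fin.eta, Equiv.symm_apply_apply]
  choose wb hwb using fun j : Fin B => exists_OP (N := 4 * M + 2) (g j) (fun y h => by
    have := (Finset.mem_filter.1 (hg1 j y h)).2.1
    have := hlen y.1
    omega)
  choose wv hwv using fun j : Fin B => exists_OP (N := 4 * M + 2)
    ((g j).bind (fun y => c.pr (y.1, y.2 + 1))) (fun y h => by
      obtain ⟨x, -, hx⟩ := Option.bind_eq_some_iff.1 h
      exact hpr _ _ hx)
  refine ⟨(fun p => ⟨c.len p, hlen p⟩, c.pat.ori, wR, wZ, w0, wb, wv), ?_⟩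
  refine ⟨fun p => rfl, rfl, fun x y => ?_, hwZ, fun x hx => ?_, fun p => (hw0 p).symm,
    fun j p i h => ?_, fun p i hi hj => ?_⟩
  · rw [c.mem_pat_R, Config.pat_len]
    refine and_congr_right fun hx => and_congr_right fun hy => ?_
    have hdiv : ∀ u : Fin K × ℕ, u ∈ verts c.len → u.2 / L0 < 2 * Cm + 1 := by
      intro u hu
      have h1 := ((mem_verts _ _).1 hu).2.trans (c.len_hi u.1)
      rw [Nat.lt_succ_iff]
      refine Nat.div_le_of_le_mul ?_
      rw [hM] at h1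
      nlinarith
    have hlo : ∀ i : ℕ, i / L0 * L0 ≤ i := fun i => Nat.div_mul_le_self i L0
    have hhi : ∀ i : ℕ, i ≤ i / L0 * L0 + L0 := fun i => (Nat.lt_div_mul_add hL).le
    have key := hwR ((x.1, ⟨x.2 / L0, hdiv x hx⟩), (y.1, ⟨y.2 / L0, hdiv y hy⟩)) x.2 y.2 hx hy
      (hlo _) (hhi _) (hlo _) (hhi _)
    rw [key]
    constructor
    · intro h
      exact ⟨_, _, rfl, rfl, h⟩
    · rintro ⟨a, a', ha, ha', h⟩
      obtain rfl : a = ⟨x.2 / L0, hdiv x hx⟩ := Fin.ext ha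
      obtain rfl : a' = ⟨y.2 / L0, hdiv y hy⟩ := Fin.ext ha'
      exact h
  · rw [Config.pat_pr]
    cases h : c.pr x with
    | none => rfl
    | some y => exact absurd (c.pr_dom x y h) hx
  · simp only [hwb] at h
    simp only [hwv, h, Option.bind_some, Config.pat_pr]
  · simp only [hwb] at hj
    by_contra hs
    obtain ⟨j, h⟩ := hg2 (p, i) (Finset.mem_filter.2
      ⟨(mem_darts _ _).2 (by simp only [Config.pat_len] at hi ⊢; omega), hi, hs⟩)
    exact hj j h

end PatCountAux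

/-- TASK PatCount: polynomially many patterns.  With `M = Cm L0`, `n = 2 M + 1`: `len` has at most
`n^K` values, `ori` `2^K`.  `R` is the union over the at most `(2 Cm K)^2` pairs of blocks
`[a L0, (a+1) L0]` of the sets in `coincide` (parameters can be taken `≤ n`).  `Z` is empty or an
`R`-class.  `pr` is determined by `len`, the set of at most `B` break points, and its values at the
positions `(p,0)` and right after each break point (`Smooth`; `pr = none` off `darts`).  A convenient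
way: exhibit a finite type of codes of the right size and a decoding function `Code → Pat K`, let
`𝒮` be its image. -/
theorem pat_count (K B Cm : ℕ) : ∃ Dg : ℕ, ∀ L0 : ℕ, 0 < L0 → ∃ 𝒮 : Finset (Pat K),
    𝒮.card ≤ (L0 + 1) ^ Dg ∧ ∀ (V E T : Type) (Γ : LG V E T) (z : V), Γ.GirthGt (2 * L0) →
      ∀ c : Config Γ z K B L0 (Cm * L0), c.pat ∈ 𝒮 := by
  classical
  have hN : PatCountAux.PolyB (fun L => 4 * (Cm * L) + 2) :=
    ((PatCountAux.PolyB.const 4).mul ((PatCountAux.PolyB.const Cm).mul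
      PatCountAux.PolyB.id)).add (PatCountAux.PolyB.const 2)
  have hO : PatCountAux.PolyB (fun L => K * (4 * (Cm * L) + 2) + 1) :=
    ((PatCountAux.PolyB.const K).mul hN).add (PatCountAux.PolyB.const 1)
  obtain ⟨Dg, hDg⟩ := (hN.pow K).mul ((PatCountAux.PolyB.const (2 ^ K)).mul
    (((hN.mul (hN.mul (hN.mul (PatCountAux.PolyB.const 2)))).pow
      (K * (2 * Cm + 1) * (K * (2 * Cm + 1)))).mul
        (hO.mul ((hO.pow K).mul ((hO.pow B).mul (hO.pow B))))))
  refine ⟨Dg, fun L0 hL => ?_⟩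
  let dec : PatCountAux.Code K B (2 * Cm + 1) (4 * (Cm * L0) + 2) → Pat K := fun w =>
    if h : ∃ π, PatCountAux.Codes L0 w π then h.choose
    else ⟨fun _ => 0, fun _ => false, ∅, fun _ => none, ∅⟩
  refine ⟨Finset.univ.image dec, ?_, fun V E T Γ z hg c => ?_⟩
  · refine Finset.card_image_le.trans ?_
    rw [Finset.card_univ, PatCountAux.card_Code]
    exact hDg L0 hL
  · obtain ⟨w, hw⟩ := PatCountAux.exists_code hL rfl hg c
    refine Finset.mem_image.2 ⟨w, Finset.mem_univ _, ?_⟩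
    have h : ∃ π, PatCountAux.Codes L0 w π := ⟨_, hw⟩
    simp only [dec, dif_pos h]
    exact h.choose_spec.unique hw

end Crest.Agent.R177
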