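import Crest.Agent.R177.LevelCount
import Crest.Agent.R177.Levels
import Crest.Agent.R177.Jumps
import Crest.Agent.R177.PatCount
import Crest.Agent.R177.Prob.Arith

set_option autoImplicit false

namespace Crest.Agent.R177

open Equiv

namespace ProbAux

open Real (exp log)

theorem lt_pow_self' {D n : ℕ} (hD : 2 ≤ D) : n < D ^ n :=
  lt_of_lt_of_le (Nat.lt_two_pow_self) (Nat.pow_le_pow_left hD n)

theorem two_mul_pow_lt {D g : ℕ} (hD : 3 ≤ D) : 2 * D ^ (g + 1) < D ^ (g + 2) := by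
  have : 0 < D ^ (g + 1) := pow_pos (by omega) _
  rw [pow_succ D (g + 1)]
  nlinarith

theorem ceil_aux {a γ : ℝ} (hγ : 0 < γ) : a ≤ γ * ((⌈a / γ⌉₊ + 1 : ℕ) : ℝ) := by
  have := Nat.le_ceil (a / γ)
  rw [div_le_iff₀ hγ] at this
  push_cast
  nlinarith

theorem N1_aux {ε L N : ℝ} (hε : 0 < ε) (h3 : 1 / ε ≤ L) (h : L ≤ N) (hL : 0 ≤ L) :
    N + 1 ≤ exp ε * N := by
  have e1 : ε + 1 ≤ exp ε := Real.add_one_le_exp ε
  rw [div_le_iff₀ hε] at h3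
  nlinarith

theorem N2_aux {ε : ℝ} (hε : 0 < ε) {μ L X q k : ℕ} (h4 : μ / (1 - exp (-ε)) ≤ L) (hX : L ≤ X)
    (hk : k ≤ μ * X) :
    exp (-ε) * ((q + 1) * ((X * X : ℕ) : ℝ)) ≤ (((q + 1) * (X * X) - k : ℕ) : ℝ) := by
  have h1 : exp (-ε) < 1 := Real.exp_lt_one_iff.mpr (by linarith)
  have h0 := Real.exp_pos (-ε)
  obtain ⟨δ, hδ⟩ : ∃ δ, δ = 1 - exp (-ε) := ⟨_, rfl⟩
  rw [← hδ] at h4
  have hδ0 : 0 < δ := by linarith
  have hδ1 : δ ≤ 1 := by linarith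
  have hXR : (L : ℝ) ≤ X := by exact_mod_cast hX
  have hX0 : (0 : ℝ) ≤ X := Nat.cast_nonneg X
  have hq0 : (0 : ℝ) ≤ q := Nat.cast_nonneg q
  rw [div_le_iff₀ hδ0] at h4
  have e0 : (μ : ℝ) ≤ δ * X := by nlinarith
  have e2 : (μ : ℝ) * X ≤ δ * (X * X) := by nlinarith
  have e4 : (k : ℝ) ≤ μ * X := by exact_mod_cast hk
  have e5 : δ * ((X : ℝ) * X) ≤ δ * ((q + 1) * (X * X)) := by
    have : (0 : ℝ) ≤ q * (X * X) := by positivity
    nlinarith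
  have e3 : (k : ℝ) ≤ δ * ((q + 1) * (X * X)) := by linarith
  have e8 : (0 : ℝ) ≤ (q + 1) * (X * X) := by positivity
  have e7 : k ≤ (q + 1) * (X * X) := by
    have : (k : ℝ) ≤ ((q + 1) * (X * X) : ℕ) := by
      push_cast
      nlinarith
    exact_mod_cast this
  rw [Nat.cast_sub e7]
  push_cast
  have : exp (-ε) = 1 - δ := by rw [hδ]; ring
  rw [this]
  nlinarith

theorem k_aux {k t Cm K L X Y : ℕ} (h1 : k ≤ t) (h2 : t ≤ K * (2 * (Cm * L))) (h3 : L ≤ X)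
    (h4 : Y < X) : k + Y ≤ (2 * Cm * K + 1) * X := by
  have : 2 * Cm * K * L ≤ 2 * Cm * K * X := Nat.mul_le_mul_left _ h3
  nlinarith

theorem g_aux {C0 L0 : ℕ} (h1 : 0 < C0) (h2 : 0 < L0) :
    2 * L0 ≤ 2 * C0 * L0 ∧ 2 * (2 * C0 * L0 + 2) ≤ 8 * C0 * L0 := by
  have : 1 ≤ C0 * L0 := Nat.mul_pos h1 h2
  constructor <;> nlinarith

theorem fin_aux {a b c e G : ℝ} (h1 : a ≤ b * (e * G)) (h2 : b ≤ c) (h3 : c * e < 1)
    (he : 0 < e) (hG : 0 < G) : a < G := by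
  have e4 : b * e < 1 := lt_of_le_of_lt (mul_le_mul_of_nonneg_right h2 he.le) h3
  nlinarith

/-- the bad matchings with a given pattern whose level bound is small -/
theorem bad_pat {T C U W : Type} [Fintype T] [DecidableEq T] [Fintype C] [DecidableEq C]
    [Fintype U] [DecidableEq U] [Fintype W] [DecidableEq W] (Y : SlotSys T C U W) {π : Perm T}
    {τ : T → T → C → C} {q N Q : ℕ} (hB : Y.Bounds π τ q N) (hQ1 : Fintype.card T ≤ Q)
    (hQ2 : (blkPairs π).card ≤ Q) (g : ℕ) (hg : 2 ≤ g) (z : U) {K : ℕ} (B L0 M : ℕ) (P : Pat K)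
    (j : ℕ) (hj : 1 ≤ j) (𝒜 : Finset Y.Matching) (h𝒜 : 𝒜 ⊆ Y.Good g)
    (hP : ∀ σ ∈ 𝒜, ∃ c : Config (Y.graph σ) (Sum.inl z) K B L0 M, c.pat = P)
    {B2 : ℕ} {ε s : ℝ} (hQ : 1 ≤ Q) (hN : 1 ≤ N) (hr : P.nRun j ≤ B2) (hl : P.nLeaf j ≤ B2)
    (h1 : (N : ℝ) + 1 ≤ exp ε * N)
    (h2 : exp (-ε) * ((q + 1) * N) ≤
      (((q + 1) * N - (P.nE j + 2 * (Fintype.card T + 3) ^ (g + 1)) : ℕ) : ℝ))
    (hs : P.nFree j * log Q + B2 * log (Fintype.card C + 1) + P.nU j * (log N + ε) +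
      B2 * log (q + 1) + P.nW j * (log (q + 1) + log N + ε) -
      P.nE j * (log (q + 1) + log N - ε) ≤ s) :
    (𝒜.card : ℝ) ≤ exp s * (Y.Good g).card := by
  have hA := level_count Y hB hQ1 hQ2 g hg z B L0 M P j hj 𝒜 h𝒜 hP
  have hL := level_bound hQ hN hr hl h1 h2 hs
  set n := (q + 1) * N - (P.nE j + 2 * (Fintype.card T + 3) ^ (g + 1)) with hn
  have hn0 : (0 : ℝ) < n := by
    refine lt_of_lt_of_le ?_ h2
    have : (0 : ℝ) < N := by exact_mod_cast hN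
    positivity
  have hA' : (𝒜.card : ℝ) * (n : ℝ) ^ P.nE j ≤
      ((Q ^ P.nFree j * Fintype.card C ^ P.nRun j * (N + 1) ^ P.nU j * (q + 1) ^ P.nLeaf j *
        ((q + 1) * N + 1) ^ P.nW j : ℕ) : ℝ) * (Y.Good g).card := by
    exact_mod_cast hA
  have hpos : (0 : ℝ) < (n : ℝ) ^ P.nE j := pow_pos hn0 _
  have : (𝒜.card : ℝ) * (n : ℝ) ^ P.nE j ≤ (exp s * (Y.Good g).card) * (n : ℝ) ^ P.nE j := by
    calc _ ≤ _ := hA'
      _ ≤ (exp s * (n : ℝ) ^ P.nE j) * (Y.Good g).card := by gcongr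
      _ = _ := by ring
  exact le_of_mul_le_mul_right this hpos

end ProbAux

open ProbAux in
open Real (exp log log_nonneg log_lt_log log_pow exp_pos) in
/-- the union bound. -/
theorem prob (T C : Type) [Fintype T] [DecidableEq T] [Fintype C] [DecidableEq C] (π : Perm T)
    (τ : T → T → C → C) (q Q : ℕ) (hQ1 : Fintype.card T ≤ Q) (hQ2 : (blkPairs π).card ≤ Q)
    (hq : Q < (q + 1) ^ 2) :
    ∃ C0 Cm : ℕ, 0 < C0 ∧ 0 < Cm ∧ ∀ K B : ℕ, ∃ L0 N : ℕ, 0 < L0 ∧ 0 < N ∧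
      ∀ (U W : Type) [Fintype U] [DecidableEq U] [Fintype W] [DecidableEq W]
        (Y : SlotSys T C U W), Y.Bounds π τ q N → ∀ z : U, ∃ σ : Y.Matching,
          (Y.graph σ).GirthGt (2 * C0 * L0) ∧
          (Y.graph σ).LIP (Sum.inl z) K B L0 (Cm * L0) C0 := by
  classical
  set D := Fintype.card T + 3 with hD
  have hD3 : 3 ≤ D := by omega
  rcases isEmpty_or_nonempty T with hT | hT
  · refine ⟨1, 1, one_pos, one_pos, fun K B => ⟨1, 2 * D ^ (2 * 1 * 1 + 1) + 1, one_pos,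
      Nat.succ_pos _, ?_⟩⟩
    intro U W _ _ _ _ Y hB z
    obtain ⟨σ, hσ⟩ := good_nonempty Y hB (2 * 1 * 1)
      (lt_of_lt_of_le (Nat.lt_succ_self _) (Nat.le_mul_of_pos_left _ (Nat.succ_pos q)))
    refine ⟨σ, by simpa [SlotSys.Good] using hσ, fun c => ?_⟩
    have : ∀ p, c.len p = 0 := fun p => (hT.false (c.ed (p, 0)).1.1.2).elim
    simp [this]
  have hQ : 1 ≤ Q := le_trans Fintype.card_pos hQ1
  have hQ' : (1 : ℝ) ≤ Q := by exact_mod_cast hQ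
  set lQ := log (Q : ℝ) with hlQ
  set lq := log ((q : ℝ) + 1) with hlq
  set lC := log ((Fintype.card C : ℝ) + 1) with hlC
  set lD := log (D : ℝ) with hlD
  set γ := lq / 2 - lQ / 4 with hγ
  have hq0 : (0 : ℝ) ≤ q := Nat.cast_nonneg q
  have hlQ0 : 0 ≤ lQ := log_nonneg hQ'
  have hlq0 : 0 ≤ lq := log_nonneg (by linarith)
  have hD' : (3 : ℝ) ≤ D := by exact_mod_cast hD3
  have hlD0 : 0 ≤ lD := log_nonneg (by linarith)
  have hγ0 : 0 < γ := by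
    have h1 : (Q : ℝ) < ((q : ℝ) + 1) ^ 2 := by exact_mod_cast hq
    have h2 := log_lt_log (by linarith) h1
    rw [log_pow] at h2
    push_cast at h2
    rw [hγ]; linarith
  set C0 := ⌈4 * lQ / γ⌉₊ + 1 with hC0
  set Cm := ⌈64 * C0 * lD / γ⌉₊ + 1 with hCm
  have hC00 : 0 < C0 := Nat.succ_pos _
  have hCm0 : 0 < Cm := Nat.succ_pos _
  have hC0' : 4 * lQ ≤ γ * C0 := ceil_aux hγ0
  have hCm' : 64 * C0 * lD ≤ γ * Cm := ceil_aux hγ0
  clear_value C0 Cm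
  refine ⟨C0, Cm, hC00, hCm0, fun K B => ?_⟩
  obtain ⟨Dg, hDg⟩ := pat_count K B Cm
  obtain ⟨B2, hB2⟩ := jumps K Cm
  set μ := 2 * Cm * K + 1 with hμ
  have hμ0 : 0 < μ := Nat.succ_pos _
  have hμ' : (0 : ℝ) < μ := by exact_mod_cast hμ0
  set ε := γ / 24 with hε
  have hε0 : 0 < ε := by positivity
  set δ := 1 - exp (-ε) with hδ
  have ev1 := poly_exp_small (γ / (2 * μ)) (by positivity) Dg
  have evR : ∀ a : ℝ, ∀ᶠ L : ℕ in Filter.atTop, a ≤ (L : ℝ) := fun a =>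
    tendsto_natCast_atTop_atTop.eventually_ge_atTop a
  obtain ⟨L0, h1, h2, h3, h4, h5⟩ := (ev1.and ((evR
    (8 * (lQ * (3 * K / 2 + B / 2) + μ * (B2 * (lC + lq)) + lq * K) / γ)).and
      ((evR (1 / ε)).and ((evR (μ / δ)).and (evR 1))))).exists
  have hL0 : 0 < L0 := by exact_mod_cast (lt_of_lt_of_le one_pos h5)
  set g := 2 * C0 * L0 with hg
  have hgL : 2 * L0 ≤ g := (g_aux hC00 hL0).1
  have hg2 : 2 ≤ g := by omega
  set X := D ^ (g + 2) with hX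
  have hXL : L0 ≤ X := by
    have : g + 2 < D ^ (g + 2) := lt_pow_self' (by omega)
    omega
  have hX2 : 2 * D ^ (g + 1) < X := two_mul_pow_lt hD3
  have hX0 : 0 < X := by omega
  have hN0 : 0 < X * X := Nat.mul_pos hX0 hX0
  have hXN : X ≤ X * X := Nat.le_mul_of_pos_left _ hX0
  refine ⟨L0, X * X, hL0, hN0, ?_⟩
  intro U W _ _ _ _ Y hB z
  obtain ⟨𝒮, h𝒮c, h𝒮⟩ := hDg L0 hL0
  have hGne : (Y.Good g).Nonempty := good_nonempty Y hB g
    (lt_of_lt_of_le hX2 (hXN.trans (Nat.le_mul_of_pos_left _ (Nat.succ_pos q))))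
  have hGpos : (0 : ℝ) < (Y.Good g).card := by exact_mod_cast hGne.card_pos
  have hmem : ∀ σ, σ ∈ Y.Good g ↔ (Y.graph σ).GirthGt g := by
    intro σ; simp [SlotSys.Good]
  set s : ℝ := -(γ / (2 * μ) * L0) with hs
  have hN1 : (((X * X : ℕ) : ℝ)) + 1 ≤ exp ε * (X * X : ℕ) :=
    N1_aux hε0 h3 (Nat.cast_le.mpr (hXL.trans hXN)) (Nat.cast_nonneg _)
  have hlN : log ((X * X : ℕ) : ℝ) ≤ 8 * C0 * L0 * lD := by
    have e1 : ((X * X : ℕ) : ℝ) = (D : ℝ) ^ (2 * (g + 2)) := by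
      rw [hX]; push_cast; ring
    rw [e1, log_pow, ← hlD]
    have e2 : 2 * (g + 2) ≤ 8 * C0 * L0 := (g_aux hC00 hL0).2
    have e3 : ((2 * (g + 2) : ℕ) : ℝ) ≤ 8 * C0 * L0 := by exact_mod_cast e2
    exact mul_le_mul_of_nonneg_right e3 hlD0
  have hlN0 : 0 ≤ log ((X * X : ℕ) : ℝ) := log_nonneg (by exact_mod_cast hN0)
  have hcst : lQ * (3 * K / 2 + B / 2) + μ * (B2 * (lC + lq)) + lq * K ≤ γ * L0 / 8 := by
    rw [div_le_iff₀ hγ0] at h2
    linarith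
  -- the matchings with a bad configuration of pattern `P`
  set 𝒜 : Pat K → Finset Y.Matching := fun P => (Y.Good g).filter (fun σ =>
    ∃ c : Config (Y.graph σ) (Sum.inl z) K B L0 (Cm * L0), c.pat = P ∧ C0 * c.unp < c.total)
    with h𝒜
  have key : ∀ P, ((𝒜 P).card : ℝ) ≤ exp s * (Y.Good g).card := by
    intro P
    rcases (𝒜 P).eq_empty_or_nonempty with he | ⟨σ, hσ⟩
    · rw [he]; simp only [Finset.card_empty, Nat.cast_zero]; positivity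
    simp only [h𝒜, Finset.mem_filter] at hσ
    obtain ⟨hσ, c, hc, hbad⟩ := hσ
    rw [hmem] at hσ
    have hb := Y.graph_bip σ
    have hi := Y.graph_immersed σ hB.slots_inj
    obtain ⟨hmult, hrl⟩ := hB2 _ _ _ _ _ B L0 hL0 hb (hσ.mono hgL) c
    have hΛ : L0 ≤ c.total := by
      have : c.total ≠ 0 := by omega
      obtain ⟨p, -, hp⟩ := Finset.exists_ne_zero_of_sum_ne_zero this
      have h6 : L0 ≤ c.len p := (c.len_lo p).resolve_left hp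
      exact h6.trans (Finset.single_le_sum (f := c.len) (fun _ _ => Nat.zero_le _)
        (Finset.mem_univ p))
    have hΛ2 : c.total ≤ K * (2 * (Cm * L0)) := by
      have : c.total ≤ ∑ _p : Fin K, 2 * (Cm * L0) := Finset.sum_le_sum (fun p _ => c.len_hi p)
      simpa only [Finset.sum_const, Finset.card_univ, Fintype.card_fin, smul_eq_mul] using this
    have hE := levels_E c hb (hσ.mono hg2) (μ := μ)
      (fun x hx => (hmult x hx).trans (Nat.le_succ _))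
    obtain ⟨a, ha, hV⟩ := levels_V c hb (hσ.mono hg2) (by intro e; simp [SlotSys.graph]) μ
    have hW := levels_W c hb (hσ.mono hg2) μ
    have hF := levels_free c hb hi (hσ.mono hg2) μ
    obtain ⟨j, hj, hjs⟩ := exists_level (lC := lC) hμ0 c.pat.nFree c.pat.nU c.pat.nW c.pat.nE
      hlQ0 hlq0 hγ hγ0 hlN0 hlN hC0' hCm' hCm0 hL0 hC00 hcst hΛ hbad.le ha hE hV hW hF
    have hk : c.pat.nE j ≤ c.total := by
      rw [← hE]
      exact Finset.single_le_sum (f := c.pat.nE) (fun _ _ => Nat.zero_le _) hj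
    rw [hc] at hjs hk
    have hr := hrl j
    rw [hc] at hr
    refine bad_pat Y hB hQ1 hQ2 g hg2 z B L0 (Cm * L0) P j (Finset.mem_Icc.mp hj).1 (𝒜 P)
      (Finset.filter_subset _ _) ?_ hQ hN0 hr.1 hr.2 hN1 ?_ hjs
    · intro σ' hσ'
      simp only [h𝒜, Finset.mem_filter] at hσ'
      obtain ⟨-, c', hc', -⟩ := hσ'
      exact ⟨c', hc'⟩
    · exact N2_aux hε0 h4 hXL (k_aux hk hΛ2 hXL hX2)
  have hcard : ((𝒮.biUnion 𝒜).card : ℝ) < (Y.Good g).card := by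
    have e1 : ((𝒮.biUnion 𝒜).card : ℝ) ≤ ∑ P ∈ 𝒮, ((𝒜 P).card : ℝ) := by
      exact_mod_cast Finset.card_biUnion_le
    have e2 : ∑ P ∈ 𝒮, ((𝒜 P).card : ℝ) ≤ ∑ _P ∈ 𝒮, exp s * (Y.Good g).card :=
      Finset.sum_le_sum (fun P _ => key P)
    rw [Finset.sum_const, nsmul_eq_mul] at e2
    have e3 : (𝒮.card : ℝ) ≤ ((L0 : ℝ) + 1) ^ Dg := by exact_mod_cast h𝒮c
    exact fin_aux (e1.trans e2) e3 h1 (exp_pos _) hGpos
  have hcard' : (𝒮.biUnion 𝒜).card < (Y.Good g).card := by exact_mod_cast hcard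
  obtain ⟨σ, hσ, hσ'⟩ := Finset.exists_mem_notMem_of_card_lt_card hcard'
  refine ⟨σ, (hmem σ).mp hσ, fun c => ?_⟩
  by_contra hbad
  apply hσ'
  rw [Finset.mem_biUnion]
  refine ⟨c.pat, h𝒮 _ _ _ _ _ (((hmem σ).mp hσ).mono hgL) c, ?_⟩
  simp only [h𝒜, Finset.mem_filter]
  exact ⟨hσ, c, rfl, not_le.mp hbad⟩

end Crest.Agent.R177
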