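import Crest.Agent.R177.DefsCx
import Crest.Agent.R177.TorsionFree.Tate

set_option autoImplicit false

namespace Crest.Agent.R177

open TorsionFreeAux in
/-- TASK TorsionFree.  Let `g` have finite order `r ≥ 2`.  Work with cochains `X_n → ZMod r`
(`δ0 f e = f (t e) - f (s e)`, `δ1 a τ = a d2 + a d0 - a d1`; exact by `conn`, `sc` for
`H = Multiplicative (ZMod r)`, `h2`), `Dg f = f (g • ·) - f`, `Ng f = ∑ i < r, f (g^i • ·)`.  The
action of `⟨g⟩` on each `X_n` is free, so (i) `Dg f = 0 → ∃ f', f = Ng f'` (multiply by the indicator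
of a transversal), (ii) `Ng f = 0 → ∃ f', f = Dg f'` (partial sums along orbits).  Chase:
`1 = N f0`; `δ f0 = D f1`; `δ f1 = N f2 = N δ h1`; `f1 - N h1 = δ h0`; `δ (f0 - D h0) = 0` so
`f0 - D h0` is a constant `k`, and `1 = N f0 = r k = 0` in `ZMod r`. -/
theorem torsionFree {G X0 X1 X2 : Type} [Group G] [MulAction G X0] [MulAction G X1]
    [MulAction G X2] (K : Cx X0 X1 X2) (hs : K.Simplicial) (ha : K.Act G) (hc : K.Acyclic) :
    ∀ g : G, IsOfFinOrder g → g = 1 := by
  intro g hg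
  have : NeZero (orderOf g) := ⟨hg.orderOf_pos.ne'⟩
  obtain ⟨i0, hi0⟩ := exists_idx ha.free g
  have hi1 : ∀ e : X1, i0 (K.s (g • e)) = i0 (K.s e) + 1 := fun e => by rw [ha.s_smul, hi0]
  have hi2 : ∀ τ : X2, i0 (K.s (K.d2 (g • τ))) = i0 (K.s (K.d2 τ)) + 1 := fun τ => by
    rw [ha.d2_smul, hi1]
  have hσ0 : ∀ x : X0, (fun y : X0 => g • y)^[orderOf g] x = x := fun x => by
    rw [iter_smul, pow_orderOf_eq_one, one_smul]
  have hσ1 : ∀ x : X1, (fun y : X1 => g • y)^[orderOf g] x = x := fun x => by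
    rw [iter_smul, pow_orderOf_eq_one, one_smul]
  -- `1 = N f0`
  obtain ⟨f0, hf0⟩ := exists_nrm (σ := fun y : X0 => g • y) hi0
    (fun _ => (1 : ZMod (orderOf g))) (fun _ => rfl)
  -- `δ f0 = D f1`
  obtain ⟨f1, hf1⟩ := exists_dif (σ := fun y : X1 => g • y) (idx := fun e => i0 (K.s e)) hi1
    (fun e => f0 (K.t e) - f0 (K.s e)) (fun e => by
      have h1 := hf0 (K.t e)
      have h2 := hf0 (K.s e)
      unfold nrm at h1 h2 ⊢
      simp only [iter_smul] at h1 h2 ⊢
      simp only [ha.s_smul, ha.t_smul, Finset.sum_sub_distrib, h1, h2, sub_self])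
  -- `δ f1 = N f2`
  obtain ⟨f2, hf2⟩ := exists_nrm (σ := fun y : X2 => g • y) (idx := fun τ => i0 (K.s (K.d2 τ))) hi2
    (fun τ => f1 (K.d2 τ) + f1 (K.d0 τ) - f1 (K.d1 τ)) (fun τ => by
      have h2 := hf1 (K.d2 τ)
      have h0 := hf1 (K.d0 τ)
      have h1 := hf1 (K.d1 τ)
      simp only [hs.v0, hs.v1, hs.v2] at h0 h1 h2
      simp only [ha.d0_smul, ha.d1_smul, ha.d2_smul]
      linear_combination h2 + h0 - h1)
  obtain ⟨h1, hh1⟩ := hc.h2 (ZMod (orderOf g)) f2
  -- `f1 - N h1 = δ h0`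
  obtain ⟨h0, hh0⟩ := hc.sc (Multiplicative (ZMod (orderOf g)))
    (fun e => Multiplicative.ofAdd (f1 e - nrm (orderOf g) (fun y : X1 => g • y) h1 e))
    (fun τ => by
      rw [← ofAdd_add]
      congr 1
      have h := hf2 τ
      have e : nrm (orderOf g) (fun y : X2 => g • y) f2 τ =
          nrm (orderOf g) (fun y : X1 => g • y) h1 (K.d2 τ) +
            nrm (orderOf g) (fun y : X1 => g • y) h1 (K.d0 τ) -
            nrm (orderOf g) (fun y : X1 => g • y) h1 (K.d1 τ) := by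
        unfold nrm
        simp only [iter_smul]
        rw [← Finset.sum_add_distrib, ← Finset.sum_sub_distrib]
        refine Finset.sum_congr rfl fun i _ => ?_
        rw [← hh1, ha.d0_smul, ha.d1_smul, ha.d2_smul]
      rw [e] at h
      linear_combination -h)
  have hh0' : ∀ e, (h0 (K.t e)).toAdd - (h0 (K.s e)).toAdd =
      f1 e - nrm (orderOf g) (fun y : X1 => g • y) h1 e := fun e => by
    rw [← hh0 e, toAdd_mul, toAdd_ofAdd]
    ring
  -- `f0 - D h0` is constant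
  obtain ⟨x0⟩ := hc.ne
  have hedge : ∀ e, f0 (K.s e) - ((h0 (g • K.s e)).toAdd - (h0 (K.s e)).toAdd) =
      f0 (K.t e) - ((h0 (g • K.t e)).toAdd - (h0 (K.t e)).toAdd) := fun e => by
    have a1 := hh0' e
    have a2 := hh0' (g • e)
    have a3 := hf1 e
    have a4 := nrm_shift hσ1 h1 e
    simp only [ha.s_smul, ha.t_smul] at a2
    linear_combination a2 - a1 + a3 - a4
  have hconst : ∀ x, f0 x - ((h0 (g • x)).toAdd - (h0 x).toAdd) =
      f0 x0 - ((h0 (g • x0)).toAdd - (h0 x0).toAdd) := fun x =>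
    hc.conn (fun x => f0 x - ((h0 (g • x)).toAdd - (h0 x).toAdd) =
      f0 x0 - ((h0 (g • x0)).toAdd - (h0 x0).toAdd)) (fun e => by rw [hedge e]) x0 x rfl
  have hN := hf0 x0
  have hD := nrm_dif hσ0 (fun x => (h0 x).toAdd) x0
  have hsum : nrm (orderOf g) (fun y : X0 => g • y) f0 x0 -
      nrm (orderOf g) (fun y : X0 => g • y)
        (fun y => (h0 (g • y)).toAdd - (h0 y).toAdd) x0 = 0 := by
    unfold nrm
    rw [← Finset.sum_sub_distrib, Finset.sum_congr rfl (fun i _ => hconst _)]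
    simp
  rw [hN, hD, sub_zero] at hsum
  have : orderOf g = 1 := by
    have h := (ZMod.natCast_eq_zero_iff 1 (orderOf g)).mp (by simpa using hsum)
    exact Nat.dvd_one.mp h
  exact orderOf_eq_one_iff.mp this

end Crest.Agent.R177
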