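import Crest.Agent.R177.PlanarMoves
import Crest.Agent.R177.RelBasic
import Crest.Agent.R177.VanKampen.Final

set_option autoImplicit false

namespace Crest.Agent.R177

open Equiv VanKampenAux

/-! TASK VanKampen: the van Kampen lemma with reduction.

Suggested route.  A *pre-diagram* on a Fintype `D`: perms `φ α`, `α` an involution, dead darts
(`α d = d`) are fixed by `φ`; `lab`, `edge : D → Option _`, `pos : D → Γ.Grp` with, for live `d`,
`pos (φ d) = pos d * lab d = pos (α d)`, `lab (α d) = flp (lab d)`; consecutive live inner darts form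
walks of `Γ`; `Planar φ α`; a duplicate free list `bd` of the live boundary darts on which `φ` acts as
`bd.formPerm`; chain `= ∑ live inner d, ± single (pos d * (ν (st (edge d)))⁻¹, (edge d).1)`.
`Fill g w c`: there is a pre-diagram whose boundary list reads `w`, starts at position `g`, and has
chain `-c`.  Closure properties: rotate the boundary list; append `[x, flp x]` (`planar_sum`,
`planar_spur`, `planar_newSpur`); delete a cancelling pair (`planar_diamond` then `planar_delete`);
hence `Fill 1 w c` only depends on `FreeGroup.mk w` (`FreeGroup.Red`); append the label `r` of a closed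
walk: append `r ++ r⁻¹` by spurs and pinch off `r⁻¹` as a new inner face (`planar_pinch`).  By
induction on `Rel`, `Rel ν (mk w) c → Fill 1 w c`.
Reduction (induction on the number of live darts; boundary list and chain are unchanged): if inner
`d, α d` carry the same edge, `planar_delete`; if inner `d, φ d` backtrack, `planar_diamond` then
`planar_delete`.  Finally restrict to the live darts (`planar_subtype`).
For `vk_marked` give the boundary darts the edges of `l`; the invariant is: exactly one live dart `d0`
has `en (edge d0) ≠ st (edge (φ d0))`, and `st (edge (φ d0)) = x`; it survives both moves. -/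

variable {V E T : Type} (Γ : LG V E T)

theorem vk_disc {ν : V → Γ.Grp} (hν : Γ.IsPot ν) (w : List (T × Bool)) (hw : NB w)
    (c : Γ.Grp × E →₀ ℤ) (h : Γ.Rel ν (FreeGroup.mk w) c) :
    ∃ (D : Type) (_ : Fintype D) (_ : DecidableEq D) (Δ : Diag Γ D),
      Δ.IsDisc ∧ Δ.nBdry = w.length ∧ norm1 c ≤ Δ.nInner := by
  obtain ⟨D, i1, i2, Δ, bd, h1, h2, h3, h4, h5, h6⟩ :=
    (fill_of_rel hν h w rfl).exists_red (anti_wChain hν)
  refine ⟨_, inferInstance, inferInstance, h1.toDiag h6, ⟨fun d => h1.link h6 d ?_,
    h1.oneBdry h6 h2 (by rw [h3]; exact hw)⟩, ?_, ?_⟩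
  · unfold nBrk at h4
    rw [Nat.le_zero, Finset.card_eq_zero] at h4
    rw [h4]
    exact Finset.notMem_empty _
  · rw [h1.nBdry h6 h2, ← h3, List.length_map]
  · rw [← norm1_neg, ← h5]
    refine h1.nInner h6 fun g ε => ?_
    unfold wChain
    rw [norm1_single]
    rcases ε with ⟨e, b⟩
    cases b <;> rfl

theorem vk_marked {x y : V} {l : List (E × Bool)} (hl : Γ.IsWalk x l y) (hxy : x ≠ y)
    (h : Γ.proj (Γ.word l) = 1) :
    ∃ (D : Type) (_ : Fintype D) (_ : DecidableEq D) (Δ : Diag Γ D) (d0 : D),
      Δ.IsMarked x d0 := by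
  obtain ⟨c, hc⟩ := Γ.rel_exists (fun _ => 1) h
  have f1 := (fill_of_rel' x hc (l.map Γ.lb) rfl).attach (anti_wMark x) (w' := []) 1 hl h
    (k' := 1) (Or.inl le_rfl) (by
      change 1 = Γ.word l * _
      group)
  rw [fsum_wMark x _ hl, if_pos rfl, if_neg hxy.symm, zero_add, sub_zero] at f1
  obtain ⟨D, i1, i2, Δ, bd, h1, h2, h3, h4, h5, h6⟩ := f1.exists_red (anti_wMark x)
  rw [List.map_eq_nil_iff] at h3
  subst h3
  obtain ⟨d0, k1, k2⟩ := h1.exists_mark h5
  refine ⟨_, inferInstance, inferInstance, h1.toDiag h6, ⟨d0, (mem_brk.1 k1).1⟩, ?_, ?_, ?_⟩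
  · intro d k
    exact List.not_mem_nil ((h2.mem d.1).2 ⟨d.2, k⟩)
  · intro d hd
    refine h1.link h6 d fun k => hd (Subtype.ext ?_)
    exact Finset.card_le_one.1 h4 _ k _ k1
  · intro ε k
    change Δ.edge (Δ.φ d0) = some ε at k
    rw [k] at k2
    exact Option.some.inj k2

end Crest.Agent.R177
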