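import Crest.Agent.R177.Iso
import Crest.Agent.R177.VanKampen
import Crest.Agent.R177.Complex
import Crest.Agent.R177.TorsionFree
import Crest.Agent.R177.Hyp
import Crest.Agent.R177.HypFill
import Crest.Agent.R177.Handshake
import Crest.Agent.R177.Prob

/-!
# The master theorem of the row 177 project, combinatorial part
-/

set_option autoImplicit false

namespace Crest.Agent.R177

open Equiv

theorem norm1_eq_zero {X : Type} {c : X →₀ ℤ} (h : norm1 c = 0) : c = 0 := by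
  classical
  ext x
  unfold norm1 Finsupp.sum at h
  rw [Finset.sum_eq_zero_iff] at h
  by_contra hx
  have := h x (Finsupp.mem_support_iff.mpr hx)
  simp only [Int.natAbs_eq_zero] at this
  exact hx this

theorem Diag.card_eq {V E T : Type} {Γ : LG V E T} {D : Type} [Fintype D] (Δ : Diag Γ D) :
    Δ.nBdry + Δ.nInner = Fintype.card D := by
  classical
  unfold Diag.nBdry Diag.nInner
  convert Finset.card_filter_add_card_filter_not (s := (Finset.univ : Finset D))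
    (fun d => Δ.edge d = none) using 1
  simp

theorem master0 (p : ℕ) [Fact p.Prime] :
    ∃ (G : Type) (_ : Group G), Group.IsFinitelyPresented G ∧ Group.FG G ∧
      (∀ g : G, IsOfFinOrder g → g = 1) ∧
      (∃ (X0 X1 X2 : Type) (_ : MulAction G X0) (_ : MulAction G X1) (_ : MulAction G X2)
        (K : Cx X0 X1 X2), K.Simplicial ∧ K.Act G ∧ K.Acyclic) ∧
      Crest.GroupTheory.IsHyperbolicGroup G ∧
      ∃ a b c : MonoidAlgebra (ZMod p) G, a * b = 1 ∧ a * c = 0 ∧ c ≠ 0 := by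
  classical
  obtain ⟨T, C, iT, dT, iC, dC, π, τ, q, Q, wA, wB, wC, hQ1, hQ2, hq, hdes⟩ := exists_design p
  obtain ⟨C0, Cm, hC0, hCm, hprob⟩ := prob T C π τ q Q hQ1 hQ2 hq
  obtain ⟨K, B, hiso⟩ := iso_core C0 Cm hC0 hCm
  obtain ⟨L0, N, hL0, hN, hY⟩ := hprob K B
  obtain ⟨U, W, iU, dU, iW, dW, Y, a0, b0, z0, hB, hA⟩ := hdes N hN
  obtain ⟨σ, hg, hlip⟩ := hY U W Y hB z0
  set Γ := Y.graph σ with hΓ
  have hi : Γ.Immersed := Y.graph_immersed σ hB.slots_inj
  have hle : L0 ≤ 2 * C0 * L0 := Nat.le_mul_of_pos_left _ (by omega)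
  have hI : IsoProp Γ (Sum.inl z0) L0 C0 := hiso _ _ _ Γ _ L0 hL0 hi (hg.mono hle) hlip
  obtain ⟨ν, hν⟩ := Γ.exists_pot
  have hnorm : ∀ (w : List (T × Bool)) c, NB w → Γ.Rel ν (FreeGroup.mk w) c →
      norm1 c ≤ (2 * C0) * w.length := by
    intro w c hw hr
    obtain ⟨D, iD, dD, Δ, hΔ, h1, h2⟩ := vk_disc Γ hν w hw c hr
    have := iso_disc hI Δ hΔ
    rw [h1] at this
    omega
  have uniq : ∀ c, Γ.Rel ν 1 c → c = 0 := by
    intro c hc
    have := hnorm [] c (by simp [NB]) hc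
    exact norm1_eq_zero (by simpa using this)
  have hgen : ∀ t, Γ.gen t ≠ 1 := by
    intro t ht
    obtain ⟨c, hc⟩ := Γ.rel_exists ν (w := FreeGroup.of t) ht
    obtain ⟨D, iD, dD, Δ, hΔ, h1, -⟩ := vk_disc Γ hν [(t, true)] (by simp [NB]) c hc
    have h2 := iso_disc hI Δ hΔ
    rw [h1] at h2
    have h3 : Δ.nInner = 0 := by
      by_contra hne
      have := inner_large hg Δ hΔ.1 hne
      have h4 : 2 * C0 * 1 ≤ 2 * C0 * L0 := Nat.mul_le_mul_left _ hL0
      simp only [List.length_singleton] at h2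
      omega
    have h4 := Δ.card_eq
    rw [h1, h3] at h4
    simp only [List.length_singleton, add_zero] at h4
    obtain ⟨d, hd⟩ := Fintype.card_eq_one_iff.mp h4.symm
    exact Δ.α_ne d (hd _)
  have hNT : ∀ y, Γ.Reach (Sum.inl z0) y → ν y = ν (Sum.inl z0) → y = Sum.inl z0 := by
    rintro y ⟨l, hl⟩ hy
    by_contra hne
    have h1 := Γ.pot_walk hν hl
    rw [hy] at h1
    have h2 : Γ.proj (Γ.word l) = 1 := by simpa using h1.symm
    obtain ⟨D, iD, dD, Δ, d0, hΔ⟩ := vk_marked Γ hl (Ne.symm hne) h2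
    exact iso_marked hL0 hC0 hi hg hI Δ d0 hΔ
  obtain ⟨X0, X1, X2, m0, m1, m2, Kx, hs, ha, hc⟩ := exists_complex Γ hν uniq hgen
  obtain ⟨ρ, hρ⟩ := linFill_of_rel Γ hν (2 * C0) hnorm
  refine ⟨Γ.Grp, inferInstance, Γ.finitelyPresented, ?_, torsionFree Kx hs ha hc,
    ⟨X0, X1, X2, m0, m1, m2, Kx, hs, ha, hc⟩, hyp Γ.gen Γ.closure_gen hρ,
    handshake Y hA σ hν hNT⟩
  rw [Group.fg_iff]
  exact ⟨Set.range Γ.gen, Γ.closure_gen, Set.finite_range _⟩

end Crest.Agent.R177
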