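import Mathlib

set_option autoImplicit false

namespace Crest.Agent.R177

theorem le_choose (n k : ℕ) (h1 : 1 ≤ k) (h2 : k < n) : n ≤ Nat.choose n k := by
  induction n generalizing k with
  | zero => omega
  | succ n ih =>
    obtain ⟨k, rfl⟩ : ∃ j, k = j + 1 := ⟨k - 1, by omega⟩
    rw [Nat.choose_succ_succ]
    rcases Nat.eq_zero_or_pos k with rfl | hk
    · simp
    · have h3 := ih k hk (by omega)
      have h4 : 0 < Nat.choose n (k + 1) := Nat.choose_pos (by omega)
      simp only [Nat.succ_eq_add_one]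
      omega

theorem odd_reduction (m : ℕ) (hm : 2 ≤ m)
    (h : ∀ (p : ℕ) [Fact p.Prime], ∃ (G : Type) (_ : Group G), Group.FG G ∧
      ∃ a b c : MonoidAlgebra (ZMod p) G, a * b = 1 ∧ a * c = 0 ∧ c ≠ 0) :
    Nat.Prime (Nat.minFac (m.factorial ^ 2 + 1)) ∧
    Odd (Nat.minFac (m.factorial ^ 2 + 1)) ∧
    ∃ (K : Type) (_ : Field K) (G : Type) (_ : Group G),
      Nat.card K = Nat.minFac (m.factorial ^ 2 + 1) ^ 4 ∧
      Group.FG G ∧ (∃ g : G, g ≠ 1 ∧ IsOfFinOrder g) ∧
      ∃ a b : MonoidAlgebra K G, a * b = 1 ∧ b * a ≠ 1 := by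
  have hpos : 0 < m.factorial ^ 2 := pow_pos (Nat.factorial_pos m) 2
  have hp : Nat.Prime (Nat.minFac (m.factorial ^ 2 + 1)) := Nat.minFac_prime (by omega)
  have hodd : Odd (m.factorial ^ 2 + 1) := by
    have : Even (m.factorial ^ 2) := by
      rw [Nat.even_pow]
      exact ⟨even_iff_two_dvd.mpr (Nat.dvd_factorial (by omega) hm), by omega⟩
    exact this.add_one
  refine ⟨hp, Odd.of_dvd_nat hodd (Nat.minFac_dvd _), ?_⟩
  generalize Nat.minFac (m.factorial ^ 2 + 1) = p at hp
  have : Fact p.Prime := ⟨hp⟩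
  obtain ⟨G, iG, hfg, a, b, c, hab, hac, hc⟩ := h p
  let K := GaloisField p 4
  let G' := G × Multiplicative (ZMod 2)
  let f : MonoidAlgebra (ZMod p) G →+* MonoidAlgebra K G' :=
    (MonoidAlgebra.mapDomainRingHom K (MonoidHom.inl G (Multiplicative (ZMod 2)))).comp
      (MonoidAlgebra.mapRingHom G (algebraMap (ZMod p) K))
  have hf : Function.Injective f := by
    apply Function.Injective.comp (g := MonoidAlgebra.mapDomainRingHom K _)
    · exact MonoidAlgebra.mapDomain_injective (fun x y hxy => (Prod.ext_iff.mp hxy).1)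
    · exact MonoidAlgebra.map_injective _ (algebraMap (ZMod p) K).injective
  refine ⟨K, inferInstance, G', inferInstance, GaloisField.card p 4 (by omega), inferInstance,
    ⟨(1, Multiplicative.ofAdd 1), ?_, ?_⟩, f a, f b, by rw [← map_mul, hab, map_one], ?_⟩
  · intro h1
    have h2 : (Multiplicative.ofAdd (1 : ZMod 2)) = 1 := (Prod.ext_iff.mp h1).2
    exact absurd h2 (by decide)
  · rw [isOfFinOrder_iff_pow_eq_one]
    have h2 : (Multiplicative.ofAdd (1 : ZMod 2)) ^ 2 = 1 := by decide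
    exact ⟨2, by omega, Prod.ext (one_pow 2) h2⟩
  · intro hba
    apply hc
    have h1 : b * a = 1 := hf (by rw [map_mul, hba, map_one])
    calc c = b * a * c := by rw [h1, one_mul]
      _ = 0 := by rw [mul_assoc, hac, mul_zero]

end Crest.Agent.R177
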