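import Crest.Agent.R177.Defs

set_option autoImplicit false

namespace Crest.Agent.R177

open Equiv

/-! TASK PlanarMoves: elementary moves that preserve `Planar`.  Darts with `φ d = d` and `α d = d`
are "dead".  In all proofs `z x = ψ (φ x) + ψ x`. -/

/-- remove `a` from its cycle -/
def skip {D : Type} [DecidableEq D] (ψ : Perm D) (a : D) : Perm D := swap a (ψ a) * ψ

namespace PlanarMovesAux

theorem skip_self {D : Type} [DecidableEq D] (ψ : Perm D) (a : D) : skip ψ a a = a := by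
  simp [skip]

theorem skip_val {D β : Type} [DecidableEq D] (ψ : Perm D) (a : D) (f : D → β)
    (h : f (ψ a) = f a) (w : D) : f (skip ψ a w) = f (ψ w) := by
  simp only [skip, Perm.mul_apply]
  rw [swap_apply_def]
  split_ifs with h1 h2
  · rw [h1, h]
  · rw [h2, h]
  · rfl

theorem two_eq : (2 : ZMod 2) = 0 := rfl

/-- pinching a cycle separates the two points -/
theorem not_sameCycle_pinch {D : Type} [DecidableEq D] [Fintype D] {φ : Perm D} {x y : D}
    (hne : x ≠ y) (hxy : φ.SameCycle x y) : ¬ (φ * swap x y).SameCycle y x := by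
  classical
  have hex : ∃ k : ℕ, (φ ^ k) x = y := by
    obtain ⟨i, _, hi⟩ := hxy.exists_pow_eq'
    exact ⟨i, hi⟩
  set k := Nat.find hex with hk
  have hky : (φ ^ k) x = y := Nat.find_spec hex
  have hmin : ∀ i, i < k → (φ ^ i) x ≠ y := fun i hi => Nat.find_min hex hi
  have hkpos : 0 < k := by
    rcases Nat.eq_zero_or_pos k with h | h
    · rw [h] at hky; exact absurd hky (by simpa using hne)
    · exact h
  have hnx : ∀ i, 1 ≤ i → i ≤ k → (φ ^ i) x ≠ x := by
    intro i h1 h2 h3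
    apply hmin (k - i) (by omega)
    have : (φ ^ k) x = (φ ^ (k - i)) ((φ ^ i) x) := by
      rw [← Perm.mul_apply, ← pow_add]; congr 2; omega
    rw [← hky, this, h3]
  have hinv : ∀ n : ℕ, ∃ i, 1 ≤ i ∧ i ≤ k ∧ (φ ^ i) x = ((φ * swap x y) ^ n) y := by
    intro n
    induction n with
    | zero => exact ⟨k, hkpos, le_rfl, by simpa using hky⟩
    | succ n ih =>
      obtain ⟨i, h1, h2, h3⟩ := ih
      rw [pow_succ', Perm.mul_apply, ← h3]
      rcases h2.lt_or_eq with h2 | h2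
      · refine ⟨i + 1, by omega, by omega, ?_⟩
        rw [Perm.mul_apply, swap_apply_of_ne_of_ne (hnx i h1 h2.le) (hmin i h2), pow_succ',
          Perm.mul_apply]
      · refine ⟨1, le_rfl, hkpos, ?_⟩
        rw [h2, hky]; simp
  intro h
  obtain ⟨n, _, hn⟩ := h.exists_pow_eq'
  obtain ⟨i, h1, h2, h3⟩ := hinv n
  exact hnx i h1 h2 (h3.trans hn)

/-- a function invariant under `φ` is constant on cycles -/
theorem const_of_sameCycle {D β : Type} [Fintype D] [DecidableEq D] {φ : Perm D} (f : D → β)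
    (hf : ∀ w, f (φ w) = f w) {x y : D} (hxy : φ.SameCycle x y) : f x = f y := by
  obtain ⟨n, -, rfl⟩ := hxy.exists_pow_eq'
  clear hxy
  induction n with
  | zero => simp
  | succ n ih => rw [pow_succ', Perm.mul_apply, hf, ← ih]

end PlanarMovesAux

open PlanarMovesAux

variable {D : Type} [DecidableEq D] {φ α : Perm D}

/-- Delete the edge `{d, e}`.  Given `ψ'` for the new map, choose `ψ = ψ'` off `{d,e}` with
`ψ (φ e) = ψ d`, `ψ (φ d) = ψ e` (first return of `φ * swap d e`); then `ψ` is admissible for the old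
map, and the `χ` obtained satisfies `χ (φ e) = χ d`, `χ (φ d) = χ e`, so `χ (φ' x) = χ (φ x)` off
`{d,e}`. -/
theorem planar_delete (hα : ∀ x, α (α x) = x) {d e : D} (hde : α d = e) (hne : d ≠ e)
    (h : Planar φ α) : Planar (skip (skip (φ * swap d e) d) e) (α * swap d e) := by
  intro ψ' hψ'
  have hed : α e = d := by rw [← hde, hα]
  set φ1 := φ * swap d e with hφ1
  set φ' := skip (skip φ1 d) e with hφ'
  have f1d : φ1 d = φ e := by simp [hφ1]
  have f1e : φ1 e = φ d := by simp [hφ1]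
  have f1w : ∀ w, w ≠ d → w ≠ e → φ1 w = φ w := fun w h1 h2 => by
    simp [hφ1, swap_apply_of_ne_of_ne h1 h2]
  have f'e : φ' e = e := skip_self _ _
  have f'd : φ' d = d := by
    have h2 : skip φ1 d d = d := skip_self _ _
    have h3 : d ≠ skip φ1 d e := by
      intro h4
      exact hne ((skip φ1 d).injective (h2.trans h4))
    rw [hφ', skip, Perm.mul_apply, h2, swap_apply_of_ne_of_ne hne h3]
  have f'w : ∀ w, w ≠ d → w ≠ e → φ' w ≠ d ∧ φ' w ≠ e := fun w h1 h2 =>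
    ⟨fun h3 => h1 (φ'.injective (h3.trans f'd.symm)),
      fun h3 => h2 (φ'.injective (h3.trans f'e.symm))⟩
  have aw : ∀ w, w ≠ d → w ≠ e → α w ≠ d ∧ α w ≠ e := fun w h1 h2 =>
    ⟨fun h3 => h2 (α.injective (h3.trans hed.symm)),
      fun h3 => h1 (α.injective (h3.trans hde.symm))⟩
  have a'w : ∀ w, w ≠ d → w ≠ e → (α * swap d e) w = α w := fun w h1 h2 => by
    simp [swap_apply_of_ne_of_ne h1 h2]
  have key : ∀ f : D → ZMod 2, f (φ e) = f d → f (φ d) = f e → ∀ w, f (φ' w) = f (φ1 w) := by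
    intro f h1 h2 w
    have h3 : ∀ w, f (skip φ1 d w) = f (φ1 w) := skip_val φ1 d f (by rw [f1d, h1])
    rw [hφ', skip_val _ e f (by rw [h3, f1e, h2]), h3]
  obtain ⟨u, v, h1, h2, h3, h4⟩ : ∃ u v : ZMod 2, (φ e = e → v = u) ∧
      (φ e ≠ e → φ e ≠ d → ψ' (φ e) = u) ∧ (φ d = d → u = v) ∧
      (φ d ≠ d → φ d ≠ e → ψ' (φ d) = v) := by
    by_cases h1 : φ e = e <;> by_cases h2 : φ d = d
    · exact ⟨0, 0, by simp [h1, h2]⟩
    · exact ⟨ψ' (φ d), ψ' (φ d), by simp [h1, h2]⟩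
    · exact ⟨ψ' (φ e), ψ' (φ e), by simp [h1, h2]⟩
    · exact ⟨ψ' (φ e), ψ' (φ d), by simp [h1, h2]⟩
  set ψ : D → ZMod 2 := fun w => if w = d then u else if w = e then v else ψ' w with hψ
  have pd : ψ d = u := by simp [hψ]
  have pe : ψ e = v := by simp [hψ, hne.symm]
  have pw : ∀ w, w ≠ d → w ≠ e → ψ w = ψ' w := fun w h1 h2 => by simp [hψ, h1, h2]
  have q1 : ψ (φ e) = ψ d := by
    by_cases c1 : φ e = e
    · rw [c1, pe, pd, h1 c1]
    · by_cases c2 : φ e = d
      · rw [c2]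
      · rw [pw _ c2 c1, pd, h2 c1 c2]
  have q2 : ψ (φ d) = ψ e := by
    by_cases c1 : φ d = d
    · rw [c1, pe, pd, h3 c1]
    · by_cases c2 : φ d = e
      · rw [c2]
      · rw [pw _ c1 c2, pe, h4 c1 c2]
  have zz : ∀ w, w ≠ d → w ≠ e → ψ (φ w) + ψ w = ψ' (φ' w) + ψ' w := by
    intro w c1 c2
    rw [← f1w w c1 c2, ← key ψ q1 q2, pw w c1 c2, pw _ (f'w w c1 c2).1 (f'w w c1 c2).2]
  obtain ⟨χ, hχ1, hχ2⟩ := h ψ (by
    intro w
    by_cases c1 : w = d
    · rw [c1, hde, q1, q2, add_comm]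
    · by_cases c2 : w = e
      · rw [c2, hed, q1, q2, add_comm]
      · rw [zz w c1 c2, zz _ (aw w c1 c2).1 (aw w c1 c2).2, ← hψ' w, a'w w c1 c2])
  have r1 : χ (φ e) = χ d := by rw [← hχ2, hed]
  have r2 : χ (φ d) = χ e := by rw [← hχ2, hde]
  refine ⟨χ, fun w => ?_, fun w => ?_⟩
  · by_cases c1 : w = d
    · rw [c1, f'd, CharTwo.add_self_eq_zero, CharTwo.add_self_eq_zero]
    · by_cases c2 : w = e
      · rw [c2, f'e, CharTwo.add_self_eq_zero, CharTwo.add_self_eq_zero]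
      · rw [key χ r1 r2, f1w w c1 c2, hχ1, zz w c1 c2]
  · by_cases c1 : w = d
    · rw [c1, f'd]; simp [hed]
    · by_cases c2 : w = e
      · rw [c2, f'e]; simp [hde]
      · rw [key χ r1 r2, f1w w c1 c2, a'w w c1 c2, hχ2]

/-- Diamond move at the corner `d, e = φ d`: the pairs `(d,a), (e,b)` become `(d,e), (a,b)`.
Change `ψ'` at `e` to `ψ' d + z' a`, and then `χ` at `e` to `χ d + z' d`. -/
theorem planar_diamond (hα : ∀ x, α (α x) = x) {d e : D} (hde : φ d = e) (hne : d ≠ e)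
    (h1 : α d ≠ e) (h2 : α d ≠ d) (h3 : α e ≠ e) (h : Planar φ α) :
    Planar φ (swap e (α d) * α * swap e (α d)) := by
  intro ψ' hψ'
  obtain ⟨a, ha⟩ : ∃ a, α d = a := ⟨_, rfl⟩
  obtain ⟨b, hb⟩ : ∃ b, α e = b := ⟨_, rfl⟩
  rw [ha] at h1 h2 hψ' ⊢
  rw [hb] at h3
  have ha' : α a = d := by rw [← ha, hα]
  have hb' : α b = e := by rw [← hb, hα]
  have hbd : b ≠ d := fun h4 => h1 (by rw [← ha, ← h4, hb'])
  have hba : b ≠ a := fun h4 => hne (α.injective (by rw [ha, hb, h4]))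
  set α' := swap e a * α * swap e a with hα'
  have a'd : α' d = e := by
    simp [hα', swap_apply_of_ne_of_ne hne h2.symm, ha]
  have a'e : α' e = d := by
    simp [hα', ha', swap_apply_of_ne_of_ne hne h2.symm]
  have a'a : α' a = b := by
    simp [hα', hb, swap_apply_of_ne_of_ne h3 hba]
  have a'b : α' b = a := by
    simp [hα', swap_apply_of_ne_of_ne h3 hba, hb']
  have aw : ∀ w, w ≠ b → α w ≠ e := fun w c h4 => c (α.injective (h4.trans hb'.symm))
  have a'w : ∀ w, w ≠ d → w ≠ e → w ≠ a → w ≠ b → α' w = α w := by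
    intro w c1 c2 c3 c4
    have c5 : α w ≠ a := fun h4 => c1 (α.injective (h4.trans ha.symm))
    simp [hα', swap_apply_of_ne_of_ne c2 c3, swap_apply_of_ne_of_ne (aw w c4) c5]
  have fw : ∀ w, w ≠ d → φ w ≠ e := fun w c h4 => c (φ.injective (h4.trans hde.symm))
  have e1 := hψ' d
  have e2 := hψ' a
  rw [a'd, hde] at e1
  rw [a'a] at e2
  set ψ : D → ZMod 2 := fun w => if w = e then ψ' d + (ψ' (φ a) + ψ' a) else ψ' w with hψ
  have pe : ψ e = ψ' d + (ψ' (φ a) + ψ' a) := by simp [hψ]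
  have pw : ∀ w, w ≠ e → ψ w = ψ' w := fun w c => by simp [hψ, c]
  have zz : ∀ w, w ≠ d → w ≠ e → ψ (φ w) + ψ w = ψ' (φ w) + ψ' w := fun w c1 c2 => by
    rw [pw w c2, pw _ (fw w c1)]
  have zd : ψ (φ d) + ψ d = ψ' (φ a) + ψ' a := by
    rw [hde, pe, pw d hne]; linear_combination (ψ' d) * two_eq
  have ze : ψ (φ e) + ψ e = ψ' (φ a) + ψ' a := by
    rw [pe, pw _ (fw e hne.symm)]; linear_combination e1 + (ψ' d) * two_eq
  obtain ⟨χ, hχ1, hχ2⟩ := h ψ (by
    intro w
    by_cases c1 : w = d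
    · rw [c1, ha, zd, zz a h2 h1]
    by_cases c2 : w = e
    · rw [c2, hb, ze, zz b hbd h3, e2]
    by_cases c3 : w = a
    · rw [c3, ha', zd, zz a h2 h1]
    by_cases c4 : w = b
    · rw [c4, hb', ze, zz b hbd h3, e2]
    have c5 : α w ≠ d := fun h4 => c3 (α.injective (h4.trans ha'.symm))
    rw [zz w c1 c2, zz _ c5 (aw w c4), ← hψ' w, a'w w c1 c2 c3 c4])
  have r1 : χ (φ e) = χ d := by
    have t1 := hχ1 d
    have t2 := hχ1 e
    rw [zd, hde] at t1
    rw [ze] at t2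
    linear_combination t2 - t1
  set χ' : D → ZMod 2 := fun w => if w = e then χ d + (ψ' e + ψ' d) else χ w with hχ'
  have ce : χ' e = χ d + (ψ' e + ψ' d) := by simp [hχ']
  have cw : ∀ w, w ≠ e → χ' w = χ w := fun w c => by simp [hχ', c]
  refine ⟨χ', fun w => ?_, fun w => ?_⟩
  · by_cases c1 : w = d
    · rw [c1, hde, ce, cw d hne]; linear_combination (χ d) * two_eq
    by_cases c2 : w = e
    · rw [c2, ce, cw _ (fw e hne.symm), r1, e1]; linear_combination (χ d) * two_eq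
    rw [cw w c2, cw _ (fw w c1), hχ1, zz w c1 c2]
  · by_cases c1 : w = d
    · rw [c1, a'd, hde]
    by_cases c2 : w = e
    · rw [c2, a'e, cw d hne, cw _ (fw e hne.symm), r1]
    by_cases c3 : w = a
    · rw [c3, a'a, cw b h3, cw _ (fw a h2), ← hχ2 a, ha', ← r1, ← hχ2 e, hb]
    by_cases c4 : w = b
    · rw [c4, a'b, cw a h1, cw _ (fw b hbd), ← hχ2 b, hb', ← hde, ← hχ2 d, ha]
    rw [a'w w c1 c2 c3 c4, cw _ (aw w c4), cw _ (fw w c1), hχ2]

/-- Insert a spur `x → d → e → φ x` using two dead darts. -/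
theorem planar_spur (hα : ∀ x, α (α x) = x) {d e x : D} (hne : d ≠ e) (hxd : x ≠ d) (hxe : x ≠ e)
    (hd : φ d = d) (he : φ e = e) (hd' : α d = d) (he' : α e = e) (h : Planar φ α) :
    Planar (φ * (swap x e * swap x d)) (α * swap d e) := by
  intro ψ' hψ'
  set φ' := φ * (swap x e * swap x d) with hφ'
  set α' := α * swap d e with hα'
  have f'x : φ' x = d := by
    simp [hφ', swap_apply_of_ne_of_ne hxd.symm hne, hd]
  have f'd : φ' d = e := by simp [hφ', he]
  have f'e : φ' e = φ x := by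
    simp [hφ', swap_apply_of_ne_of_ne hxe.symm hne.symm]
  have f'w : ∀ w, w ≠ x → w ≠ d → w ≠ e → φ' w = φ w := fun w c1 c2 c3 => by
    simp [hφ', swap_apply_of_ne_of_ne c1 c2, swap_apply_of_ne_of_ne c1 c3]
  have a'd : α' d = e := by simp [hα', he']
  have a'e : α' e = d := by simp [hα', hd']
  have a'w : ∀ w, w ≠ d → w ≠ e → α' w = α w := fun w c1 c2 => by
    simp [hα', swap_apply_of_ne_of_ne c1 c2]
  have aw : ∀ w, w ≠ d → w ≠ e → α w ≠ d ∧ α w ≠ e := fun w h1 h2 =>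
    ⟨fun h3 => h1 (α.injective (h3.trans hd'.symm)),
      fun h3 => h2 (α.injective (h3.trans he'.symm))⟩
  have fw : ∀ w, w ≠ d → w ≠ e → φ w ≠ d ∧ φ w ≠ e := fun w h1 h2 =>
    ⟨fun h3 => h1 (φ.injective (h3.trans hd.symm)),
      fun h3 => h2 (φ.injective (h3.trans he.symm))⟩
  have e1 := hψ' d
  rw [a'd, f'e, f'd] at e1
  have e2 : ψ' (φ x) = ψ' d := by linear_combination e1
  have zz : ∀ w, w ≠ d → w ≠ e → ψ' (φ w) + ψ' w = ψ' (φ' w) + ψ' w := by
    intro w c1 c2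
    by_cases c3 : w = x
    · rw [c3, f'x, e2]
    · rw [f'w w c3 c1 c2]
  obtain ⟨χ, hχ1, hχ2⟩ := h ψ' (by
    intro w
    by_cases c1 : w = d
    · rw [c1, hd']
    by_cases c2 : w = e
    · rw [c2, he']
    rw [zz w c1 c2, zz _ (aw w c1 c2).1 (aw w c1 c2).2, ← hψ' w, a'w w c1 c2])
  set χ' : D → ZMod 2 := fun w => if w = d then χ (φ x) else
    if w = e then χ (φ x) + (ψ' e + ψ' d) else χ w with hχ'
  have cd : χ' d = χ (φ x) := by simp [hχ']
  have ce : χ' e = χ (φ x) + (ψ' e + ψ' d) := by simp [hχ', hne.symm]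
  have cw : ∀ w, w ≠ d → w ≠ e → χ' w = χ w := fun w c1 c2 => by simp [hχ', c1, c2]
  have cf : ∀ w, w ≠ d → w ≠ e → χ' (φ' w) = χ (φ w) := by
    intro w c1 c2
    by_cases c3 : w = x
    · rw [c3, f'x, cd]
    · rw [f'w w c3 c1 c2, cw _ (fw w c1 c2).1 (fw w c1 c2).2]
  refine ⟨χ', fun w => ?_, fun w => ?_⟩
  · by_cases c1 : w = d
    · rw [c1, f'd, ce, cd]; linear_combination (χ (φ x)) * two_eq
    by_cases c2 : w = e
    · rw [c2, f'e, ce, cw _ (fw x hxd hxe).1 (fw x hxd hxe).2, e2]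
      linear_combination (χ (φ x)) * two_eq
    rw [cf w c1 c2, cw w c1 c2, hχ1, zz w c1 c2]
  · by_cases c1 : w = d
    · rw [c1, a'd, f'd]
    by_cases c2 : w = e
    · rw [c2, a'e, f'e, cd, cw _ (fw x hxd hxe).1 (fw x hxd hxe).2]
    rw [cf w c1 c2, a'w w c1 c2, cw _ (aw w c1 c2).1 (aw w c1 c2).2, hχ2]

/-- Create a new component, a single edge with one face `d → e → d`. -/
theorem planar_newSpur (hα : ∀ x, α (α x) = x) {d e : D} (hne : d ≠ e)
    (hd : φ d = d) (he : φ e = e) (hd' : α d = d) (he' : α e = e) (h : Planar φ α) :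
    Planar (φ * swap d e) (α * swap d e) := by
  intro ψ' hψ'
  set φ' := φ * swap d e with hφ'
  set α' := α * swap d e with hα'
  have f'd : φ' d = e := by simp [hφ', he]
  have f'e : φ' e = d := by simp [hφ', hd]
  have f'w : ∀ w, w ≠ d → w ≠ e → φ' w = φ w := fun w c1 c2 => by
    simp [hφ', swap_apply_of_ne_of_ne c1 c2]
  have a'd : α' d = e := by simp [hα', he']
  have a'e : α' e = d := by simp [hα', hd']
  have a'w : ∀ w, w ≠ d → w ≠ e → α' w = α w := fun w c1 c2 => by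
    simp [hα', swap_apply_of_ne_of_ne c1 c2]
  have aw : ∀ w, w ≠ d → w ≠ e → α w ≠ d ∧ α w ≠ e := fun w h1 h2 =>
    ⟨fun h3 => h1 (α.injective (h3.trans hd'.symm)),
      fun h3 => h2 (α.injective (h3.trans he'.symm))⟩
  have fw : ∀ w, w ≠ d → w ≠ e → φ w ≠ d ∧ φ w ≠ e := fun w h1 h2 =>
    ⟨fun h3 => h1 (φ.injective (h3.trans hd.symm)),
      fun h3 => h2 (φ.injective (h3.trans he.symm))⟩
  obtain ⟨χ, hχ1, hχ2⟩ := h ψ' (by
    intro w
    by_cases c1 : w = d
    · rw [c1, hd']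
    by_cases c2 : w = e
    · rw [c2, he']
    have := hψ' w
    rwa [a'w w c1 c2, f'w w c1 c2, f'w _ (aw w c1 c2).1 (aw w c1 c2).2] at this)
  set χ' : D → ZMod 2 := fun w => if w = d ∨ w = e then ψ' w else χ w with hχ'
  have cd : χ' d = ψ' d := by simp [hχ']
  have ce : χ' e = ψ' e := by simp [hχ']
  have cw : ∀ w, w ≠ d → w ≠ e → χ' w = χ w := fun w c1 c2 => by simp [hχ', c1, c2]
  refine ⟨χ', fun w => ?_, fun w => ?_⟩
  · by_cases c1 : w = d
    · rw [c1, f'd, ce, cd]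
    by_cases c2 : w = e
    · rw [c2, f'e, ce, cd]
    rw [f'w w c1 c2, cw w c1 c2, cw _ (fw w c1 c2).1 (fw w c1 c2).2, hχ1]
  · by_cases c1 : w = d
    · rw [c1, a'd, f'd]
    by_cases c2 : w = e
    · rw [c2, a'e, f'e]
    rw [f'w w c1 c2, a'w w c1 c2, cw _ (aw w c1 c2).1 (aw w c1 c2).2,
      cw _ (fw w c1 c2).1 (fw w c1 c2).2, hχ2]

/-- Pinch a face.  For `x ≠ y` in one `φ`-cycle, `x` and `y` lie in different cycles of
`φ' = φ * swap x y`; add a constant to `ψ'` on the `φ'`-cycle of `y` so that `ψ (φ x) = ψ (φ y)`;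
`χ + ψ` is constant on `φ`-cycles so `χ (φ x) = χ (φ y)`. -/
theorem planar_pinch [Fintype D] {x y : D} (hxy : φ.SameCycle x y) (h : Planar φ α) :
    Planar (φ * swap x y) α := by
  classical
  by_cases hne : x = y
  · subst hne; rw [swap_self]; exact h
  intro ψ' hψ'
  have hn := not_sameCycle_pinch hne hxy
  set φ' := φ * swap x y with hφ'
  have f'x : φ' x = φ y := by simp [hφ']
  have f'y : φ' y = φ x := by simp [hφ']
  have key : ∀ f : D → ZMod 2, f (φ x) = f (φ y) → ∀ w, f (φ' w) = f (φ w) := by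
    intro f hf w
    by_cases c1 : w = x
    · rw [c1, f'x, hf]
    by_cases c2 : w = y
    · rw [c2, f'y, hf]
    simp [hφ', swap_apply_of_ne_of_ne c1 c2]
  set c : D → ZMod 2 := fun w => if φ'.SameCycle y w then ψ' (φ x) + ψ' (φ y) else 0 with hc
  have cf : ∀ w, c (φ' w) = c w := fun w => by simp only [hc, Perm.sameCycle_apply_right]
  have cx : c (φ y) = 0 := by rw [← f'x, cf]; simp [hc, hn]
  have cy : c (φ x) = ψ' (φ x) + ψ' (φ y) := by
    rw [← f'y, cf]; simp [hc, Perm.SameCycle.refl, f'y]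
  set ψ : D → ZMod 2 := fun w => ψ' w + c w with hψ
  have q : ψ (φ x) = ψ (φ y) := by
    simp only [hψ, cx, cy]; linear_combination (ψ' (φ x)) * two_eq
  have zz : ∀ w, ψ (φ w) + ψ w = ψ' (φ' w) + ψ' w := by
    intro w
    rw [← key ψ q]
    simp only [hψ, cf]; linear_combination (c w) * two_eq
  obtain ⟨χ, hχ1, hχ2⟩ := h ψ (fun w => by rw [zz, zz, hψ'])
  have r : χ (φ x) = χ (φ y) := by
    have := const_of_sameCycle (φ := φ) (fun w => χ w + ψ w)
      (fun w => by linear_combination hχ1 w + (ψ (φ w) - χ w) * two_eq)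
      (x := φ x) (y := φ y) (by simpa using hxy)
    linear_combination this - q
  exact ⟨χ, fun w => by rw [key χ r, hχ1, zz], fun w => by rw [key χ r, hχ2]⟩

/-- adjoin dead darts -/
theorem planar_sum {D' : Type} (h : Planar φ α) :
    Planar (Perm.sumCongr φ (1 : Perm D')) (Perm.sumCongr α (1 : Perm D')) := by
  intro ψ' hψ'
  obtain ⟨χ, hχ1, hχ2⟩ := h (fun w => ψ' (Sum.inl w)) (fun w => by simpa using hψ' (Sum.inl w))
  refine ⟨Sum.elim χ (fun w => ψ' (Sum.inr w)), ?_, ?_⟩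
  · rintro (w | w)
    · simpa using hχ1 w
    · simp
  · rintro (w | w)
    · simpa using hχ2 w
    · simp

/-- restrict to an invariant set of darts (extend `ψ` by zero) -/
theorem planar_subtype {p : D → Prop} (hφ : ∀ x, p (φ x) ↔ p x) (hα : ∀ x, p (α x) ↔ p x)
    (h : Planar φ α) : Planar (φ.subtypePerm hφ) (α.subtypePerm hα) := by
  classical
  intro ψ' hψ'
  set ψ : D → ZMod 2 := fun w => if hw : p w then ψ' ⟨w, hw⟩ else 0 with hψ
  have pp : ∀ w : {x // p x}, ψ w.1 = ψ' w := fun w => by simp [hψ, w.2]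
  have pn : ∀ w, ¬ p w → ψ w = 0 := fun w hw => by simp [hψ, hw]
  obtain ⟨χ, hχ1, hχ2⟩ := h ψ (by
    intro w
    by_cases hw : p w
    · have := hψ' ⟨w, hw⟩
      simp only [← pp] at this
      exact this
    · rw [pn w hw, pn (φ w) (by rwa [hφ]), pn (α w) (by rwa [hα]),
        pn (φ (α w)) (by rwa [hφ, hα])])
  refine ⟨fun w => χ w.1, fun w => ?_, fun w => hχ2 w.1⟩
  simp only [← pp]
  exact hχ1 w.1

theorem planar_one : Planar (1 : Perm D) 1 := by
  intro ψ _
  exact ⟨ψ, fun _ => rfl, fun _ => rfl⟩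

end Crest.Agent.R177
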