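import Mathlib

set_option autoImplicit false

namespace Crest.Agent.R177

theorem exists_sep_normal {G : Type} [Group G] [Group.ResiduallyFinite G] (S : Finset G) :
    ∃ H : Subgroup G, H.Normal ∧ H.FiniteIndex ∧ ∀ g ∈ S, g ∈ H → g = 1 := by
  classical
  induction S using Finset.induction_on with
  | empty => exact ⟨⊤, inferInstance, inferInstance, by simp⟩
  | insert g S _ ih =>
    obtain ⟨H, hn, hf, hH⟩ := ih
    by_cases hg : g = 1
    · refine ⟨H, hn, hf, fun x hx hxH => ?_⟩
      rcases Finset.mem_insert.mp hx with rfl | hx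
      · exact hg
      · exact hH x hx hxH
    · obtain ⟨H', hH'⟩ := Group.exists_finiteIndexNormalSubgroup_notMem g hg
      refine ⟨H ⊓ H'.toSubgroup, inferInstance, inferInstance, fun x hx hxH => ?_⟩
      rcases Finset.mem_insert.mp hx with rfl | hx
      · exact absurd hxH.2 hH'
      · exact hH x hx hxH.1

/-- group algebras of residually finite groups over a field are directly finite -/
theorem not_residuallyFinite {k G : Type} [Field k] [Group G] {a b c : MonoidAlgebra k G}
    (hab : a * b = 1) (hac : a * c = 0) (hc : c ≠ 0) : ¬ Group.ResiduallyFinite G := by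
  classical
  intro hRF
  obtain ⟨H, hn, hf, hH⟩ := exists_sep_normal
    ((c.coeff.support ×ˢ c.coeff.support).image (fun x : G × G => x.1⁻¹ * x.2))
  let f : MonoidAlgebra k G →+* MonoidAlgebra k (G ⧸ H) :=
    MonoidAlgebra.mapDomainRingHom k (QuotientGroup.mk' H)
  have hinj : Set.InjOn (QuotientGroup.mk' H) (c.coeff.support : Set G) := by
    intro x hx y hy hxy
    have h1 : x⁻¹ * y ∈ H := QuotientGroup.eq.mp hxy
    have h2 := hH (x⁻¹ * y) (Finset.mem_image.mpr ⟨(x, y), Finset.mem_product.mpr ⟨hx, hy⟩, rfl⟩) h1
    exact eq_of_inv_mul_eq_one h2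
  have hfc : f c ≠ 0 := by
    intro h0
    apply hc
    have h1 : Finsupp.mapDomain (QuotientGroup.mk' H) c.coeff = 0 :=
      congrArg MonoidAlgebra.coeff h0
    have h2 : c.coeff = 0 := by
      apply Finsupp.mapDomain_injOn (c.coeff.support : Set G) hinj
      · exact fun _ h => h
      · simp
      · rw [h1]; simp
    ext x
    simp [h2]
  have hfin : Finite (G ⧸ H) := Subgroup.finite_quotient_of_finiteIndex
  have hab' : f a * f b = 1 := by rw [← map_mul, hab, map_one]
  have hac' : f a * f c = 0 := by rw [← map_mul, hac, map_zero]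
  have hsurj : Function.Surjective (LinearMap.mulLeft k (f a)) := by
    intro y
    exact ⟨f b * y, by simp [← mul_assoc, hab']⟩
  have hi : Function.Injective (LinearMap.mulLeft k (f a)) :=
    LinearMap.injective_iff_surjective.mpr hsurj
  exact hfc (hi (by simp [hac']))

end Crest.Agent.R177
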