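import Crest.Agent.R177.FKPath
import Crest.Agent.R177.RegRep.Rep
import Crest.Prelude.Def_GroupRingDet

set_option autoImplicit false

namespace Crest.Agent.R177

open Equiv

open Crest.AlgebraR.GroupRingDet

namespace RegRepAux

variable {G : Type} [Group G] {n : ℕ} {H : Type} [NormedAddCommGroup H] [InnerProductSpace ℂ H]
  [CompleteSpace H] (b : HilbertBasis (Fin n × G) ℂ H)

theorem logDet_eq (T : H →L[ℂ] H) :
    logDet b T = (1 / 2) * (tr b (cfc Real.log (star T * T))).re := by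
  unfold logDet opTrace
  rw [tr_apply, Complex.re_sum]

/-- `logDet` along a path `(1 + φ t • P) T` -/
theorem logDet_path {P T Ti : H →L[ℂ] H} (hP : P ∈ comm b) (hT : T ∈ comm b) (hTi : Ti ∈ comm b)
    (h1 : T * Ti = 1) (h2 : Ti * T = 1) (φ φ' ψ : ℝ → ℝ) (hφ : ∀ t, HasDerivAt φ (φ' t) t)
    (hφ' : Continuous φ') (hφ0 : φ 0 = 0)
    (hinv : ∀ t, ((φ t + ψ t : ℝ) : ℂ) • P + ((φ t * ψ t : ℝ) : ℂ) • (P * P) = 0) (κ : ℝ)
    (hκ : ∀ t, (tr b (((φ' t : ℝ) : ℂ) • P + ((φ' t * ψ t : ℝ) : ℂ) • (P * P))).re = κ) :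
    logDet b ((1 + ((φ 1 : ℝ) : ℂ) • P) * T) = logDet b T + κ := by
  have hu : ∀ t, (1 + ((φ t : ℝ) : ℂ) • P) * (1 + ((ψ t : ℝ) : ℂ) • P) = 1 := by
    intro t
    have : (1 + ((φ t : ℝ) : ℂ) • P) * (1 + ((ψ t : ℝ) : ℂ) • P) =
        1 + (((φ t + ψ t : ℝ) : ℂ) • P + ((φ t * ψ t : ℝ) : ℂ) • (P * P)) := by
      simp only [mul_add, add_mul, mul_one, one_mul, smul_mul_smul_comm, Complex.ofReal_add,
        Complex.ofReal_mul, add_smul]
      abel
    rw [this, hinv, add_zero]
  have hu' : ∀ t, (1 + ((ψ t : ℝ) : ℂ) • P) * (1 + ((φ t : ℝ) : ℂ) • P) = 1 := by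
    intro t
    have : (1 + ((ψ t : ℝ) : ℂ) • P) * (1 + ((φ t : ℝ) : ℂ) • P) =
        1 + (((φ t + ψ t : ℝ) : ℂ) • P + ((φ t * ψ t : ℝ) : ℂ) • (P * P)) := by
      simp only [mul_add, add_mul, mul_one, one_mul, smul_mul_smul_comm, Complex.ofReal_add,
        Complex.ofReal_mul, add_smul, mul_comm (ψ t : ℂ)]
      abel
    rw [this, hinv, add_zero]
  have hmem : ∀ c : ℂ, 1 + c • P ∈ comm b := fun c => add_mem (one_mem _) (SMulMemClass.smul_mem _ hP)
  have key := fk_path (comm b) (isClosed_comm b) (tr b) (fun x hx y hy => tr_comm b hx hy)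
    (tr_star b) (fun t => (1 + ((φ t : ℝ) : ℂ) • P) * T) (fun t => (((φ' t : ℝ) : ℂ) • P) * T)
    (fun t => Ti * (1 + ((ψ t : ℝ) : ℂ) • P))
    (fun t => (((hφ t).ofReal_comp.smul_const P).const_add 1).mul_const T)
    (((Complex.continuous_ofReal.comp hφ').smul continuous_const).mul continuous_const)
    (fun t => mul_mem (hmem _) hT) (fun t => mul_mem (SMulMemClass.smul_mem _ hP) hT)
    (fun t => mul_mem hTi (hmem _))
    (fun t => ⟨by rw [mul_assoc, ← mul_assoc T, h1, one_mul, hu],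
      by rw [mul_assoc, ← mul_assoc _ _ T, hu', one_mul, h2]⟩) κ
    (fun t => by
      rw [mul_assoc, tr_comm b hTi
        (mul_mem (hmem _) (mul_mem (SMulMemClass.smul_mem _ hP) hT)), mul_assoc, mul_assoc, h1,
        mul_one, ← hκ t]
      congr 2
      simp only [add_mul, one_mul, smul_mul_smul_comm, Complex.ofReal_mul, mul_comm (ψ t : ℂ)])
  simp only [hφ0, Complex.ofReal_zero, zero_smul, add_zero, one_mul] at key
  rw [logDet_eq, logDet_eq, key]
  ring

theorem logDet_nil (N T : Matrix (Fin n) (Fin n) (MonoidAlgebra ℚ G)) (hN : N * N = 0)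
    (hd : ∀ i, N i i = 0) (hT : IsUnit T) :
    logDet b (lam b ((1 + N) * T)) = logDet b (lam b T) := by
  obtain ⟨u, rfl⟩ := hT
  have hNN : lam b N * lam b N = 0 := by rw [← map_mul, hN, map_zero]
  have := logDet_path b (lam_mem_comm b N) (lam_mem_comm b u) (lam_mem_comm b (↑u⁻¹))
    (by rw [← map_mul]; simp) (by rw [← map_mul]; simp) (fun t => t) (fun _ => 1) (fun t => -t)
    (fun t => hasDerivAt_id t) continuous_const rfl (fun t => by simp [hNN]) 0
    (fun t => by simp [hNN, tr_lam, hd])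
  simpa using this

theorem logDet_idem (e T : Matrix (Fin n) (Fin n) (MonoidAlgebra ℚ G)) (r : ℚ) (he : e * e = e)
    (hr : 0 < r) (hT : IsUnit T) :
    logDet b (lam b ((1 + (r - 1) • e) * T)) =
      logDet b (lam b T) + Real.log r * ((∑ i, (e i i).coeff 1 : ℚ) : ℝ) := by
  obtain ⟨u, rfl⟩ := hT
  have hee : lam b e * lam b e = lam b e := by rw [← map_mul, he]
  have hr' : (0 : ℝ) < r := by exact_mod_cast hr
  set l := Real.log r with hl
  have hexp : ∀ t, Real.exp (t * l) * Real.exp (-(t * l)) = 1 := fun t => by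
    rw [← Real.exp_add]; simp
  have := logDet_path b (lam_mem_comm b e) (lam_mem_comm b u) (lam_mem_comm b (↑u⁻¹))
    (by rw [← map_mul]; simp) (by rw [← map_mul]; simp) (fun t => Real.exp (t * l) - 1)
    (fun t => Real.exp (t * l) * l) (fun t => Real.exp (-(t * l)) - 1)
    (fun t => by simpa using (((hasDerivAt_id t).mul_const l).exp).sub_const 1)
    (by fun_prop) (by simp)
    (fun t => by
      rw [hee, ← add_smul, ← Complex.ofReal_add]
      have : Real.exp (t * l) - 1 + (Real.exp (-(t * l)) - 1) +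
          (Real.exp (t * l) - 1) * (Real.exp (-(t * l)) - 1) = 0 := by
        linear_combination hexp t
      rw [this]; simp)
    (l * ((∑ i, (e i i).coeff 1 : ℚ) : ℝ))
    (fun t => by
      rw [hee, ← add_smul, ← Complex.ofReal_add]
      have : Real.exp (t * l) * l + Real.exp (t * l) * l * (Real.exp (-(t * l)) - 1) = l := by
        linear_combination l * hexp t
      rw [this, map_smul, tr_lam, smul_eq_mul, ← Complex.ofReal_ratCast, ← Complex.ofReal_mul,
        Complex.ofReal_re])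
  rw [← this, map_mul, map_add, map_one, lam_apply b ((r - 1) • e), lamOp_smul, one_mul, hl,
    Real.exp_log hr', lam_apply b e]
  push_cast
  rfl

end RegRepAux

/-- TASK RegRep: the left regular representation on `H = lp (fun _ : Fin n × G => ℂ) 2` (or any
Hilbert space with such a basis) and multiplicativity of `logDet` for the factors that we need.
`Λ A` is the operator with `⟨b (i,h), Λ A (b (j,g))⟩ = (A i j).coeff (h * g⁻¹)` (finite sum of scalars
times isometries composed with matrix units).  All `Λ A` commute with the right translations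
`b (j,g) ↦ b (j, g k)`; the commutant `M` of those is a closed star subalgebra on which
`τ S = ∑ i, ⟨b (i,1), S (b (i,1))⟩` is tracial (expand in the Hilbert basis).  Use `fk_path` with
`x t = (1 + t Λ N) Λ T` and `x t = (1 + (exp (t l) - 1) Λ e) Λ T`. -/
theorem exists_regRep (G : Type) [Group G] (n : ℕ) :
    ∃ (H : Type) (_ : NormedAddCommGroup H) (_ : InnerProductSpace ℂ H) (_ : CompleteSpace H)
      (b : HilbertBasis (Fin n × G) ℂ H)
      (Λ : Matrix (Fin n) (Fin n) (MonoidAlgebra ℚ G) →+* (H →L[ℂ] H)),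
      (∀ A i j g h, inner ℂ (b (i, h)) (Λ A (b (j, g))) = (((A i j).coeff (h * g⁻¹) : ℚ) : ℂ)) ∧
      logDet b (Λ 1) = 0 ∧
      (∀ N T, N * N = 0 → (∀ i, N i i = 0) → IsUnit T →
        logDet b (Λ ((1 + N) * T)) = logDet b (Λ T)) ∧
      (∀ (e T : Matrix (Fin n) (Fin n) (MonoidAlgebra ℚ G)) (r : ℚ), e * e = e → 0 < r →
        IsUnit T → logDet b (Λ ((1 + (r - 1) • e) * T)) =
          logDet b (Λ T) + Real.log r * ((∑ i, (e i i).coeff 1 : ℚ) : ℝ)) := by
  refine ⟨lp (fun _ : Fin n × G => ℂ) 2, inferInstance, inferInstance, inferInstance, default,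
    RegRepAux.lam default, fun A i j g h => RegRepAux.inner_lamOp _ A i j g h, ?_,
    fun N T hN hd hT => RegRepAux.logDet_nil _ N T hN hd hT,
    fun e T r he hr hT => RegRepAux.logDet_idem _ e T r he hr hT⟩
  rw [RegRepAux.logDet_eq, map_one]
  simp

end Crest.Agent.R177
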