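import Crest.Agent.R177.Defs
import Crest.Agent.R177.Sep.Recursion

set_option autoImplicit false

namespace Crest.Agent.R177

open Equiv

/-- TASK Sep: graphs without a `K_h` minor are hyperfinite (vertex version).
Proof (Plotkin-Rao-Smith separators, then recursion).
(1) Separator: on a vertex set `A` with `|A| = n` (work with induced subgraphs `H.induce A`, or with
Finsets `A` of vertices and reachability inside `A`), for a parameter `l ≥ 1` there is `X ⊆ A`,
`|X| ≤ n / l + h * h * D` with `D ≈ 2 l (log2 n + 1) + 2`, such that every component of `A \ X`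
has at most `2n/3` vertices.  Maintain: `R ⊆ A` connected, `S` (removed so far), pairwise adjacent
disjoint connected branch sets `B_1..B_k` (`k < h`, each of size `≤ h D`, disjoint from `R`, each with
a neighbour in `R`), such that every neighbour of `R` outside `R` lies in `S ∪ ⋃ B_i`,
`l |S| ≤ n - |R|`-type bound, and while `|R| > 2n/3` do: BFS in `R` from a vertex `v`.  If the depth
is `> D` some level `L_i` has `l |L_i| ≤ min (|levels < i|, |levels > i|)` (otherwise one side grows
by a factor `1 + 1/l` for `l log2 n` steps); put `L_i` into `S` and let `R` be the largest component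
of the rest.  Otherwise take as new branch set the union of BFS paths from `v` to one neighbour of each
`B_i` (size `≤ h D`), remove it from `R`, let `R` be the largest component of the rest.  Drop the
branch sets with no neighbour in the new `R`.  `k = h` would be a clique minor.  `|R|` decreases.
Everything outside `R ∪ S ∪ ⋃ B_i` has at most `n/3` vertices while `|R| > 2n/3`, and the last step
splits off components no larger than the largest one; so the final `X = S ∪ ⋃ B_i` works.
(2) With `l ≈ n^(1/3)` (any choice giving `|X| ≤ c n^(3/4)`, say) split components greedily into two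
groups of size between `n/3 - |X|` and `2n/3`, and prove by strong induction on `n` that for
`n > K/4` one can delete `≤ n/m - c' n^(3/4)` vertices leaving components of size `≤ K`
(concavity: `a^(3/4) + b^(3/4) ≥ (1+η) (a+b)^(3/4)` for `a, b ≥ (a+b)/4`).  Any other route is fine,
e.g. summing the separator ratios over the geometric scales `(3/4)^i n`. -/
theorem sep (h m : ℕ) : ∃ K : ℕ, ∀ (P : Type) [Fintype P] [DecidableEq P] (H : SimpleGraph P),
    ¬ HasCliqueMinor H h → ∃ (X : Finset P) (c : P → ℕ), m * X.card ≤ Fintype.card P ∧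
      (∀ x y, x ∉ X → y ∉ X → H.Adj x y → c x = c y) ∧
      ∀ n, (Finset.univ.filter (fun x => x ∉ X ∧ c x = n)).card ≤ K := by
  obtain ⟨J, hJ⟩ := SepAux.exists_scale h
  refine ⟨2 ^ (J + 2 * m + 1), fun P _ _ H hH => ?_⟩
  obtain ⟨X, c, h1, h2, h3⟩ := SepAux.recursion hH (j₀ := J + 2 * m + 1) (by omega)
    (fun j hj => hJ j (by omega)) (J + 2 * m + 1 + Fintype.card P) (by omega) Finset.univ
    (by
      rw [Finset.card_univ]
      exact (Nat.lt_two_pow_self).le.trans (Nat.pow_le_pow_right (by norm_num) (by omega)))
  refine ⟨X, c, ?_, fun x y => h2 x (Finset.mem_univ _) y (Finset.mem_univ _), h3⟩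
  rw [Finset.card_univ] at h1
  have h0 : (0 : ℝ) ≤ Fintype.card P := Nat.cast_nonneg _
  have h4 : (0 : ℝ) ≤ 2 / ((J + 2 * m + 1 + Fintype.card P : ℕ) : ℝ) := by positivity
  have h5 : (X.card : ℝ) ≤ Fintype.card P * (2 / ((J + 2 * m + 1 : ℕ) : ℝ)) :=
    h1.trans (mul_le_mul_of_nonneg_left (by linarith) h0)
  have h6 : (m : ℝ) * (2 / ((J + 2 * m + 1 : ℕ) : ℝ)) ≤ 1 := by
    rw [← mul_div_assoc, div_le_one (by positivity)]
    push_cast
    linarith [(Nat.cast_nonneg J : (0 : ℝ) ≤ J)]
  have h7 : (m : ℝ) * X.card ≤ Fintype.card P := by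
    have := mul_le_mul_of_nonneg_left h5 (Nat.cast_nonneg m : (0 : ℝ) ≤ m)
    nlinarith
  exact_mod_cast h7

end Crest.Agent.R177
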