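import Crest.Agent.R177.DefsPat
import Crest.Agent.R177.Switch.Model

set_option autoImplicit false

namespace Crest.Agent.R177

open Equiv

/-! TASK Switch: switchings in the uniform model of matchings of girth `> g`.
All degrees are at most `Δ = |T| + 3` (letters at a vertex are distinct; a connector has at most
three slots, or simply at most `|T|` since its letters are distinct), and a vertex carries at most one
edge of each class, so at most `2 Δ^g` edges of a given class have an end reachable from an end of `e`
by a walk of length `< g`.  Switch `e, e'` of the same class: `σ' = (swap e e').trans σ`.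
Key lemma: if `graph σ` has no nonempty closed `NB` walk of length `< h`, `h ≤ g`, and the ends of `e`
are at distance `≥ g` from the ends of `e'`, then every nonempty closed `NB` walk of `graph σ'` of
length `≤ h` avoids `e, e'` (so it is a walk of `graph σ`).  (Take a shortest counterexample; strip
cancelling first/last darts and rotate so that it starts with a use of `e` or `e'`, say `e : x → κ'`;
the stretch up to the next use has length `< g`, avoids `e,e'`, so it ends at `κ'` (then it is closed:
empty, giving a backtrack, or of length `≥ h`) or at `x'` (then with `e'` it is closed in `graph σ`, so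
of length `≥ h - 1`, and the total length is `> h`).)
Existence: take `σ` maximising `min girth (g+1)` and then minimising the number of shortest closed `NB`
walks.  Counting: for `h = h' ∪ {(e,w)}` the map `(σ, e') ↦ σ'` from
`{σ ∈ Good, σ ⊇ h} × {e' far from e, of the class of e, not in h}` to `{σ' ∈ Good, σ' ⊇ h'}` is
injective (`e' = σ'⁻¹ w`). -/

variable {T C U W : Type} [Fintype T] [DecidableEq T] [Fintype C] [DecidableEq C] [Fintype U]
  [DecidableEq U] [Fintype W] [DecidableEq W] (Y : SlotSys T C U W) {π : Perm T}
  {τ : T → T → C → C} {q N : ℕ}

theorem good_nonempty (hB : Y.Bounds π τ q N) (g : ℕ)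
    (hN : 2 * (Fintype.card T + 3) ^ (g + 1) < (q + 1) * N) : (Y.Good g).Nonempty := by
  obtain ⟨σ, hσ⟩ := SwitchAux.exists_girth Y hB g hN g le_rfl
  exact ⟨σ, (SwitchAux.mem_good Y g σ).mpr hσ⟩

theorem good_count (hB : Y.Bounds π τ q N) (g : ℕ) (h : Finset (Y.E × Y.WS)) :
    ((Y.Good g).filter (fun σ => ∀ x ∈ h, σ.1 x.1 = x.2)).card *
      ((q + 1) * N - (h.card + 2 * (Fintype.card T + 3) ^ (g + 1))) ^ h.card ≤
        (Y.Good g).card := by
  have h1 := SwitchAux.count_all Y hB g h.card h le_rfl
  have h2 : (Y.Good g).filter (fun σ => ∀ x ∈ h, σ.1 x.1 = x.2) = SwitchAux.ext Y g h := by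
    ext σ
    rw [Finset.mem_filter, SwitchAux.mem_ext, SwitchAux.mem_good]
  rw [h2]
  exact h1

end Crest.Agent.R177
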